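import Mathlib

/-!
# P065: the final asymptotic lemma

From a family of sparse sequences (one for every `J`) with `log n_j ≤ B (C J)^j` and
`M_j ≥ n_j exp (c J^j)` to `h(n) ≥ n exp ((log n)^(1 - ε))` for all large even `n`.
-/

namespace Vale.Agent.P065

open Filter Real

/-- the exponent `log J / log (C J)` tends to `1` -/
theorem exists_J (C : ℝ) (hC : 1 ≤ C) (J0 : ℕ) (ε : ℝ) (hε : 0 < ε) :
    ∃ J : ℕ, J0 ≤ J ∧ 2 ≤ J ∧ (1 - ε) * Real.log (C * J) ≤ Real.log J := by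
  have h1 : Tendsto (fun J : ℕ => ε * Real.log (J : ℝ)) atTop atTop :=
    (Real.tendsto_log_atTop.comp tendsto_natCast_atTop_atTop).const_mul_atTop hε
  have h2 := (h1.eventually_ge_atTop (|1 - ε| * Real.log C)).and
    ((eventually_ge_atTop J0).and (eventually_ge_atTop 2))
  obtain ⟨J, hJ1, hJ2, hJ3⟩ := h2.exists
  refine ⟨J, hJ2, hJ3, ?_⟩
  have hJ0 : (0 : ℝ) < J := by
    have : (2 : ℝ) ≤ J := by exact_mod_cast hJ3
    linarith
  rw [Real.log_mul (by linarith) hJ0.ne']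
  have h3 : (1 - ε) * Real.log C ≤ |1 - ε| * Real.log C :=
    mul_le_mul_of_nonneg_right (le_abs_self _) (Real.log_nonneg hC)
  linarith

/-- growth comparison -/
theorem grow (ε : ℝ) (hε : 0 < ε) (hε1 : ε ≤ 1) (K θ L : ℝ) (hK : 0 < K) (hL : 0 ≤ L)
    (hθ : 1 - ε / 2 ≤ θ) : ∀ᶠ x : ℝ in atTop, x ^ (1 - ε) + L ≤ K * x ^ θ := by
  have h1 : Tendsto (fun x : ℝ => x ^ (ε / 2)) atTop atTop :=
    tendsto_rpow_atTop (by positivity)
  filter_upwards [eventually_ge_atTop (1 : ℝ),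
    h1.eventually_ge_atTop ((1 + L) / K)] with x hx1 hx2
  have hx0 : 0 < x := by linarith
  have e1 : 1 ≤ x ^ (1 - ε) := Real.one_le_rpow hx1 (by linarith)
  have e2 : x ^ (1 - ε) * x ^ (ε / 2) ≤ x ^ θ := by
    rw [← Real.rpow_add hx0]
    exact Real.rpow_le_rpow_of_exponent_le hx1 (by linarith)
  have e3 : 1 + L ≤ K * x ^ (ε / 2) := by
    rw [div_le_iff₀ hK] at hx2
    linarith
  calc x ^ (1 - ε) + L ≤ x ^ (1 - ε) + x ^ (1 - ε) * L := by
        have := mul_le_mul_of_nonneg_right e1 hL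
        linarith
    _ = x ^ (1 - ε) * (1 + L) := by ring
    _ ≤ x ^ (1 - ε) * (K * x ^ (ε / 2)) := mul_le_mul_of_nonneg_left e3 (by positivity)
    _ = K * (x ^ (1 - ε) * x ^ (ε / 2)) := by ring
    _ ≤ K * x ^ θ := mul_le_mul_of_nonneg_left e2 hK.le

/-- choice of the index -/
theorem exists_index (J : ℕ) (hJ : 2 ≤ J) (C : ℝ) (hC : 1 ≤ C) (y : ℝ) (hy : 1 ≤ y) :
    ∃ j : ℕ, (C * J) ^ j ≤ y ∧
      y ^ (Real.log J / Real.log (C * J)) ≤ (J : ℝ) ^ j * J := by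
  have hJR : (2 : ℝ) ≤ J := by exact_mod_cast hJ
  have hJ0 : (0 : ℝ) < J := by linarith
  have hCJ : (2 : ℝ) ≤ C * J := by nlinarith
  have hlCJ : 0 < Real.log (C * J) := Real.log_pos (by linarith)
  have hlJ : 0 < Real.log J := Real.log_pos (by linarith)
  have hy0 : 0 < y := by linarith
  have hly : 0 ≤ Real.log y := Real.log_nonneg hy
  refine ⟨⌊Real.log y / Real.log (C * J)⌋₊, ?_, ?_⟩
  · have h1 := Nat.floor_le (div_nonneg hly hlCJ.le)
    rw [le_div_iff₀ hlCJ] at h1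
    rw [← Real.log_le_log_iff (by positivity) hy0, Real.log_pow]
    exact h1
  · have h1 := (Nat.lt_floor_add_one (Real.log y / Real.log (C * J))).le
    rw [← Real.log_le_log_iff (by positivity) (by positivity), Real.log_rpow hy0,
      ← pow_succ, Real.log_pow]
    push_cast
    calc Real.log J / Real.log (C * J) * Real.log y
        = Real.log y / Real.log (C * J) * Real.log J := by ring
      _ ≤ _ := mul_le_mul_of_nonneg_right h1 hlJ.le

/-- the final asymptotic lemma, for `ε ≤ 1` -/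
theorem asymp_aux (h : ℕ → ℕ) (C : ℝ) (hC : 1 ≤ C) (J0 : ℕ)
    (H : ∀ J : ℕ, J0 ≤ J → ∃ B c : ℝ, 0 < B ∧ 0 < c ∧ ∀ j : ℕ, ∃ n1 M1 : ℕ, 0 < n1 ∧
      Real.log n1 ≤ B * (C * J) ^ j ∧ (n1 : ℝ) * Real.exp (c * (J : ℝ) ^ j) ≤ M1 ∧
      ∀ n : ℕ, Even n → n1 ≤ n → (n : ℝ) * M1 ≤ 3 * n1 * h n)
    (ε : ℝ) (hε : 0 < ε) (hε1 : ε ≤ 1) : ∀ᶠ n : ℕ in atTop, Even n →
      (n : ℝ) * Real.exp ((Real.log n) ^ (1 - ε)) ≤ h n := by
  obtain ⟨J, hJ0, hJ2, hJ⟩ := exists_J C hC J0 (ε / 2) (by positivity)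
  obtain ⟨B, c, hB, hc, hH⟩ := H J hJ0
  have hJR : (2 : ℝ) ≤ J := by exact_mod_cast hJ2
  have hJp : (0 : ℝ) < J := by linarith
  have hCJ : (2 : ℝ) ≤ C * J := by nlinarith
  have hlCJ : 0 < Real.log (C * J) := Real.log_pos (by linarith)
  have hθ1 : 1 - ε / 2 ≤ Real.log J / Real.log (C * J) := by
    rw [le_div_iff₀ hlCJ]
    exact hJ
  generalize hθ : Real.log J / Real.log (C * J) = θ at hθ1
  have hgrow := grow ε hε hε1 (c / J * (1 / B) ^ θ) θ (Real.log 3) (by positivity)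
    (Real.log_nonneg (by norm_num)) hθ1
  have hlog : Tendsto (fun n : ℕ => Real.log (n : ℝ)) atTop atTop :=
    Real.tendsto_log_atTop.comp tendsto_natCast_atTop_atTop
  filter_upwards [hlog.eventually hgrow, hlog.eventually_ge_atTop B, eventually_ge_atTop 1]
    with n hn1 hn2 hn3 heven
  have hnR : (1 : ℝ) ≤ n := by exact_mod_cast hn3
  have hy : 1 ≤ Real.log n / B := by
    rw [le_div_iff₀ hB]
    linarith
  obtain ⟨j, hj1, hj2⟩ := exists_index J hJ2 C hC (Real.log n / B) hy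
  rw [hθ] at hj2
  obtain ⟨n1, M1, hn1p, hlog1, hM1, hW⟩ := hH j
  have hn1R : (0 : ℝ) < n1 := by exact_mod_cast hn1p
  have hle : n1 ≤ n := by
    have e1 : Real.log n1 ≤ Real.log n := by
      refine hlog1.trans ?_
      have := mul_le_mul_of_nonneg_left hj1 hB.le
      rw [mul_div_cancel₀ _ hB.ne'] at this
      exact this
    have e2 := (Real.log_le_log_iff hn1R (by linarith)).1 e1
    exact_mod_cast e2
  have hW' := hW n heven hle
  -- `exp (x ^ (1 - ε)) ≤ exp (c J ^ j) / 3`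
  have hx0 : 0 ≤ Real.log n := Real.log_nonneg hnR
  have e1 : (Real.log n) ^ (1 - ε) + Real.log 3 ≤ c * (J : ℝ) ^ j := by
    refine hn1.trans ?_
    have e2 : (1 / B) ^ θ * (Real.log n) ^ θ = (Real.log n / B) ^ θ := by
      rw [← Real.mul_rpow (by positivity) hx0]
      congr 1
      ring
    calc c / J * (1 / B) ^ θ * (Real.log n) ^ θ
        = c / J * (Real.log n / B) ^ θ := by rw [mul_assoc, e2]
      _ ≤ c / J * ((J : ℝ) ^ j * J) := mul_le_mul_of_nonneg_left hj2 (by positivity)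
      _ = c * (J : ℝ) ^ j := by field_simp
  have e3 : Real.exp ((Real.log n) ^ (1 - ε)) * 3 ≤ Real.exp (c * (J : ℝ) ^ j) := by
    calc Real.exp ((Real.log n) ^ (1 - ε)) * 3
        = Real.exp ((Real.log n) ^ (1 - ε) + Real.log 3) := by
          rw [Real.exp_add, Real.exp_log (by norm_num)]
      _ ≤ _ := Real.exp_le_exp.2 e1
  have e4 : (n : ℝ) * (n1 * Real.exp (c * (J : ℝ) ^ j)) ≤ 3 * n1 * h n :=
    (mul_le_mul_of_nonneg_left hM1 (by linarith)).trans hW'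
  have e5 : (n : ℝ) * (n1 * (Real.exp ((Real.log n) ^ (1 - ε)) * 3)) ≤
      n * (n1 * Real.exp (c * (J : ℝ) ^ j)) :=
    mul_le_mul_of_nonneg_left (mul_le_mul_of_nonneg_left e3 hn1R.le) (by linarith)
  have e6 : (3 * (n1 : ℝ)) * (n * Real.exp ((Real.log n) ^ (1 - ε))) ≤ (3 * n1) * h n := by
    linarith
  exact le_of_mul_le_mul_left e6 (by positivity)

/-- the final asymptotic lemma -/
theorem asymp (h : ℕ → ℕ) (C : ℝ) (hC : 1 ≤ C) (J0 : ℕ)
    (H : ∀ J : ℕ, J0 ≤ J → ∃ B c : ℝ, 0 < B ∧ 0 < c ∧ ∀ j : ℕ, ∃ n1 M1 : ℕ, 0 < n1 ∧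
      Real.log n1 ≤ B * (C * J) ^ j ∧ (n1 : ℝ) * Real.exp (c * (J : ℝ) ^ j) ≤ M1 ∧
      ∀ n : ℕ, Even n → n1 ≤ n → (n : ℝ) * M1 ≤ 3 * n1 * h n) :
    ∀ ε : ℝ, 0 < ε → ∃ n0 : ℕ, ∀ n : ℕ, n0 ≤ n → Even n →
      (n : ℝ) * Real.exp ((Real.log n) ^ (1 - ε)) ≤ h n := by
  intro ε hε
  have h1 := asymp_aux h C hC J0 H (min ε 1) (lt_min hε one_pos) (min_le_right _ _)
  have hlog : Tendsto (fun n : ℕ => Real.log (n : ℝ)) atTop atTop :=
    Real.tendsto_log_atTop.comp tendsto_natCast_atTop_atTop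
  have h2 := h1.and (hlog.eventually_ge_atTop 1)
  rw [eventually_atTop] at h2
  obtain ⟨n0, hn0⟩ := h2
  refine ⟨n0, fun n hn heven => ?_⟩
  obtain ⟨h3, h4⟩ := hn0 n hn
  refine le_trans ?_ (h3 heven)
  refine mul_le_mul_of_nonneg_left ?_ (Nat.cast_nonneg n)
  refine Real.exp_le_exp.2 (Real.rpow_le_rpow_of_exponent_le h4 ?_)
  have := min_le_left ε 1
  linarith

end Vale.Agent.P065
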