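import Mathlib

/-!
# P065: the uniform asymptotic lemma

From the uniform family `log n_j ≤ (B0 J) (C J)^j`, `M_j ≥ n_j exp (c0 J^j)` (all `J ≥ J0`, all `j`)
to `h(n) ≥ n exp (log n * exp (- C' sqrt (log log n)))` for all large even `n`.
-/

namespace Vale.Agent.P065

open Filter Real

/-- the choice of `J` and `j` for a given `s = sqrt (log log n)` -/
theorem asymp2_choice (C B0 c0 : ℝ) (hC : 1 ≤ C) (hB : 0 < B0) (hc : 0 < c0) (J0 : ℕ) :
    ∀ᶠ s : ℝ in atTop, ∃ J j : ℕ, J0 ≤ J ∧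
      (B0 * J) * (C * J) ^ j ≤ Real.exp (s ^ 2) ∧
      Real.exp (s ^ 2) * Real.exp (-(Real.log (2 * C) + 4) * s) + Real.log 3 ≤
        c0 * (J : ℝ) ^ j := by
  have ha : 0 ≤ Real.log (2 * C) := Real.log_nonneg (by linarith)
  have hexpa : Real.exp (Real.log (2 * C)) = 2 * C := Real.exp_log (by linarith)
  generalize Real.log (2 * C) = a at ha hexpa
  have hexpb : Real.exp (Real.log (2 * B0)) = 2 * B0 := Real.exp_log (by linarith)
  generalize Real.log (2 * B0) = b at hexpb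
  have hl3 : 0 ≤ Real.log 3 := Real.log_nonneg (by norm_num)
  have h1 : Tendsto (fun s : ℝ => c0 * Real.exp s) atTop atTop :=
    Real.tendsto_exp_atTop.const_mul_atTop hc
  filter_upwards [eventually_ge_atTop b, eventually_ge_atTop (a + 4),
    Real.tendsto_exp_atTop.eventually_ge_atTop (J0 : ℝ),
    h1.eventually_ge_atTop (1 + Real.log 3)] with s hs1 hs2 hs3 hs4
  have hs0 : 0 ≤ s := by linarith
  have hE1 : (1 : ℝ) ≤ Real.exp s := Real.one_le_exp hs0
  have hJle : Real.exp s ≤ (⌈Real.exp s⌉₊ : ℝ) := Nat.le_ceil _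
  have hJlt : (⌈Real.exp s⌉₊ : ℝ) ≤ 2 * Real.exp s := by
    have := Nat.ceil_lt_add_one (Real.exp_pos s).le
    linarith
  have hj1 : ((⌊s - a - 2⌋₊ : ℕ) : ℝ) ≤ s - a - 2 := Nat.floor_le (by linarith)
  have hj2 : s - a - 3 ≤ ((⌊s - a - 2⌋₊ : ℕ) : ℝ) := by
    have := Nat.lt_floor_add_one (s - a - 2)
    linarith
  refine ⟨⌈Real.exp s⌉₊, ⌊s - a - 2⌋₊, ?_, ?_, ?_⟩
  · exact_mod_cast hs3.trans hJle
  · generalize (⌈Real.exp s⌉₊ : ℝ) = J at hJle hJlt
    generalize ⌊s - a - 2⌋₊ = j at hj1 hj2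
    have hJ0 : 0 ≤ J := by linarith
    have e1 : C * J ≤ Real.exp (a + s) := by
      rw [Real.exp_add, hexpa]
      nlinarith
    have e2 : B0 * J ≤ Real.exp (b + s) := by
      rw [Real.exp_add, hexpb]
      nlinarith
    calc (B0 * J) * (C * J) ^ j ≤ Real.exp (b + s) * (Real.exp (a + s)) ^ j := by
          gcongr
      _ = Real.exp (b + s + j * (a + s)) := by
          rw [← Real.exp_nat_mul, ← Real.exp_add]
      _ ≤ Real.exp (s ^ 2) := by
          apply Real.exp_le_exp.2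
          have : (j : ℝ) * (a + s) ≤ (s - a - 2) * (a + s) :=
            mul_le_mul_of_nonneg_right hj1 (by linarith)
          nlinarith
  · generalize (⌈Real.exp s⌉₊ : ℝ) = J at hJle hJlt
    generalize ⌊s - a - 2⌋₊ = j at hj1 hj2
    have e1 : Real.exp (s * (s - a - 3)) ≤ J ^ j := by
      calc Real.exp (s * (s - a - 3)) ≤ Real.exp (j * s) := by
            apply Real.exp_le_exp.2
            have := mul_le_mul_of_nonneg_left hj2 hs0
            linarith
        _ = (Real.exp s) ^ j := by rw [← Real.exp_nat_mul]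
        _ ≤ J ^ j := by gcongr
    have e2 : Real.exp (s ^ 2) * Real.exp (-(a + 4) * s) = Real.exp (s * (s - a - 4)) := by
      rw [← Real.exp_add]
      congr 1
      ring
    have e3 : Real.exp (s * (s - a - 3)) = Real.exp (s * (s - a - 4)) * Real.exp s := by
      rw [← Real.exp_add]
      congr 1
      ring
    have e4 : 1 ≤ Real.exp (s * (s - a - 4)) :=
      Real.one_le_exp (mul_nonneg hs0 (by linarith))
    rw [e2]
    calc Real.exp (s * (s - a - 4)) + Real.log 3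
        ≤ Real.exp (s * (s - a - 4)) + Real.exp (s * (s - a - 4)) * Real.log 3 := by
          have := mul_le_mul_of_nonneg_right e4 hl3
          linarith
      _ = Real.exp (s * (s - a - 4)) * (1 + Real.log 3) := by ring
      _ ≤ Real.exp (s * (s - a - 4)) * (c0 * Real.exp s) :=
          mul_le_mul_of_nonneg_left hs4 (Real.exp_pos _).le
      _ = c0 * Real.exp (s * (s - a - 3)) := by rw [e3]; ring
      _ ≤ c0 * J ^ j := mul_le_mul_of_nonneg_left e1 hc.le

/-- the uniform asymptotic lemma -/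
theorem asymp2 (h : ℕ → ℕ) (C B0 c0 : ℝ) (hC : 1 ≤ C) (hB : 0 < B0) (hc : 0 < c0) (J0 : ℕ)
    (H : ∀ J : ℕ, J0 ≤ J → ∀ j : ℕ, ∃ n1 M1 : ℕ, 0 < n1 ∧
      Real.log n1 ≤ (B0 * J) * (C * J) ^ j ∧ (n1 : ℝ) * Real.exp (c0 * (J : ℝ) ^ j) ≤ M1 ∧
      ∀ n : ℕ, Even n → n1 ≤ n → (n : ℝ) * M1 ≤ 3 * n1 * h n) :
    ∃ C' : ℝ, 0 < C' ∧ ∃ n0 : ℕ, ∀ n : ℕ, n0 ≤ n → Even n →
      (n : ℝ) * Real.exp (Real.log n * Real.exp (-C' * Real.sqrt (Real.log (Real.log n)))) ≤
        h n := by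
  have ha : 0 ≤ Real.log (2 * C) := Real.log_nonneg (by linarith)
  refine ⟨Real.log (2 * C) + 4, by linarith, ?_⟩
  have hlog : Tendsto (fun n : ℕ => Real.log (n : ℝ)) atTop atTop :=
    Real.tendsto_log_atTop.comp tendsto_natCast_atTop_atTop
  have hlog2 : Tendsto (fun n : ℕ => Real.log (Real.log (n : ℝ))) atTop atTop :=
    Real.tendsto_log_atTop.comp hlog
  have hlog3 : Tendsto (fun n : ℕ => Real.sqrt (Real.log (Real.log (n : ℝ)))) atTop atTop :=
    Real.tendsto_sqrt_atTop.comp hlog2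
  have h2 := (hlog3.eventually (asymp2_choice C B0 c0 hC hB hc J0)).and
    ((hlog.eventually_ge_atTop 1).and ((hlog2.eventually_ge_atTop 0).and
      (eventually_ge_atTop 1)))
  rw [eventually_atTop] at h2
  obtain ⟨n0, hn0⟩ := h2
  refine ⟨n0, fun n hn heven => ?_⟩
  obtain ⟨⟨J, j, hJ, hj1, hj2⟩, hl1, hl2, hn1⟩ := hn0 n hn
  have hnR : (1 : ℝ) ≤ n := by exact_mod_cast hn1
  have hss : Real.exp (Real.sqrt (Real.log (Real.log n)) ^ 2) = Real.log n := by
    rw [Real.sq_sqrt hl2, Real.exp_log (by linarith)]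
  rw [hss] at hj1 hj2
  obtain ⟨n1, M1, hn1p, hlog1, hM1, hW⟩ := H J hJ j
  have hn1R : (0 : ℝ) < n1 := by exact_mod_cast hn1p
  have hle : n1 ≤ n := by
    have e2 := (Real.log_le_log_iff hn1R (by linarith)).1 (hlog1.trans hj1)
    exact_mod_cast e2
  have hW' := hW n heven hle
  have e3 : Real.exp (Real.log n * Real.exp (-(Real.log (2 * C) + 4) *
      Real.sqrt (Real.log (Real.log n)))) * 3 ≤ Real.exp (c0 * (J : ℝ) ^ j) := by
    calc _ = Real.exp (Real.log n * Real.exp (-(Real.log (2 * C) + 4) *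
          Real.sqrt (Real.log (Real.log n))) + Real.log 3) := by
          rw [Real.exp_add, Real.exp_log (by norm_num : (0 : ℝ) < 3)]
      _ ≤ _ := Real.exp_le_exp.2 hj2
  have e4 : (n : ℝ) * (n1 * Real.exp (c0 * (J : ℝ) ^ j)) ≤ 3 * n1 * h n :=
    (mul_le_mul_of_nonneg_left hM1 (by linarith)).trans hW'
  have e5 : (n : ℝ) * (n1 * (Real.exp (Real.log n * Real.exp (-(Real.log (2 * C) + 4) *
      Real.sqrt (Real.log (Real.log n)))) * 3)) ≤ n * (n1 * Real.exp (c0 * (J : ℝ) ^ j)) :=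
    mul_le_mul_of_nonneg_left (mul_le_mul_of_nonneg_left e3 hn1R.le) (by linarith)
  have e6 : (3 * (n1 : ℝ)) * (n * Real.exp (Real.log n * Real.exp (-(Real.log (2 * C) + 4) *
      Real.sqrt (Real.log (Real.log n))))) ≤ (3 * n1) * h n := by
    linarith
  exact le_of_mul_le_mul_left e6 (by positivity)

/-- comparison of the two growth functions -/
theorem asymp2_cmp (C' : ℝ) (ε : ℝ) (hε : 0 < ε) : ∃ n0 : ℕ, ∀ n : ℕ, n0 ≤ n →
    (Real.log n) ^ (1 - ε) ≤
      Real.log n * Real.exp (-C' * Real.sqrt (Real.log (Real.log n))) := by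
  have hlog : Tendsto (fun n : ℕ => Real.log (n : ℝ)) atTop atTop :=
    Real.tendsto_log_atTop.comp tendsto_natCast_atTop_atTop
  have hlog2 : Tendsto (fun n : ℕ => Real.log (Real.log (n : ℝ))) atTop atTop :=
    Real.tendsto_log_atTop.comp hlog
  have hlog3 : Tendsto (fun n : ℕ => Real.sqrt (Real.log (Real.log (n : ℝ)))) atTop atTop :=
    Real.tendsto_sqrt_atTop.comp hlog2
  have h2 := (hlog3.eventually_ge_atTop (C' / ε)).and
    ((hlog.eventually_ge_atTop 1).and (hlog2.eventually_ge_atTop 0))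
  rw [eventually_atTop] at h2
  obtain ⟨n0, hn0⟩ := h2
  refine ⟨n0, fun n hn => ?_⟩
  obtain ⟨h3, hl1, hl2⟩ := hn0 n hn
  have hlp : 0 < Real.log (n : ℝ) := by linarith
  have hs0 : 0 ≤ Real.sqrt (Real.log (Real.log n)) := Real.sqrt_nonneg _
  have e0 : Real.sqrt (Real.log (Real.log n)) * Real.sqrt (Real.log (Real.log n)) =
      Real.log (Real.log n) := Real.mul_self_sqrt hl2
  have e1 : C' * Real.sqrt (Real.log (Real.log n)) ≤ ε * Real.log (Real.log n) := by
    have h4 : C' ≤ Real.sqrt (Real.log (Real.log n)) * ε := (div_le_iff₀ hε).1 h3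
    have h5 := mul_le_mul_of_nonneg_right h4 hs0
    calc C' * Real.sqrt (Real.log (Real.log n)) ≤ _ := h5
      _ = ε * (Real.sqrt (Real.log (Real.log n)) * Real.sqrt (Real.log (Real.log n))) := by
        ring
      _ = ε * Real.log (Real.log n) := by rw [e0]
  rw [Real.rpow_def_of_pos hlp]
  calc Real.exp (Real.log (Real.log n) * (1 - ε))
      ≤ Real.exp (Real.log (Real.log n) + -C' * Real.sqrt (Real.log (Real.log n))) := by
        apply Real.exp_le_exp.2
        linarith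
    _ = _ := by rw [Real.exp_add, Real.exp_log hlp]

/-- the `(1 - ε)` form follows from the uniform form -/
theorem asymp2_eps (h : ℕ → ℕ)
    (H : ∃ C' : ℝ, 0 < C' ∧ ∃ n0 : ℕ, ∀ n : ℕ, n0 ≤ n → Even n →
      (n : ℝ) * Real.exp (Real.log n * Real.exp (-C' * Real.sqrt (Real.log (Real.log n)))) ≤
        h n) (ε : ℝ) (hε : 0 < ε) :
    ∃ n0 : ℕ, ∀ n : ℕ, n0 ≤ n → Even n →
      (n : ℝ) * Real.exp ((Real.log n) ^ (1 - ε)) ≤ h n := by
  obtain ⟨C', -, n0, h0⟩ := H
  obtain ⟨n1, h1⟩ := asymp2_cmp C' ε hε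
  refine ⟨max n0 n1, fun n hn heven => ?_⟩
  refine le_trans ?_ (h0 n (le_trans (le_max_left _ _) hn) heven)
  exact mul_le_mul_of_nonneg_left
    (Real.exp_le_exp.2 (h1 n (le_trans (le_max_right _ _) hn))) (Nat.cast_nonneg n)

end Vale.Agent.P065
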