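import Vale.Agent.P065.Defs

/-! Row BASE: a good configuration with 30 points and 69 events (halving pairs). -/

namespace Vale.Agent.P065

open Finset

open Classical in
theorem ldeg_le_card {ι : Type} (U : Cfg ι) (i : ι) : U.ldeg i ≤ U.ev.card := by
  unfold Cfg.ldeg
  exact Finset.card_filter_le _ _

namespace Base

/-- integer coordinates of the 30 points -/
def ptsL : List (ℤ × ℤ) := [(-350, 226), (-225, -575), (576, 351), (-399, 396), (-395, -794), (795, 400), (-496, 537), (-536, -1032), (1033, 497), (-68, 257), (-256, -323), (324, 69), (771, 379), (-378, 393), (-392, -770), (-581, 642), (-641, -1221), (1222, 582), (-539, 586), (-585, -1123), (1124, 540), (-281, 234), (-233, -514), (515, 282), (648, 270), (-269, 379), (-378, -647), (-677, 768), (-767, -1443), (1444, 678)]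

/-- the 69 halving pairs -/
def evL : List (Fin 30 × Fin 30) := [(0, 10), (0, 21), (0, 22), (1, 11), (1, 23), (2, 5), (2, 12), (3, 0), (3, 13), (3, 21), (4, 1), (4, 14), (4, 22), (5, 8), (5, 20), (6, 3), (6, 13), (6, 25), (7, 4), (7, 14), (7, 26), (8, 17), (8, 20), (9, 2), (9, 11), (9, 23), (10, 9), (10, 11), (10, 22), (11, 12), (11, 23), (11, 24), (12, 5), (12, 8), (13, 0), (13, 9), (13, 25), (14, 1), (14, 10), (14, 26), (15, 6), (15, 18), (16, 7), (16, 19), (17, 29), (18, 3), (18, 6), (19, 4), (19, 7), (20, 17), (21, 2), (21, 9), (21, 10), (21, 25), (22, 1), (22, 11), (22, 24), (23, 2), (23, 5), (23, 24), (24, 8), (24, 12), (25, 9), (25, 23), (26, 10), (26, 21), (26, 22), (27, 15), (28, 16)]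

def px (i : Fin 30) : ℤ := (ptsL.getD i.val (0, 0)).1
def py (i : Fin 30) : ℤ := (ptsL.getD i.val (0, 0)).2

/-- orientation numerator -/
def O (w : Fin 30 × Fin 30) (i : Fin 30) : ℤ :=
  (py i - py w.1) * (px w.2 - px w.1) - (px i - px w.1) * (py w.2 - py w.1)

theorem chk_lt : ∀ w ∈ evL, px w.1 < px w.2 := by decide +kernel

theorem chk_ne : ∀ w ∈ evL, ∀ i, i ≠ w.1 → i ≠ w.2 → O w i ≠ 0 := by decide +kernel

theorem chk_below : ∀ w ∈ evL, (univ.filter (fun i => O w i < 0)).card = 14 := by decide +kernel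

theorem chk_card : evL.toFinset.card = 69 := by decide +kernel

theorem chk_px : ∀ i, |px i| ≤ 1500 := by decide +kernel

theorem chk_py : ∀ i, |py i| ≤ 1500 := by decide +kernel

/-- the base configuration -/
noncomputable def U : Cfg (Fin 30) where
  t := px
  e := fun i => 6000 * (py i : ℝ)
  m := fun _ => 1
  ev := evL.toFinset

theorem mem_ev (w : Fin 30 × Fin 30) : w ∈ U.ev ↔ w ∈ evL := by
  simp [U]

theorem pos_d {w : Fin 30 × Fin 30} (hw : w ∈ evL) : (0 : ℝ) < (px w.2 : ℝ) - px w.1 := by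
  have h := chk_lt w hw
  have h' : (px w.1 : ℝ) < px w.2 := by exact_mod_cast h
  linarith

theorem fh_eq {w : Fin 30 × Fin 30} (hw : w ∈ evL) (i : Fin 30) :
    U.fh w i = 6000 * (O w i : ℝ) / ((px w.2 : ℝ) - px w.1) := by
  have hd := pos_d hw
  have hd' : ((px w.2 : ℝ) - px w.1) ≠ 0 := ne_of_gt hd
  simp only [Cfg.fh, Cfg.tau, U, O]
  push_cast
  field_simp

theorem abs_fh {w : Fin 30 × Fin 30} (hw : w ∈ evL) (i : Fin 30) :
    |U.fh w i| = 6000 * |(O w i : ℝ)| / ((px w.2 : ℝ) - px w.1) := by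
  rw [fh_eq hw, abs_div, abs_mul, abs_of_pos (pos_d hw), abs_of_pos (by norm_num : (0 : ℝ) < 6000)]

theorem fh_neg {w : Fin 30 × Fin 30} (hw : w ∈ evL) (i : Fin 30) :
    U.fh w i < 0 ↔ O w i < 0 := by
  rw [fh_eq hw, div_lt_iff₀ (pos_d hw), zero_mul]
  constructor
  · intro h
    have : (O w i : ℝ) < 0 := by linarith
    exact_mod_cast this
  · intro h
    have : (O w i : ℝ) < 0 := by exact_mod_cast h
    linarith

theorem px_le (i : Fin 30) : |(px i : ℝ)| ≤ 1500 := by
  have h := chk_px i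
  exact_mod_cast h

theorem py_le (i : Fin 30) : |(py i : ℝ)| ≤ 1500 := by
  have h := chk_py i
  exact_mod_cast h

theorem diff_le {a b : ℝ} (ha : |a| ≤ 1500) (hb : |b| ≤ 1500) : |a - b| ≤ 3000 := by
  rw [abs_le] at *
  constructor <;> linarith [ha.1, ha.2, hb.1, hb.2]

theorem O_le (w : Fin 30 × Fin 30) (i : Fin 30) : |(O w i : ℝ)| ≤ 18000000 := by
  have h1 := diff_le (py_le i) (py_le w.1)
  have h2 := diff_le (px_le w.2) (px_le w.1)
  have h3 := diff_le (px_le i) (px_le w.1)
  have h4 := diff_le (py_le w.2) (py_le w.1)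
  have h5 : |((py i : ℝ) - py w.1) * ((px w.2 : ℝ) - px w.1)| ≤ 3000 * 3000 := by
    rw [abs_mul]
    exact mul_le_mul h1 h2 (abs_nonneg _) (by norm_num)
  have h6 : |((px i : ℝ) - px w.1) * ((py w.2 : ℝ) - py w.1)| ≤ 3000 * 3000 := by
    rw [abs_mul]
    exact mul_le_mul h3 h4 (abs_nonneg _) (by norm_num)
  have h7 : (O w i : ℝ) = ((py i : ℝ) - py w.1) * ((px w.2 : ℝ) - px w.1)
      - ((px i : ℝ) - px w.1) * ((py w.2 : ℝ) - py w.1) := by
    simp only [O]; push_cast; ring
  rw [h7]
  have h8 := abs_sub (((py i : ℝ) - py w.1) * ((px w.2 : ℝ) - px w.1))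
    (((px i : ℝ) - px w.1) * ((py w.2 : ℝ) - py w.1))
  linarith

theorem O_ge {w : Fin 30 × Fin 30} (hw : w ∈ evL) {i : Fin 30} (h1 : i ≠ w.1) (h2 : i ≠ w.2) :
    1 ≤ |(O w i : ℝ)| := by
  have h := chk_ne w hw i h1 h2
  have h' : 1 ≤ |O w i| := Int.one_le_abs h
  exact_mod_cast h'

theorem below_eq {w : Fin 30 × Fin 30} (hw : w ∈ evL) : U.below w = 14 := by
  have h := chk_below w hw
  unfold Cfg.below
  have : ∀ i : Fin 30, (if U.fh w i < 0 then U.m i else 0) = if O w i < 0 then 1 else 0 := by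
    intro i
    by_cases h0 : O w i < 0
    · rw [if_pos h0, if_pos ((fh_neg hw i).2 h0)]; rfl
    · rw [if_neg h0, if_neg (fun h' => h0 ((fh_neg hw i).1 h'))]
  rw [Finset.sum_congr rfl (fun i _ => this i), ← Finset.card_filter]
  exact h

theorem good : U.Good 14 69 1500 9000000 18000000 where
  lt := fun w hw => chk_lt w ((mem_ev w).1 hw)
  m1 := fun _ _ => rfl
  m2 := fun _ _ => rfl
  c1 := by
    intro w hw i h1 h2
    have hw := (mem_ev w).1 hw
    have hd := pos_d hw
    have hO := O_ge hw h1 h2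
    have ht : |U.tau w i| = |(px i : ℝ) - px w.1| / ((px w.2 : ℝ) - px w.1) := by
      simp only [Cfg.tau, U]
      rw [abs_div, abs_of_pos hd]
    rw [abs_fh hw, ht, le_div_iff₀ hd, add_mul, div_mul_cancel₀ _ (ne_of_gt hd)]
    have h3 := diff_le (px_le i) (px_le w.1)
    have h4 := le_trans (le_abs_self _) (diff_le (px_le w.2) (px_le w.1))
    linarith
  bel := fun w hw => below_eq ((mem_ev w).1 hw)
  c2 := by
    intro w hw w' hw' h1 h2
    have hw := (mem_ev w).1 hw
    have hd := pos_d hw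
    have hO := O_ge hw h1 h2
    have hO' := O_le w w'.2
    rw [abs_fh hw, abs_fh hw, ← mul_div_assoc]
    apply div_le_div_of_nonneg_right _ hd.le
    push_cast
    nlinarith
  td := by
    intro i
    have h := chk_px i
    simpa [U] using h
  ee := by
    intro i
    have h := py_le i
    have : U.e i = 6000 * (py i : ℝ) := rfl
    rw [this, abs_mul, abs_of_pos (by norm_num : (0 : ℝ) < 6000)]
    push_cast
    linarith
  deg := by
    intro i
    have h : U.ev.card = 69 := chk_card
    rw [← h]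
    exact ldeg_le_card U i
  posΔ := by norm_num
  posD := by norm_num
  posE := by norm_num
  posN := by norm_num

end Base

/-- Row BASE: a good configuration of unit weights whose ratio is larger than `2.2`
(it has 30 points and 69 events). -/
theorem base_exists : ∃ (n0 : ℕ) (U : Cfg (Fin n0)) (lam Δ D E N : ℕ),
    (∀ i, U.m i = 1) ∧ U.Good lam Δ D E N ∧ U.wt = 30 ∧ U.ev.card = 69 ∧
    U.wt * 22 < U.ev.card * 10 := by
  have hw : Base.U.wt = 30 := by simp [Cfg.wt, Base.U]
  have he : Base.U.ev.card = 69 := Base.chk_card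
  refine ⟨30, Base.U, 14, 69, 1500, 9000000, 18000000, fun _ => rfl, Base.good, hw, he, ?_⟩
  rw [hw, he]
  norm_num

end Vale.Agent.P065
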