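import Vale.Agent.P065.SysDefs
import Vale.Agent.P065.Base

/-! Row BASE. -/

namespace Vale.Agent.P065

/-- Row BASE -/
theorem base_cfg : ∃ n M Δ D E N : ℕ, HasCfg n M Δ D E N ∧ 1 ≤ n ∧ 22 * n < 10 * M := by
  have hw : Base.U.wt = 30 := by simp [Cfg.wt, Base.U]
  exact ⟨30, 69, 69, 1500, 9000000, 18000000,
    ⟨Fin 30, inferInstance, Base.U, 14, Base.good, hw, Base.chk_card⟩, by norm_num, by norm_num⟩

end Vale.Agent.P065
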