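import Vale.Agent.P065.CompDefs

/-! Row CA: key identities for the composite. -/

namespace Vale.Agent.P065

open Finset Classical

variable {ι G κ : Type} [Fintype ι] [Fintype G] [Fintype κ]

theorem Cfg.tau_fst {ι : Type} (U : Cfg ι) (w : ι × ι) : U.tau w w.1 = 0 := by
  simp [Cfg.tau]

theorem Cfg.tau_snd {ι : Type} (U : Cfg ι) (w : ι × ι) (hw : U.t w.1 < U.t w.2) :
    U.tau w w.2 = 1 := by
  have h : (U.t w.1 : ℝ) < U.t w.2 := by exact_mod_cast hw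
  have h' : ((U.t w.2 : ℝ) - U.t w.1) ≠ 0 := (sub_pos.mpr h).ne'
  simp [Cfg.tau, div_self h']

theorem Cfg.fh_fst {ι : Type} (U : Cfg ι) (w : ι × ι) : U.fh w w.1 = 0 := by
  simp [Cfg.fh, Cfg.tau_fst]

theorem Cfg.fh_snd {ι : Type} (U : Cfg ι) (w : ι × ι) (hw : U.t w.1 < U.t w.2) :
    U.fh w w.2 = 0 := by
  simp [Cfg.fh, Cfg.tau_snd U w hw]

/-- `t i = t a + τ (t c - t a)` -/
theorem Cfg.t_eq {ι : Type} (U : Cfg ι) (w : ι × ι) (hw : U.t w.1 < U.t w.2) (i : ι) :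
    (U.t i : ℝ) = U.t w.1 + U.tau w i * ((U.t w.2 : ℝ) - U.t w.1) := by
  have h : (U.t w.1 : ℝ) < U.t w.2 := by exact_mod_cast hw
  have h' : ((U.t w.2 : ℝ) - U.t w.1) ≠ 0 := (sub_pos.mpr h).ne'
  rw [Cfg.tau, div_mul_cancel₀ _ h']; ring

/-- `e i = e a + f + τ (e c - e a)` -/
theorem Cfg.e_eq {ι : Type} (U : Cfg ι) (w : ι × ι) (i : ι) :
    U.e i = U.e w.1 + U.fh w i + U.tau w i * (U.e w.2 - U.e w.1) := by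
  simp only [Cfg.fh]; ring

theorem comp_t_eq (U : Cfg ι) (A : Gad G κ) (Δ Θ H Dl Kn Am : ℕ) (hΘ : 1 ≤ Θ) (hH : 1 ≤ H)
    (hZ : 1 ≤ A.Z) (w : {w // w ∈ U.ev}) (hw : U.t w.1.1 < U.t w.1.2) (p : CIdx ι G κ U) :
    ((comp U A Δ Θ H Dl Kn Am).t p : ℝ) =
      (Θ * H * A.Z : ℝ) * (U.t w.1.1 + ptau U A Θ H w.1 p * ((U.t w.1.2 : ℝ) - U.t w.1.1)) := by
  have hΘ' : (Θ : ℝ) ≠ 0 := by exact_mod_cast (by omega : Θ ≠ 0)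
  have hH' : (H : ℝ) ≠ 0 := by exact_mod_cast (by omega : H ≠ 0)
  have hZ' : (A.Z : ℝ) ≠ 0 := by exact_mod_cast (by omega : A.Z ≠ 0)
  rcases p with ⟨i, o⟩ | ⟨i, b⟩ | ⟨w', g⟩ | w'
  · simp only [comp, ptau]
    push_cast
    rw [← Cfg.t_eq U w.1 hw i]
  · simp only [comp, ptau]
    push_cast
    rw [← Cfg.t_eq U w.1 hw i]
  · simp only [comp, ptau, Gad.x]
    push_cast
    have h1 := Cfg.t_eq U w.1 hw w'.1.1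
    have h2 := Cfg.t_eq U w.1 hw w'.1.2
    have key : (U.t w.1.1 : ℝ) + (U.tau w.1 w'.1.1 + (1 / (Θ : ℝ) + 1 / (H : ℝ) * ((A.xz g : ℝ) / A.Z)) *
        (U.tau w.1 w'.1.2 - U.tau w.1 w'.1.1)) * ((U.t w.1.2 : ℝ) - U.t w.1.1)
        = (U.t w'.1.1 : ℝ) + (1 / (Θ : ℝ) + 1 / (H : ℝ) * ((A.xz g : ℝ) / A.Z)) *
          ((U.t w'.1.2 : ℝ) - U.t w'.1.1) := by
      rw [h1, h2]; ring
    rw [key]
    field_simp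
  · simp only [comp, ptau]
    push_cast
    have h1 := Cfg.t_eq U w.1 hw w'.1.1
    have h2 := Cfg.t_eq U w.1 hw w'.1.2
    have key : (U.t w.1.1 : ℝ) + (U.tau w.1 w'.1.1 + (-(1 / (Θ : ℝ))) *
        (U.tau w.1 w'.1.2 - U.tau w.1 w'.1.1)) * ((U.t w.1.2 : ℝ) - U.t w.1.1)
        = (U.t w'.1.1 : ℝ) + (-(1 / (Θ : ℝ))) *
          ((U.t w'.1.2 : ℝ) - U.t w'.1.1) := by
      rw [h1, h2]; ring
    rw [key]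
    field_simp
    ring

theorem comp_e_eq (U : Cfg ι) (A : Gad G κ) (Δ Θ H Dl Kn Am : ℕ)
    (w : {w // w ∈ U.ev}) (p : CIdx ι G κ U) :
    (comp U A Δ Θ H Dl Kn Am).e p =
      (Dl * H * Kn : ℝ) * (U.e w.1.1 + pf U A Θ H Dl Am w.1 p
        + ptau U A Θ H w.1 p * (U.e w.1.2 - U.e w.1.1)) := by
  rcases p with ⟨i, o⟩ | ⟨i, b⟩ | ⟨w', g⟩ | w'
  · simp only [comp, ptau, pf]
    rw [Cfg.e_eq U w.1 i]; ring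
  · simp only [comp, ptau, pf]
    rw [Cfg.e_eq U w.1 i]; ring
  · simp only [comp, ptau, pf]
    rw [Cfg.e_eq U w.1 w'.1.1, Cfg.e_eq U w.1 w'.1.2]; ring
  · simp only [comp, ptau, pf]
    rw [Cfg.e_eq U w.1 w'.1.1, Cfg.e_eq U w.1 w'.1.2]; ring

theorem ptau_lp (U : Cfg ι) (A : Gad G κ) (Θ H : ℕ)
    (w : {w // w ∈ U.ev}) (hw : U.t w.1.1 < U.t w.1.2) (g : G) :
    ptau U A Θ H w.1 (lp w g) = 1 / (Θ : ℝ) + (1 / (H : ℝ)) * A.x g := by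
  simp [ptau, lp, Cfg.tau_fst, Cfg.tau_snd U w.1 hw]

theorem pf_lp (U : Cfg ι) (A : Gad G κ) (Θ H Dl Am : ℕ)
    (w : {w // w ∈ U.ev}) (hw : U.t w.1.1 < U.t w.1.2) (g : G) :
    pf U A Θ H Dl Am w.1 (lp w g) = (1 / (Dl : ℝ)) * (1 / (H : ℝ)) * A.y g := by
  simp [pf, lp, Cfg.fh_fst, Cfg.fh_snd U w.1 hw]

/-- the affine coordinate in the composite -/
theorem comp_tau (U : Cfg ι) (A : Gad G κ) (Δ Θ H Dl Kn Am : ℕ) (hΘ : 1 ≤ Θ) (hH : 1 ≤ H)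
    (hZ : 1 ≤ A.Z) (w : {w // w ∈ U.ev}) (hw : U.t w.1.1 < U.t w.1.2) (v : G × G)
    (hv : A.x v.1 < A.x v.2) (p : CIdx ι G κ U) :
    (comp U A Δ Θ H Dl Kn Am).tau (lp w v.1, lp w v.2) p =
      (ptau U A Θ H w.1 p - 1 / (Θ : ℝ) - (1 / (H : ℝ)) * A.x v.1)
        / ((1 / (H : ℝ)) * (A.x v.2 - A.x v.1)) := by
  have hΘ' : (Θ : ℝ) ≠ 0 := by exact_mod_cast (by omega : Θ ≠ 0)
  have hH' : (H : ℝ) ≠ 0 := by exact_mod_cast (by omega : H ≠ 0)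
  have hZ' : (A.Z : ℝ) ≠ 0 := by exact_mod_cast (by omega : A.Z ≠ 0)
  have hx : A.x v.2 - A.x v.1 ≠ 0 := (sub_pos.mpr hv).ne'
  have h : (U.t w.1.1 : ℝ) < U.t w.1.2 := by exact_mod_cast hw
  have h' : ((U.t w.1.2 : ℝ) - U.t w.1.1) ≠ 0 := (sub_pos.mpr h).ne'
  rw [Cfg.tau, comp_t_eq U A Δ Θ H Dl Kn Am hΘ hH hZ w hw p,
    comp_t_eq U A Δ Θ H Dl Kn Am hΘ hH hZ w hw (lp w v.1),
    comp_t_eq U A Δ Θ H Dl Kn Am hΘ hH hZ w hw (lp w v.2)]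
  simp only [ptau_lp U A Θ H w hw]
  have h3 : (Θ * H * A.Z : ℝ) * (U.t w.1.1 + (1 / (Θ : ℝ) + (1 / (H : ℝ)) * A.x v.2) *
      ((U.t w.1.2 : ℝ) - U.t w.1.1)) - (Θ * H * A.Z : ℝ) * (U.t w.1.1 +
      (1 / (Θ : ℝ) + (1 / (H : ℝ)) * A.x v.1) * ((U.t w.1.2 : ℝ) - U.t w.1.1)) =
      ((Θ * H * A.Z : ℝ) * ((U.t w.1.2 : ℝ) - U.t w.1.1)) * ((1 / (H : ℝ)) * (A.x v.2 - A.x v.1)) := by
    ring
  have h4 : (Θ * H * A.Z : ℝ) * (U.t w.1.1 + ptau U A Θ H w.1 p *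
      ((U.t w.1.2 : ℝ) - U.t w.1.1)) - (Θ * H * A.Z : ℝ) * (U.t w.1.1 +
      (1 / (Θ : ℝ) + (1 / (H : ℝ)) * A.x v.1) * ((U.t w.1.2 : ℝ) - U.t w.1.1)) =
      ((Θ * H * A.Z : ℝ) * ((U.t w.1.2 : ℝ) - U.t w.1.1)) *
        (ptau U A Θ H w.1 p - 1 / (Θ : ℝ) - (1 / (H : ℝ)) * A.x v.1) := by
    ring
  rw [h3, h4]
  exact mul_div_mul_left _ _ (mul_ne_zero (mul_ne_zero (mul_ne_zero hΘ' hH') hZ') h')

/-- the height in the composite -/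
theorem comp_fh (U : Cfg ι) (A : Gad G κ) (Δ Θ H Dl Kn Am : ℕ) (hΘ : 1 ≤ Θ) (hH : 1 ≤ H)
    (hDl : 1 ≤ Dl) (hKn : 1 ≤ Kn)
    (hZ : 1 ≤ A.Z) (w : {w // w ∈ U.ev}) (hw : U.t w.1.1 < U.t w.1.2) (v : G × G)
    (hv : A.x v.1 < A.x v.2) (p : CIdx ι G κ U) :
    (comp U A Δ Θ H Dl Kn Am).fh (lp w v.1, lp w v.2) p =
      (Dl * H * Kn : ℝ) * hg (1 / (Θ : ℝ)) (1 / (H : ℝ)) (1 / (Dl : ℝ)) (A.X v) (A.Y v)
        (pf U A Θ H Dl Am w.1 p) (ptau U A Θ H w.1 p) := by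
  have hH' : (H : ℝ) ≠ 0 := by exact_mod_cast (by omega : H ≠ 0)
  have hDl' : (Dl : ℝ) ≠ 0 := by exact_mod_cast (by omega : Dl ≠ 0)
  have hx : A.x v.2 - A.x v.1 ≠ 0 := (sub_pos.mpr hv).ne'
  rw [Cfg.fh, comp_tau U A Δ Θ H Dl Kn Am hΘ hH hZ w hw v hv p,
    comp_e_eq U A Δ Θ H Dl Kn Am w p, comp_e_eq U A Δ Θ H Dl Kn Am w (lp w v.1),
    comp_e_eq U A Δ Θ H Dl Kn Am w (lp w v.2)]
  simp only [ptau_lp U A Θ H w hw, pf_lp U A Θ H Dl Am w hw, hg, Gad.Y, Gad.X]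
  field_simp
  ring

end Vale.Agent.P065
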