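import Vale.Agent.P065.CompDefs

/-! Row CB: events and degrees of the composite. -/

namespace Vale.Agent.P065

open Finset Classical

variable {ι G κ : Type} [Fintype ι] [Fintype G] [Fintype κ]

omit [Fintype ι] in
/-- the events of the composite -/
theorem comp_ev_iff (U : Cfg ι) (A : Gad G κ) (Δ Θ H Dl Kn Am : ℕ)
    (W : CIdx ι G κ U × CIdx ι G κ U) :
    W ∈ (comp U A Δ Θ H Dl Kn Am).ev ↔
      ∃ w : {w // w ∈ U.ev}, ∃ v ∈ A.ev, W = (lp w v.1, lp w v.2) := by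
  unfold comp lp
  rw [Finset.mem_biUnion]
  constructor
  · rintro ⟨w, _, hw⟩
    obtain ⟨v, hv, rfl⟩ := Finset.mem_image.1 hw
    exact ⟨w, v, hv, rfl⟩
  · rintro ⟨w, v, hv, rfl⟩
    exact ⟨w, Finset.mem_univ _, Finset.mem_image.2 ⟨v, hv, rfl⟩⟩

omit [Fintype ι] [Fintype G] [Fintype κ] in
theorem lp_inj {U : Cfg ι} {w w' : {w // w ∈ U.ev}} {g g' : G}
    (h : (lp w g : CIdx ι G κ U) = lp w' g') : w = w' ∧ g = g' := by
  unfold lp at h
  have h1 := Sum.inl.inj (Sum.inr.inj (Sum.inr.inj h))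
  exact ⟨congrArg Prod.fst h1, congrArg Prod.snd h1⟩

omit [Fintype ι] in
/-- number of events of the composite -/
theorem comp_ev_card (U : Cfg ι) (A : Gad G κ) (Δ Θ H Dl Kn Am : ℕ) :
    (comp U A Δ Θ H Dl Kn Am).ev.card = U.ev.card * A.ev.card := by
  have h1 : (comp U A Δ Θ H Dl Kn Am).ev =
      ((Finset.univ : Finset {w // w ∈ U.ev}) ×ˢ A.ev).image
        (fun p => ((lp p.1 p.2.1 : CIdx ι G κ U), (lp p.1 p.2.2 : CIdx ι G κ U))) := by
    ext W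
    rw [comp_ev_iff, Finset.mem_image]
    constructor
    · rintro ⟨w, v, hv, rfl⟩
      exact ⟨(w, v), Finset.mem_product.2 ⟨Finset.mem_univ _, hv⟩, rfl⟩
    · rintro ⟨⟨w, v⟩, hwv, rfl⟩
      exact ⟨w, v, (Finset.mem_product.1 hwv).2, rfl⟩
  rw [h1, Finset.card_image_of_injective, Finset.card_product, Finset.card_univ,
    Fintype.card_coe]
  rintro ⟨w, v1, v2⟩ ⟨w', v1', v2'⟩ h
  simp only [Prod.mk.injEq] at h
  obtain ⟨h2, h3⟩ := lp_inj h.1
  obtain ⟨_, h4⟩ := lp_inj h.2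
  rw [h2, h3, h4]

omit [Fintype ι] in
/-- left degree of the composite -/
theorem comp_ldeg (U : Cfg ι) (A : Gad G κ) (Δ Θ H Dl Kn Am Δg : ℕ)
    (hd : ∀ g, (A.ev.filter (fun v => v.1 = g)).card ≤ Δg) (p : CIdx ι G κ U) :
    (comp U A Δ Θ H Dl Kn Am).ldeg p ≤ Δg := by
  unfold Cfg.ldeg
  by_cases h : ∃ (w : {w // w ∈ U.ev}) (g : G), p = lp w g
  · obtain ⟨w, g, rfl⟩ := h
    have h1 : ((comp U A Δ Θ H Dl Kn Am).ev.filter (fun W => W.1 = lp w g)) ⊆
        (A.ev.filter (fun v => v.1 = g)).image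
          (fun v => ((lp w v.1 : CIdx ι G κ U), (lp w v.2 : CIdx ι G κ U))) := by
      intro W hW
      obtain ⟨hW1, hW2⟩ := Finset.mem_filter.1 hW
      obtain ⟨w', v, hv, rfl⟩ := (comp_ev_iff U A Δ Θ H Dl Kn Am W).1 hW1
      obtain ⟨h3, h4⟩ := lp_inj hW2
      subst h3
      exact Finset.mem_image.2 ⟨v, Finset.mem_filter.2 ⟨hv, h4⟩, rfl⟩
    exact (Finset.card_le_card h1).trans (Finset.card_image_le.trans (hd g))
  · have h1 : ((comp U A Δ Θ H Dl Kn Am).ev.filter (fun W => W.1 = p)) = ∅ := by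
      apply Finset.filter_eq_empty_iff.2
      intro W hW hWp
      obtain ⟨w', v, hv, rfl⟩ := (comp_ev_iff U A Δ Θ H Dl Kn Am W).1 hW
      exact h ⟨w', v.1, hWp.symm⟩
    rw [h1, Finset.card_empty]
    exact Nat.zero_le _

end Vale.Agent.P065
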