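import Vale.Agent.P065.CompDefs

/-! The standing assumptions on the real parameters follow from those of the composition. -/

namespace Vale.Agent.P065

open Finset Classical

variable {ι G κ : Type} [Fintype ι] [Fintype G] [Fintype κ]
variable {U : Cfg ι} {A : Gad G κ} {lam Δ D E N Θ H Dl Kn Am B Δg Λ : ℕ}

theorem CPar.pos (h : CPar U A lam Δ D E N Θ H Dl Kn Am B Δg Λ) :
    1 ≤ N ∧ 1 ≤ B ∧ 2 ≤ Am ∧ 16 ≤ Kn ∧ 1 ≤ Θ ∧ 1 ≤ H ∧ 1 ≤ Dl ∧ 1 ≤ A.Z := by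
  have h1 := h.gU.posN
  have h2 := h.gA.posB
  have h3 := h.gA.posAm
  have h4 := h.gA.posKn
  have h5 := h.hΘ
  have h6 := h.hH
  have h7 := h.hDl
  have h8 := h.gA.posZ
  have hΘ : 1 ≤ Θ := by omega
  have hTB : 1 ≤ Θ * B := Nat.mul_pos hΘ h2
  have hTA : 1 ≤ Θ * Am := Nat.mul_pos hΘ (by omega)
  have hH : 1 ≤ H := by
    have : 16 * Θ * B = 16 * (Θ * B) := by ring
    omega
  have hDl : 1 ≤ Dl := by
    have : 64 * Θ * Am = 64 * (Θ * Am) := by ring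
    omega
  exact ⟨h1, h2, h3, h4, hΘ, hH, hDl, h8⟩

theorem CPar.rpar0 (h : CPar U A lam Δ D E N Θ H Dl Kn Am B Δg Λ) {v : G × G} (hv : v ∈ A.ev) :
    RPar (1 / (Θ : ℝ)) (1 / (H : ℝ)) (1 / (Dl : ℝ)) (1 / (Kn : ℝ)) (A.X v) (A.Y v)
      (Am : ℝ) (B : ℝ) (N : ℝ) := by
  obtain ⟨h1, h2, h3, h4, h5, h6, h7, h8⟩ := h.pos
  have r1 : (1 : ℝ) ≤ N := by exact_mod_cast h1
  have r2 : (1 : ℝ) ≤ B := by exact_mod_cast h2
  have r3 : (2 : ℝ) ≤ Am := by exact_mod_cast h3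
  have r4 : (16 : ℝ) ≤ Kn := by exact_mod_cast h4
  have r5 : (1 : ℝ) ≤ Θ := by exact_mod_cast h5
  have r6 : (1 : ℝ) ≤ H := by exact_mod_cast h6
  have r7 : (1 : ℝ) ≤ Dl := by exact_mod_cast h7
  have p5 : (0 : ℝ) < Θ := by linarith
  have p6 : (0 : ℝ) < H := by linarith
  have p7 : (0 : ℝ) < Dl := by linarith
  have p4 : (0 : ℝ) < Kn := by linarith
  have e1 : 16 * ((N : ℝ) + 1) ≤ Θ := by exact_mod_cast h.hΘ
  have e2 : 16 * (Θ : ℝ) * B ≤ H := by exact_mod_cast h.hH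
  have e3 : 64 * (Θ : ℝ) * Am ≤ Dl := by exact_mod_cast h.hDl
  refine ⟨r1, r2, r3, by positivity, by positivity, by positivity, by positivity, ?_, ?_, ?_, ?_,
    h.gA.X1 v hv, h.gA.X2 v hv, h.gA.Yb v hv⟩
  · rw [div_le_div_iff₀ p4 (by norm_num)]; linarith
  · rw [one_div, inv_mul_eq_div, div_le_div_iff₀ p5 (by norm_num)]; linarith
  · have : 1 / (H : ℝ) * B ≤ 1 / (Θ : ℝ) / 16 := by
      rw [one_div, inv_mul_eq_div, div_div, div_le_div_iff₀ p6 (by positivity)]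
      linarith
    exact this
  · rw [one_div, inv_mul_eq_div, div_div, div_le_div_iff₀ p7 (by positivity)]
    linarith

end Vale.Agent.P065
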