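import Vale.Agent.P065.CompSign
import Vale.Agent.P065.CompRPar

/-! Rows C1 (margins), C2 (crossing margins), C3 (count), C5 (assembly). -/

namespace Vale.Agent.P065

open Finset Classical

variable {ι G κ : Type} [Fintype ι] [Fintype G] [Fintype κ]
variable {U : Cfg ι} {A : Gad G κ} {lam Δ D E N Θ H Dl Kn Am B Δg Λ : ℕ}

/-- Row C1: the margin condition of the composite -/
theorem comp_c1 (h : CPar U A lam Δ D E N Θ H Dl Kn Am B Δg Λ) :
    ∀ W ∈ (comp U A Δ Θ H Dl Kn Am).ev, ∀ p, p ≠ W.1 → p ≠ W.2 →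
      1 + |(comp U A Δ Θ H Dl Kn Am).tau W p| ≤ |(comp U A Δ Θ H Dl Kn Am).fh W p| := by
  intro W hW p hp1 hp2
  obtain ⟨w, v, hv, rfl⟩ := (comp_ev_iff U A Δ Θ H Dl Kn Am W).1 hW
  obtain ⟨q1, q2, q3, q4, q5, q6, q7, q8⟩ := h.pos
  have hw : U.t w.1.1 < U.t w.1.2 := h.gU.lt w.1 w.2
  have hsep := h.gA.sep v hv
  have hx : A.x v.1 < A.x v.2 := by linarith
  rw [comp_tau U A Δ Θ H Dl Kn Am q5 q6 q8 w hw v hx p,
    comp_fh U A Δ Θ H Dl Kn Am q5 q6 q7 (by omega) q8 w hw v hx p]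
  have r5 : (0 : ℝ) < Θ := by exact_mod_cast (by omega : 0 < Θ)
  have r6 : (0 : ℝ) < H := by exact_mod_cast (by omega : 0 < H)
  have r7 : (0 : ℝ) < Dl := by exact_mod_cast (by omega : 0 < Dl)
  have r4 : (0 : ℝ) < Kn := by exact_mod_cast (by omega : 0 < Kn)
  -- the general case
  have key : (1 / (Dl : ℝ)) * (1 / (Kn : ℝ)) * (2 * |ptau U A Θ H w.1 p| + 5 * (1 / (Θ : ℝ)))
      ≤ |ch U A Θ H Dl Am w.1 v p| →
      1 + |(ptau U A Θ H w.1 p - 1 / (Θ : ℝ) - (1 / (H : ℝ)) * A.x v.1)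
        / ((1 / (H : ℝ)) * (A.x v.2 - A.x v.1))| ≤
      |(Dl * H * Kn : ℝ) * hg (1 / (Θ : ℝ)) (1 / (H : ℝ)) (1 / (Dl : ℝ)) (A.X v) (A.Y v)
        (pf U A Θ H Dl Am w.1 p) (ptau U A Θ H w.1 p)| := by
    intro hk
    have := R_suff (h.rpar0 hv) (h.gA.xb v.1) hsep hk
    have e : 1 / (1 / (Dl : ℝ) * (1 / (H : ℝ)) * (1 / (Kn : ℝ))) = (Dl * H * Kn : ℝ) := by
      field_simp
    rw [e] at this
    exact this
  rcases p with ⟨i, o⟩ | ⟨i, b⟩ | ⟨w', g⟩ | w'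
  · apply key
    by_cases h1 : i = w.1.1
    · subst h1; exact (cs_left h w.2 hv o).2
    by_cases h2 : i = w.1.2
    · subst h2; exact (cs_right h w.2 hv o).2
    exact (cs_far h w.2 hv i h1 h2 o).2
  · apply key
    by_cases h1 : i = w.1.1 ∨ i = w.1.2
    · exact (cs_dum h w.2 hv i h1 b).2
    · push Not at h1
      exact (cs_fard h w.2 hv i h1.1 h1.2 b).2
  · by_cases hww : w' = w
    · subst hww
      change (lp w' g : CIdx ι G κ U) ≠ lp w' v.1 at hp1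
      change (lp w' g : CIdx ι G κ U) ≠ lp w' v.2 at hp2
      have g1 : g ≠ v.1 := fun hg => hp1 (by rw [hg])
      have g2 : g ≠ v.2 := fun hg => hp2 (by rw [hg])
      have hm := h.gA.marg v hv g g1 g2
      have hs := cs_light_self h w' hv g
      obtain ⟨hs1, hs2⟩ := hs
      have hs1' : hg (1 / (Θ : ℝ)) (1 / (H : ℝ)) (1 / (Dl : ℝ)) (A.X v) (A.Y v)
        (pf U A Θ H Dl Am w'.1 (lp w' g)) (ptau U A Θ H w'.1 (lp w' g)) =
          1 / (Dl : ℝ) * (1 / (H : ℝ)) * A.gh v g := hs1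
      change 1 + |(ptau U A Θ H w'.1 (lp w' g) - 1 / (Θ : ℝ) - (1 / (H : ℝ)) * A.x v.1)
        / ((1 / (H : ℝ)) * (A.x v.2 - A.x v.1))| ≤
        |(Dl * H * Kn : ℝ) * hg (1 / (Θ : ℝ)) (1 / (H : ℝ)) (1 / (Dl : ℝ)) (A.X v) (A.Y v)
        (pf U A Θ H Dl Am w'.1 (lp w' g)) (ptau U A Θ H w'.1 (lp w' g))|
      rw [hs1', hs2]
      have hd : 0 < A.x v.2 - A.x v.1 := by linarith
      have e1 : (1 / (Θ : ℝ) + 1 / (H : ℝ) * A.x g - 1 / (Θ : ℝ) - 1 / (H : ℝ) * A.x v.1)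
          / (1 / (H : ℝ) * (A.x v.2 - A.x v.1)) = (A.x g - A.x v.1) / (A.x v.2 - A.x v.1) := by
        field_simp
        ring
      have e2 : (Dl * H * Kn : ℝ) * (1 / (Dl : ℝ) * (1 / (H : ℝ)) * A.gh v g)
          = Kn * A.gh v g := by
        field_simp
      rw [e1, e2, abs_mul, abs_div, abs_of_pos hd, abs_of_pos r4]
      have hm2 := mul_le_mul_of_nonneg_left hm r4.le
      rw [← mul_assoc, mul_one_div_cancel r4.ne', one_mul] at hm2
      exact hm2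
    · have hne : w'.1 ≠ w.1 := fun hh => hww (Subtype.ext hh)
      apply key
      by_cases h1 : w'.1.1 = w.1.1 ∨ w'.1.1 = w.1.2
      · exact (cs_light_on h w.2 hv w' hne h1 g).2.2.2
      · push Not at h1
        exact (cs_light_off h w.2 hv w' h1.1 h1.2 g).2.2.2
  · by_cases hww : w' = w
    · subst hww
      apply key
      exact (cs_dual_self h w' hv).2
    · have hne : w'.1 ≠ w.1 := fun hh => hww (Subtype.ext hh)
      apply key
      by_cases h1 : w'.1.1 = w.1.1 ∨ w'.1.1 = w.1.2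
      · exact (cs_dual_on h w.2 hv w' hne h1).2
      · push Not at h1
        exact (cs_dual_off h w.2 hv w' h1.1 h1.2).2

end Vale.Agent.P065
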