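import Vale.Agent.P065.CompSign

/-! Rows C1 (margins), C2 (crossing margins), C3 (count), C5 (assembly). -/

namespace Vale.Agent.P065

open Finset Classical

variable {ι G κ : Type} [Fintype ι] [Fintype G] [Fintype κ]
variable {U : Cfg ι} {A : Gad G κ} {lam Δ D E N Θ H Dl Kn Am B Δg Λ : ℕ}

namespace CompC2Aux

/-- the gadget height of a light point is bounded -/
theorem gh_le (gA : A.Good Θ H Kn Am B Δg Λ) {v : G × G} (hv : v ∈ A.ev) (g : G) :
    |A.gh v g| ≤ (2 + Am) * B := by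
  have h1 := gA.Yb v hv
  have h2 := gA.xb g
  have h3 := gA.yb g
  have h4 := gA.X1 v hv
  have h5 := gA.X2 v hv
  have hX : |A.X v| ≤ Am := by
    rw [abs_of_nonneg (by linarith)]; exact h5
  have hB : (0 : ℝ) ≤ B := Nat.cast_nonneg B
  have h6 : |A.X v * A.x g| ≤ Am * B := by
    rw [abs_mul]
    exact mul_le_mul hX h2 (abs_nonneg _) (Nat.cast_nonneg _)
  unfold Gad.gh
  rw [abs_le] at *
  constructor <;> nlinarith [h1.1, h1.2, h3.1, h3.2, h6.1, h6.2]

/-- the gadget height of a light point off the event is not small -/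
theorem le_gh (gA : A.Good Θ H Kn Am B Δg Λ) {v : G × G} (hv : v ∈ A.ev) {g : G}
    (h1 : g ≠ v.1) (h2 : g ≠ v.2) : 1 ≤ Kn * |A.gh v g| := by
  have hm := gA.marg v hv g h1 h2
  have hs := gA.sep v hv
  have hK : (0 : ℝ) < Kn := by
    have := gA.posKn
    exact_mod_cast (by omega : 0 < Kn)
  have hq : 0 ≤ |A.x g - A.x v.1| / (A.x v.2 - A.x v.1) :=
    div_nonneg (abs_nonneg _) (by linarith)
  have : 1 / (Kn : ℝ) * 1 ≤ |A.gh v g| :=
    le_trans (mul_le_mul_of_nonneg_left (by linarith) (by positivity)) hm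
  calc (1 : ℝ) = Kn * (1 / (Kn : ℝ) * 1) := by field_simp
    _ ≤ Kn * |A.gh v g| := mul_le_mul_of_nonneg_left this hK.le

end CompC2Aux

/-- Row C2: the crossing margin of the composite -/
theorem comp_c2 (h : CPar U A lam Δ D E N Θ H Dl Kn Am B Δg Λ) :
    ∀ W ∈ (comp U A Δ Θ H Dl Kn Am).ev, ∀ W' ∈ (comp U A Δ Θ H Dl Kn Am).ev,
      W'.1 ≠ W.1 → W'.1 ≠ W.2 →
      |(comp U A Δ Θ H Dl Kn Am).fh W W'.2| ≤
        (((2 + Am) * B * Kn : ℕ) : ℝ) * |(comp U A Δ Θ H Dl Kn Am).fh W W'.1| := by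
  intro W hW W' hW' hne1 hne2
  rw [comp_ev_iff] at hW hW'
  obtain ⟨w, v, hv, rfl⟩ := hW
  obtain ⟨w', v', hv', rfl⟩ := hW'
  have gA := h.gA
  have gU := h.gU
  have hB : 1 ≤ B := gA.posB
  have hAm : 2 ≤ Am := gA.posAm
  have hKn : 16 ≤ Kn := gA.posKn
  have hΘ : 1 ≤ Θ := by have := h.hΘ; omega
  have hH : 1 ≤ H := by
    have := h.hH
    have h2 : 1 ≤ 16 * Θ * B := Nat.one_le_iff_ne_zero.2 (by positivity)
    omega
  have hDl : 1 ≤ Dl := by
    have := h.hDl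
    have h2 : 1 ≤ 64 * Θ * Am := Nat.one_le_iff_ne_zero.2 (by positivity)
    omega
  have hsep := gA.sep v hv
  have hfh := fun p => comp_fh U A Δ Θ H Dl Kn Am hΘ hH hDl (by omega) gA.posZ w
    (gU.lt w.1 w.2) v (by linarith) p
  simp only at hne1 hne2 ⊢
  rw [hfh, hfh, abs_mul (Dl * H * Kn : ℝ) _, abs_mul (Dl * H * Kn : ℝ) _]
  have hS0 : 0 ≤ |(Dl * H * Kn : ℝ)| := abs_nonneg _
  have hBr : (1 : ℝ) ≤ B := by exact_mod_cast hB
  have hAmr : (2 : ℝ) ≤ Am := by exact_mod_cast hAm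
  have hKr : (16 : ℝ) ≤ Kn := by exact_mod_cast hKn
  have hbig : (4 : ℝ) ≤ (((2 + Am) * B * Kn : ℕ) : ℝ) := by
    have : 4 ≤ (2 + Am) * B * Kn := by
      have h1 : 4 * 1 * 16 ≤ (2 + Am) * B * Kn :=
        Nat.mul_le_mul (Nat.mul_le_mul (by omega) hB) hKn
      omega
    exact_mod_cast this
  have key : |ch U A Θ H Dl Am w.1 v (lp w' v'.2)| ≤
      (((2 + Am) * B * Kn : ℕ) : ℝ) * |ch U A Θ H Dl Am w.1 v (lp w' v'.1)| := by
    by_cases hww : w' = w
    · subst hww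
      have e1 := (cs_light_self h w' hv v'.1).1
      have e2 := (cs_light_self h w' hv v'.2).1
      rw [e1, e2, abs_mul (1 / (Dl : ℝ) * (1 / (H : ℝ))) _,
        abs_mul (1 / (Dl : ℝ) * (1 / (H : ℝ))) _]
      have hv1 : v'.1 ≠ v.1 := fun hh => hne1 (by rw [hh])
      have hv2 : v'.1 ≠ v.2 := fun hh => hne2 (by rw [hh])
      have hg1 := CompC2Aux.gh_le gA hv v'.2
      have hg2 := CompC2Aux.le_gh gA hv hv1 hv2
      have h3 : |A.gh v v'.2| ≤ (((2 + Am) * B * Kn : ℕ) : ℝ) * |A.gh v v'.1| := by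
        push_cast
        have h4 : (0 : ℝ) ≤ (2 + Am) * B := by positivity
        calc |A.gh v v'.2| ≤ (2 + Am) * B := hg1
          _ = ((2 + Am) * B) * 1 := by ring
          _ ≤ ((2 + Am) * B) * (Kn * |A.gh v v'.1|) := mul_le_mul_of_nonneg_left hg2 h4
          _ = (2 + Am) * B * Kn * |A.gh v v'.1| := by ring
      have h5 : 0 ≤ |1 / (Dl : ℝ) * (1 / (H : ℝ))| := abs_nonneg _
      have h6 := mul_le_mul_of_nonneg_left h3 h5
      linarith
    · have hww' : w'.1 ≠ w.1 := fun hh => hww (Subtype.ext hh)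
      by_cases hon : w'.1.1 = w.1.1 ∨ w'.1.1 = w.1.2
      · have e1 := (cs_light_on h w.2 hv w' hww' hon v'.1).2.1
        have e2 := (cs_light_on h w.2 hv w' hww' hon v'.2).2.2.1
        have h0 := abs_nonneg (ch U A Θ H Dl Am w.1 v (lp w' v'.1))
        nlinarith
      · rw [not_or] at hon
        have e1 := (cs_light_off h w.2 hv w' hon.1 hon.2 v'.1).2.1
        have e2 := (cs_light_off h w.2 hv w' hon.1 hon.2 v'.2).2.2.1
        have h0 := abs_nonneg (ch U A Θ H Dl Am w.1 v (lp w' v'.1))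
        nlinarith
  have fin := mul_le_mul_of_nonneg_left key hS0
  unfold ch at fin
  linarith

end Vale.Agent.P065
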