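import Vale.Agent.P065.CompDefs

/-! `ch` (unscaled height above an event line) and the real parameters of the composition. -/

namespace Vale.Agent.P065

open Finset Classical

variable {ι G κ : Type} [Fintype ι] [Fintype G] [Fintype κ]

/-- unscaled height of `p` above the event line `(w, v)` -/
noncomputable def ch (U : Cfg ι) (A : Gad G κ) (Θ H Dl Am : ℕ) (w : ι × ι) (v : G × G)
    (p : CIdx ι G κ U) : ℝ :=
  hg (1 / (Θ : ℝ)) (1 / (H : ℝ)) (1 / (Dl : ℝ)) (A.X v) (A.Y v)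
    (pf U A Θ H Dl Am w p) (ptau U A Θ H w p)

variable {U : Cfg ι} {A : Gad G κ} {lam Δ D E N Θ H Dl Kn Am B Δg Λ : ℕ}

/-- the real parameters of the composition -/
theorem CPar.rpar (h : CPar U A lam Δ D E N Θ H Dl Kn Am B Δg Λ) {v : G × G} (hv : v ∈ A.ev) :
    RPar (1 / (Θ : ℝ)) (1 / (H : ℝ)) (1 / (Dl : ℝ)) (1 / (Kn : ℝ)) (A.X v) (A.Y v) Am B N := by
  have hN : (1 : ℝ) ≤ N := by exact_mod_cast h.gU.posN
  have hB : (1 : ℝ) ≤ B := by exact_mod_cast h.gA.posB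
  have hAm : (2 : ℝ) ≤ Am := by exact_mod_cast h.gA.posAm
  have hKn : (16 : ℝ) ≤ Kn := by exact_mod_cast h.gA.posKn
  have hΘ : 16 * ((N : ℝ) + 1) ≤ Θ := by exact_mod_cast h.hΘ
  have hΘ0 : (0 : ℝ) < Θ := by linarith
  have hH : 16 * (Θ : ℝ) * B ≤ H := by exact_mod_cast h.hH
  have hH0 : (0 : ℝ) < H := lt_of_lt_of_le (by positivity) hH
  have hDl : 64 * (Θ : ℝ) * Am ≤ Dl := by exact_mod_cast h.hDl
  have hDl0 : (0 : ℝ) < Dl := lt_of_lt_of_le (by positivity) hDl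
  refine ⟨hN, hB, hAm, by positivity, by positivity, by positivity, by positivity, ?_, ?_, ?_, ?_,
    h.gA.X1 v hv, h.gA.X2 v hv, h.gA.Yb v hv⟩
  · exact one_div_le_one_div_of_le (by norm_num) hKn
  · rw [div_mul_eq_mul_div, one_mul, div_le_div_iff₀ hΘ0 (by norm_num)]; linarith
  · rw [div_mul_eq_mul_div, one_mul, div_div, div_le_div_iff₀ hH0 (by positivity)]; linarith
  · rw [div_mul_eq_mul_div, one_mul, div_div, div_le_div_iff₀ hDl0 (by positivity)]; linarith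

theorem Cfg.tau_left (w : ι × ι) : U.tau w w.1 = 0 := by simp [Cfg.tau]

theorem Cfg.tau_right {w : ι × ι} (h : U.t w.1 < U.t w.2) : U.tau w w.2 = 1 := by
  have : ((U.t w.2 : ℝ) - U.t w.1) ≠ 0 := by
    have : (U.t w.1 : ℝ) < U.t w.2 := by exact_mod_cast h
    linarith
  simp [Cfg.tau, div_self this]

theorem Cfg.fh_left (w : ι × ι) : U.fh w w.1 = 0 := by simp [Cfg.fh, Cfg.tau_left]

theorem Cfg.fh_right {w : ι × ι} (h : U.t w.1 < U.t w.2) : U.fh w w.2 = 0 := by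
  simp [Cfg.fh, Cfg.tau_right h]

end Vale.Agent.P065
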