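import Vale.Agent.P065.CompSign

/-! Row C3: the number of points below an event line of the composite. -/

namespace Vale.Agent.P065

open Finset Classical

variable {ι G κ : Type} [Fintype ι] [Fintype G] [Fintype κ]
variable {U : Cfg ι} {A : Gad G κ} {lam Δ D E N Θ H Dl Kn Am B Δg Λ : ℕ}

namespace Cnt

/-- sums over the events through the left endpoint -/
theorem sum_fib (U : Cfg ι) (f : ι → ℕ) :
    ∑ w : {w // w ∈ U.ev}, f w.1.1 = ∑ i, U.ldeg i * f i := by
  rw [Finset.sum_coe_sort U.ev (fun w => f w.1)]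
  rw [← Finset.sum_fiberwise U.ev (fun w => w.1) (fun w => f w.1)]
  refine Finset.sum_congr rfl fun i _ => ?_
  rw [Cfg.ldeg, ← smul_eq_mul, ← Finset.sum_const]
  refine Finset.sum_congr rfl fun w hw => ?_
  rw [(Finset.mem_filter.mp hw).2]

theorem sum_single_fib (U : Cfg ι) (a : ι) (n : ℕ) :
    ∑ w : {w // w ∈ U.ev}, (if w.1.1 = a then n else 0) = U.ldeg a * n := by
  rw [sum_fib U (fun i => if i = a then n else 0)]
  simp

theorem fh_left (U : Cfg ι) (w : ι × ι) : U.fh w w.1 = 0 := by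
  simp [Cfg.fh, Cfg.tau]

theorem fh_right (U : Cfg ι) (w : ι × ι) (h : U.t w.1 < U.t w.2) : U.fh w w.2 = 0 := by
  have h1 : ((U.t w.2 : ℝ) - U.t w.1) ≠ 0 := by
    have : (U.t w.1 : ℝ) < U.t w.2 := by exact_mod_cast h
    linarith
  simp [Cfg.fh, Cfg.tau, div_self h1]

end Cnt

/-- Row C3 -/
theorem comp_below (h : CPar U A lam Δ D E N Θ H Dl Kn Am B Δg Λ) :
    ∀ W ∈ (comp U A Δ Θ H Dl Kn Am).ev,
      (comp U A Δ Θ H Dl Kn Am).below W = lam * (A.ko + 2 * A.N0 * Δ) + 2 * A.N0 * Δ + Λ := by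
  intro W hW
  obtain ⟨w, v, hv, rfl⟩ := (comp_ev_iff U A Δ Θ H Dl Kn Am W).mp hW
  have hΘ : 1 ≤ Θ := by have := h.hΘ; omega
  have hB : 1 ≤ B := h.gA.posB
  have hAm : 2 ≤ Am := h.gA.posAm
  have hKn : 1 ≤ Kn := by have := h.gA.posKn; omega
  have hH : 1 ≤ H := by
    have h1 := h.hH
    have h2 : 1 ≤ Θ * B := Nat.mul_pos hΘ hB
    nlinarith
  have hDl : 1 ≤ Dl := by
    have h1 := h.hDl
    have h2 : 1 ≤ Θ * Am := Nat.mul_pos hΘ (by omega)
    nlinarith
  have hlt := h.gU.lt w.1 w.2
  have hx : A.x v.1 < A.x v.2 := by have := h.gA.sep v hv; linarith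
  have hne : w.1.1 ≠ w.1.2 := by
    intro h0
    rw [h0] at hlt
    exact lt_irrefl _ hlt
  have hpos : (0 : ℝ) < (Dl * H * Kn : ℝ) := by
    have h1 : (0 : ℝ) < Dl := by exact_mod_cast hDl
    have h2 : (0 : ℝ) < H := by exact_mod_cast hH
    have h3 : (0 : ℝ) < Kn := by exact_mod_cast hKn
    positivity
  have hsign : ∀ p, (comp U A Δ Θ H Dl Kn Am).fh (lp w v.1, lp w v.2) p < 0 ↔
      ch U A Θ H Dl Am w.1 v p < 0 := by
    intro p
    rw [comp_fh U A Δ Θ H Dl Kn Am hΘ hH hDl hKn h.gA.posZ w hlt v hx p]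
    constructor
    · intro h1
      by_contra h2
      exact absurd h1 (not_lt.mpr (mul_nonneg hpos.le (not_lt.mp h2)))
    · intro h1
      exact mul_neg_of_pos_of_neg hpos h1
  have hfa : U.fh w.1 w.1.1 = 0 := Cnt.fh_left U w.1
  have hfc : U.fh w.1 w.1.2 = 0 := Cnt.fh_right U w.1 hlt
  have hbel : ∑ i, (if U.fh w.1 i < 0 then U.m i else 0) = lam := h.gU.bel w.1 w.2
  have hma : U.m w.1.1 = 1 := h.gU.m1 w.1 w.2
  have hmc : U.m w.1.2 = 1 := h.gU.m2 w.1 w.2
  have hmd : ∀ i, U.m i * (Δ - U.ldeg i) + U.ldeg i = U.m i * Δ := by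
    intro i
    have hd := h.gU.deg i
    rcases Nat.eq_zero_or_pos (U.ldeg i) with h0 | h0
    · rw [h0]; simp
    · obtain ⟨w', hw'⟩ := Finset.card_pos.mp h0
      obtain ⟨h1, h2⟩ := Finset.mem_filter.mp hw'
      have h3 := h.gU.m1 w' h1
      rw [h2] at h3
      rw [h3]
      omega
  -- the four sums
  have hsum : (comp U A Δ Θ H Dl Kn Am).below (lp w v.1, lp w v.2) =
      (∑ i, ∑ o, if ch U A Θ H Dl Am w.1 v (Sum.inl (i, o)) < 0 then U.m i * A.wo o else 0)
      + ((∑ i, ∑ b : Bool, if ch U A Θ H Dl Am w.1 v (Sum.inr (Sum.inl (i, b))) < 0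
          then U.m i * (A.N0 * (Δ - U.ldeg i)) else 0)
      + ((∑ w' : {w // w ∈ U.ev}, ∑ g, if ch U A Θ H Dl Am w.1 v (lp w' g) < 0 then A.m g else 0)
      + (∑ w' : {w // w ∈ U.ev}, if ch U A Θ H Dl Am w.1 v (Sum.inr (Sum.inr (Sum.inr w'))) < 0
          then A.N0 else 0))) := by
    unfold Cfg.below
    rw [Fintype.sum_sum_type, Fintype.sum_sum_type, Fintype.sum_sum_type, Fintype.sum_prod_type,
      Fintype.sum_prod_type, Fintype.sum_prod_type]
    simp only [hsign]
    rfl
  rw [hsum]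
  -- first sum
  set cA : ℕ := ∑ o, if A.o o < (1 / (H : ℝ)) * A.Y v + (1 / (Θ : ℝ)) * A.X v then A.wo o else 0
    with hcA
  set cC : ℕ := ∑ o, if A.o o < (1 / (H : ℝ)) * A.Y v - (1 - 1 / (Θ : ℝ)) * A.X v
    then A.wo o else 0 with hcC
  set cG : ℕ := ∑ g, if A.gh v g < 0 then A.m g else 0 with hcG
  have hcnt : cG + cA + cC = Λ := h.gA.cnt v hv
  have e1 : (∑ i, ∑ o, if ch U A Θ H Dl Am w.1 v (Sum.inl (i, o)) < 0
      then U.m i * A.wo o else 0) = cA + cC + lam * A.ko := by
    have hp : ∀ i, (∑ o, if ch U A Θ H Dl Am w.1 v (Sum.inl (i, o)) < 0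
        then U.m i * A.wo o else 0) =
        (if i = w.1.1 then cA else 0) + (if i = w.1.2 then cC else 0)
          + (if U.fh w.1 i < 0 then U.m i else 0) * A.ko := by
      intro i
      by_cases h1 : i = w.1.1
      · have h2 : i ≠ w.1.2 := by rw [h1]; exact hne
        have h3 : ¬ U.fh w.1 i < 0 := by rw [h1, hfa]; exact lt_irrefl _
        rw [if_pos h1, if_neg h2, if_neg h3, hcA]
        simp only [add_zero, zero_mul]
        refine Finset.sum_congr rfl fun o _ => ?_
        rw [h1, hma, one_mul]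
        simp only [(cs_left h w.2 hv o).1]
      · by_cases h2 : i = w.1.2
        · have h3 : ¬ U.fh w.1 i < 0 := by rw [h2, hfc]; exact lt_irrefl _
          rw [if_neg h1, if_pos h2, if_neg h3, hcC]
          simp only [add_zero, zero_mul, zero_add]
          refine Finset.sum_congr rfl fun o _ => ?_
          rw [h2, hmc, one_mul]
          simp only [(cs_right h w.2 hv o).1]
        · rw [if_neg h1, if_neg h2]
          simp only [zero_add]
          simp only [(cs_far h w.2 hv i h1 h2 _).1]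
          by_cases h3 : U.fh w.1 i < 0
          · simp only [if_pos h3, Gad.ko, Finset.mul_sum]
          · simp only [if_neg h3, Finset.sum_const_zero, zero_mul]
    rw [Finset.sum_congr rfl fun i _ => hp i, Finset.sum_add_distrib, Finset.sum_add_distrib,
      ← Finset.sum_mul, hbel]
    simp
  -- second sum
  have e2 : (∑ i, ∑ b : Bool, if ch U A Θ H Dl Am w.1 v (Sum.inr (Sum.inl (i, b))) < 0
      then U.m i * (A.N0 * (Δ - U.ldeg i)) else 0)
      + (U.ldeg w.1.1 * A.N0 + U.ldeg w.1.2 * A.N0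
        + ∑ i, U.ldeg i * (if U.fh w.1 i < 0 then 2 * A.N0 else 0))
      = 2 * A.N0 * Δ + lam * (2 * A.N0 * Δ) := by
    have hp : ∀ i, (∑ b : Bool, if ch U A Θ H Dl Am w.1 v (Sum.inr (Sum.inl (i, b))) < 0
        then U.m i * (A.N0 * (Δ - U.ldeg i)) else 0)
        + ((if i = w.1.1 then U.ldeg w.1.1 * A.N0 else 0)
          + (if i = w.1.2 then U.ldeg w.1.2 * A.N0 else 0)
          + U.ldeg i * (if U.fh w.1 i < 0 then 2 * A.N0 else 0)) =
        (if i = w.1.1 then A.N0 * Δ else 0) + (if i = w.1.2 then A.N0 * Δ else 0)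
          + (if U.fh w.1 i < 0 then U.m i else 0) * (2 * A.N0 * Δ) := by
      intro i
      have hmi := hmd i
      have hdi := h.gU.deg i
      by_cases h1 : i = w.1.1
      · have h2 : i ≠ w.1.2 := by rw [h1]; exact hne
        have h3 : ¬ U.fh w.1 i < 0 := by rw [h1, hfa]; exact lt_irrefl _
        have hd : ∀ b, (ch U A Θ H Dl Am w.1 v (Sum.inr (Sum.inl (i, b))) < 0 ↔ b = false) :=
          fun b => (cs_dum h w.2 hv i (Or.inl h1) b).1
        simp only [hd]
        rw [if_pos h1, if_neg h2, if_neg h3, if_pos h1, if_neg h2, if_neg h3]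
        rw [Fintype.sum_bool]
        rw [h1] at hdi ⊢
        rw [hma]
        simp only [Bool.true_eq_false, if_false, if_true, zero_add, mul_zero, add_zero, one_mul,
          zero_mul]
        rw [mul_comm (U.ldeg w.1.1) A.N0, ← mul_add, Nat.sub_add_cancel hdi]
      · by_cases h2 : i = w.1.2
        · have h3 : ¬ U.fh w.1 i < 0 := by rw [h2, hfc]; exact lt_irrefl _
          have hd : ∀ b, (ch U A Θ H Dl Am w.1 v (Sum.inr (Sum.inl (i, b))) < 0 ↔ b = false) :=
            fun b => (cs_dum h w.2 hv i (Or.inr h2) b).1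
          simp only [hd]
          rw [if_neg h1, if_pos h2, if_neg h3, if_neg h1, if_pos h2, if_neg h3]
          rw [Fintype.sum_bool]
          rw [h2] at hdi ⊢
          rw [hmc]
          simp only [Bool.true_eq_false, if_false, if_true, zero_add, mul_zero, add_zero, one_mul,
            zero_mul]
          rw [mul_comm (U.ldeg w.1.2) A.N0, ← mul_add, Nat.sub_add_cancel hdi]
        · have hd : ∀ b, (ch U A Θ H Dl Am w.1 v (Sum.inr (Sum.inl (i, b))) < 0 ↔
              U.fh w.1 i < 0) := fun b => (cs_fard h w.2 hv i h1 h2 b).1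
          simp only [hd]
          rw [if_neg h1, if_neg h2, if_neg h1, if_neg h2]
          by_cases h3 : U.fh w.1 i < 0
          · simp only [if_pos h3, Fintype.sum_bool]
            have : U.m i * (A.N0 * (Δ - U.ldeg i)) + U.m i * (A.N0 * (Δ - U.ldeg i))
                + (0 + 0 + U.ldeg i * (2 * A.N0))
                = 2 * A.N0 * (U.m i * (Δ - U.ldeg i) + U.ldeg i) := by ring
            rw [this, hmi]
            ring
          · simp only [if_neg h3, Finset.sum_const_zero, zero_mul, mul_zero, add_zero]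
    have hsp : (∑ i, ∑ b : Bool, if ch U A Θ H Dl Am w.1 v (Sum.inr (Sum.inl (i, b))) < 0
        then U.m i * (A.N0 * (Δ - U.ldeg i)) else 0)
        + (U.ldeg w.1.1 * A.N0 + U.ldeg w.1.2 * A.N0
          + ∑ i, U.ldeg i * (if U.fh w.1 i < 0 then 2 * A.N0 else 0)) =
        ∑ i, ((∑ b : Bool, if ch U A Θ H Dl Am w.1 v (Sum.inr (Sum.inl (i, b))) < 0
        then U.m i * (A.N0 * (Δ - U.ldeg i)) else 0)
        + ((if i = w.1.1 then U.ldeg w.1.1 * A.N0 else 0)
          + (if i = w.1.2 then U.ldeg w.1.2 * A.N0 else 0)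
          + U.ldeg i * (if U.fh w.1 i < 0 then 2 * A.N0 else 0))) := by
      rw [Finset.sum_add_distrib, Finset.sum_add_distrib, Finset.sum_add_distrib]
      simp
    rw [hsp, Finset.sum_congr rfl fun i _ => hp i, Finset.sum_add_distrib,
      Finset.sum_add_distrib, ← Finset.sum_mul, hbel]
    simp
    ring
  -- third and fourth sums
  have e3 : (∑ w' : {w // w ∈ U.ev}, ∑ g, if ch U A Θ H Dl Am w.1 v (lp w' g) < 0
      then A.m g else 0)
      + (∑ w' : {w // w ∈ U.ev}, if ch U A Θ H Dl Am w.1 v (Sum.inr (Sum.inr (Sum.inr w'))) < 0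
          then A.N0 else 0) =
      cG + (U.ldeg w.1.1 * A.N0 + U.ldeg w.1.2 * A.N0
        + ∑ i, U.ldeg i * (if U.fh w.1 i < 0 then 2 * A.N0 else 0)) := by
    have hp : ∀ w' : {w // w ∈ U.ev}, (∑ g, if ch U A Θ H Dl Am w.1 v (lp w' g) < 0
        then A.m g else 0)
        + (if ch U A Θ H Dl Am w.1 v (Sum.inr (Sum.inr (Sum.inr w'))) < 0
          then A.N0 else 0) =
        (if w' = w then cG else 0) + ((if w'.1.1 = w.1.1 then A.N0 else 0)
          + (if w'.1.1 = w.1.2 then A.N0 else 0)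
          + (if U.fh w.1 w'.1.1 < 0 then 2 * A.N0 else 0)) := by
      intro w'
      by_cases h0 : w' = w
      · subst h0
        have hd := (cs_dual_self h w' hv).1
        have hl : ∀ g, (ch U A Θ H Dl Am w'.1 v (lp w' g) < 0 ↔ A.gh v g < 0) := by
          intro g
          rw [(cs_light_self h w' hv g).1]
          have h1 : (0 : ℝ) < Dl := by exact_mod_cast hDl
          have h2 : (0 : ℝ) < H := by exact_mod_cast hH
          have h3 : (0 : ℝ) < (1 / (Dl : ℝ)) * (1 / (H : ℝ)) := by positivity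
          constructor
          · intro h4
            by_contra h5
            exact absurd h4 (not_lt.mpr (mul_nonneg h3.le (not_lt.mp h5)))
          · intro h4
            exact mul_neg_of_pos_of_neg h3 h4
        simp only [hl]
        rw [if_pos hd, if_neg hne, hfa, if_neg (lt_irrefl _), hcG]
        simp
      · have h0' : w'.1 ≠ w.1 := fun h4 => h0 (Subtype.ext h4)
        by_cases h1 : w'.1.1 = w.1.1 ∨ w'.1.1 = w.1.2
        · have hl : ∀ g, (ch U A Θ H Dl Am w.1 v (lp w' g) < 0 ↔ U.fh w.1 w'.1.2 < 0) :=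
            fun g => (cs_light_on h w.2 hv w' h0' h1 g).1
          have hd := (cs_dual_on h w.2 hv w' h0' h1).1
          have hf0 : U.fh w.1 w'.1.1 = 0 := by
            rcases h1 with h1 | h1
            · rw [h1, hfa]
            · rw [h1, hfc]
          have hone : ((if w'.1.1 = w.1.1 then A.N0 else 0)
              + (if w'.1.1 = w.1.2 then A.N0 else 0)) = A.N0 := by
            rcases h1 with h1 | h1
            · rw [if_pos h1, if_neg (by rw [h1]; exact hne), add_zero]
            · rw [if_neg (by rw [h1]; exact hne.symm), if_pos h1, zero_add]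
          simp only [hl]
          rw [if_neg h0, hone, hf0, if_neg (lt_irrefl _)]
          by_cases h3 : U.fh w.1 w'.1.2 < 0
          · have h4 : ¬ ch U A Θ H Dl Am w.1 v (Sum.inr (Sum.inr (Sum.inr w'))) < 0 :=
              fun h5 => (hd.mp h5) h3
            rw [if_neg h4]
            simp only [if_pos h3]
            simp [Gad.N0]
          · rw [if_pos (hd.mpr h3)]
            simp only [if_neg h3]
            simp
        · push Not at h1
          have hl : ∀ g, (ch U A Θ H Dl Am w.1 v (lp w' g) < 0 ↔ U.fh w.1 w'.1.1 < 0) :=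
            fun g => (cs_light_off h w.2 hv w' h1.1 h1.2 g).1
          have hd := (cs_dual_off h w.2 hv w' h1.1 h1.2).1
          simp only [hl]
          rw [if_neg h0, if_neg h1.1, if_neg h1.2]
          by_cases h3 : U.fh w.1 w'.1.1 < 0
          · rw [if_pos (hd.mpr h3)]
            simp only [if_pos h3]
            simp only [Gad.N0]
            ring
          · have h4 : ¬ ch U A Θ H Dl Am w.1 v (Sum.inr (Sum.inr (Sum.inr w'))) < 0 :=
              fun h5 => h3 (hd.mp h5)
            rw [if_neg h4]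
            simp only [if_neg h3]
            simp
    rw [← Finset.sum_add_distrib, Finset.sum_congr rfl fun w' _ => hp w', Finset.sum_add_distrib,
      Finset.sum_add_distrib, Finset.sum_add_distrib, Cnt.sum_single_fib, Cnt.sum_single_fib,
      Cnt.sum_fib U (fun i => if U.fh w.1 i < 0 then 2 * A.N0 else 0)]
    simp
  rw [e1]
  have e4 : lam * (A.ko + 2 * A.N0 * Δ) + 2 * A.N0 * Δ + Λ =
      cA + cC + lam * A.ko + (2 * A.N0 * Δ + lam * (2 * A.N0 * Δ) + cG) := by
    rw [← hcnt]; ring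
  rw [e4, ← e2, e3]
  ring

end Vale.Agent.P065
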