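import Vale.Agent.P065.Defs

/-! Pre-scale coordinates of the composite, and the statements of the real inequalities. -/

namespace Vale.Agent.P065

open Finset Classical

variable {ι G κ : Type}

/-- light point of the composite -/
def lp {U : Cfg ι} (w : {w // w ∈ U.ev}) (g : G) : CIdx ι G κ U := Sum.inr (Sum.inr (Sum.inl (w, g)))

/-- affine coordinate along `w` of a point of the composite -/
noncomputable def ptau (U : Cfg ι) (A : Gad G κ) (Θ H : ℕ) (w : ι × ι) : CIdx ι G κ U → ℝ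
  | Sum.inl (i, _) => U.tau w i
  | Sum.inr (Sum.inl (i, _)) => U.tau w i
  | Sum.inr (Sum.inr (Sum.inl (w', g))) =>
      U.tau w w'.1.1 + (1 / (Θ : ℝ) + (1 / (H : ℝ)) * A.x g) * (U.tau w w'.1.2 - U.tau w w'.1.1)
  | Sum.inr (Sum.inr (Sum.inr w')) =>
      U.tau w w'.1.1 + (-(1 / (Θ : ℝ))) * (U.tau w w'.1.2 - U.tau w w'.1.1)

/-- height above the line of `w` of a point of the composite (before scaling) -/
noncomputable def pf (U : Cfg ι) (A : Gad G κ) (Θ H Dl Am : ℕ) (w : ι × ι) : CIdx ι G κ U → ℝ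
  | Sum.inl (i, o) => U.fh w i + (1 / (Dl : ℝ)) * A.o o
  | Sum.inr (Sum.inl (i, b)) => U.fh w i + (1 / (Dl : ℝ)) * (if b then (2 * Am : ℝ) else -(2 * Am : ℝ))
  | Sum.inr (Sum.inr (Sum.inl (w', g))) =>
      U.fh w w'.1.1 + (1 / (Θ : ℝ) + (1 / (H : ℝ)) * A.x g) * (U.fh w w'.1.2 - U.fh w w'.1.1)
        + (1 / (Dl : ℝ)) * (1 / (H : ℝ)) * A.y g
  | Sum.inr (Sum.inr (Sum.inr w')) =>
      U.fh w w'.1.1 + (-(1 / (Θ : ℝ))) * (U.fh w w'.1.2 - U.fh w w'.1.1)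

/-- height above the event line (before scaling): `f - δ (η Y - X (τ - θ))` -/
noncomputable def hg (θ η δ X Y f τ : ℝ) : ℝ := f - δ * (η * Y - X * (τ - θ))

/-- standing assumptions on the real parameters -/
structure RPar (θ η δ k X Y Am B N : ℝ) : Prop where
  hN : 1 ≤ N
  hB : 1 ≤ B
  hAm : 2 ≤ Am
  hθ : 0 < θ
  hη : 0 < η
  hδ : 0 < δ
  hk : 0 < k
  hk2 : k ≤ 1 / 16
  hθN : θ * (N + 1) ≤ 1 / 16
  hηB : η * B ≤ θ / 16
  hδA : δ * Am ≤ θ / 64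
  X1 : 1 / 2 ≤ X
  X2 : X ≤ Am
  Y1 : |Y| ≤ B

/-- standing assumptions of the composition theorem -/
structure CPar [Fintype ι] [Fintype G] [Fintype κ] (U : Cfg ι) (A : Gad G κ)
    (lam Δ D E N Θ H Dl Kn Am B Δg Λ : ℕ) : Prop where
  gU : U.Good lam Δ D E N
  gA : A.Good Θ H Kn Am B Δg Λ
  hΘ : 16 * (N + 1) ≤ Θ
  hH : 16 * Θ * B ≤ H
  hDl : 64 * Θ * Am ≤ Dl

end Vale.Agent.P065
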