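import Vale.Agent.P065.CompC1
import Vale.Agent.P065.CompC2
import Vale.Agent.P065.CompCount

/-! Row C5: the composition theorem. -/

namespace Vale.Agent.P065

open Finset Classical

variable {ι G κ : Type} [Fintype ι] [Fintype G] [Fintype κ]
variable {U : Cfg ι} {A : Gad G κ} {lam Δ D E N Θ H Dl Kn Am B Δg Λ : ℕ}

theorem c5_aux {P Q R a c D : ℤ} (hP : 0 ≤ P) (hQ : |Q| ≤ R) (hR : 2 * R ≤ P)
    (ha : |a| ≤ D) (hc : |c| ≤ D) : |P * a + Q * (c - a)| ≤ 2 * P * D := by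
  have hD : 0 ≤ D := le_trans (abs_nonneg a) ha
  have h1 : |P * a| ≤ P * D := by
    rw [abs_mul, abs_of_nonneg hP]; exact mul_le_mul_of_nonneg_left ha hP
  have h2 : |c - a| ≤ 2 * D := by
    have := abs_sub c a
    linarith
  have h3 : |Q * (c - a)| ≤ R * (2 * D) := by
    rw [abs_mul]
    exact mul_le_mul hQ h2 (abs_nonneg _) (le_trans (abs_nonneg _) hQ)
  have h4 : R * (2 * D) ≤ P * D := by nlinarith
  have h5 := abs_add_le (P * a) (Q * (c - a))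
  linarith

theorem c5_aux2 {S a c φ z E : ℝ} (hS : 0 ≤ S) (hφ : |φ| ≤ 1 / 2) (hz : |z| ≤ 1) (hE : 1 ≤ E)
    (ha : |a| ≤ E) (hc : |c| ≤ E) : |S * (a + φ * (c - a) + z)| ≤ 3 * S * E := by
  have h2 : |c - a| ≤ 2 * E := by
    have := abs_sub c a
    linarith
  have h3 : |φ * (c - a)| ≤ 1 / 2 * (2 * E) := by
    rw [abs_mul]
    exact mul_le_mul hφ h2 (abs_nonneg _) (by norm_num)
  have h5 := abs_add_le (a + φ * (c - a)) z
  have h6 := abs_add_le a (φ * (c - a))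
  rw [abs_mul, abs_of_nonneg hS]
  have h7 : |a + φ * (c - a) + z| ≤ 3 * E := by linarith
  calc S * |a + φ * (c - a) + z| ≤ S * (3 * E) := mul_le_mul_of_nonneg_left h7 hS
    _ = 3 * S * E := by ring

theorem comp_good (h : CPar U A lam Δ D E N Θ H Dl Kn Am B Δg Λ) :
    (comp U A Δ Θ H Dl Kn Am).Good (lam * (A.ko + 2 * A.N0 * Δ) + 2 * A.N0 * Δ + Λ) Δg
      (2 * (Θ * H * A.Z) * D) (3 * (Dl * H * Kn) * E) ((2 + Am) * B * Kn) := by
  obtain ⟨gU, gA, hΘ, hH, hDl⟩ := id h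
  have hN := gU.posN
  have hD := gU.posD
  have hE := gU.posE
  have hB := gA.posB
  have hAm := gA.posAm
  have hKn := gA.posKn
  have hZ := gA.posZ
  have hΘ32 : 32 ≤ Θ := by omega
  have hΘ1 : 1 ≤ Θ := by omega
  have hHB : 16 * Θ * B ≤ H := hH
  have hH1 : 16 * Θ ≤ H := by
    calc 16 * Θ = 16 * Θ * 1 := by ring
      _ ≤ 16 * Θ * B := Nat.mul_le_mul_left _ hB
      _ ≤ H := hH
  have hHp : 1 ≤ H := by omega
  have hDl1 : 64 * Am ≤ Dl := by
    calc 64 * Am = 64 * 1 * Am := by ring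
      _ ≤ 64 * Θ * Am := Nat.mul_le_mul_right _ (Nat.mul_le_mul_left _ hΘ1)
      _ ≤ Dl := hDl
  have hDlp : 1 ≤ Dl := by omega
  -- integer versions
  have hZ' : (1 : ℤ) ≤ A.Z := by exact_mod_cast hZ
  have hΘ' : (32 : ℤ) ≤ Θ := by exact_mod_cast hΘ32
  have hH' : (1 : ℤ) ≤ H := by exact_mod_cast hHp
  have hHB' : (16 : ℤ) * Θ * B ≤ H := by exact_mod_cast hHB
  have hD' : (1 : ℤ) ≤ D := by exact_mod_cast hD
  have hB' : (1 : ℤ) ≤ B := by exact_mod_cast hB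
  have hHZ : (0 : ℤ) ≤ H * A.Z := by positivity
  have hP : (0 : ℤ) ≤ Θ * H * A.Z := by positivity
  have hPR : 2 * (2 * ((H : ℤ) * A.Z)) ≤ Θ * H * A.Z := by nlinarith
  have hZr : (1 : ℝ) ≤ A.Z := by exact_mod_cast hZ
  have hxz : ∀ g, |A.xz g| ≤ A.Z * B := by
    intro g
    have h1 := gA.xb g
    unfold Gad.x at h1
    rw [abs_div, div_le_iff₀ (by positivity)] at h1
    rw [abs_of_nonneg (by positivity : (0 : ℝ) ≤ A.Z)] at h1
    have h2 : ((|A.xz g| : ℤ) : ℝ) ≤ ((A.Z * B : ℤ) : ℝ) := by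
      push_cast
      linarith
    exact_mod_cast h2
  -- real versions
  have hΘr : (32 : ℝ) ≤ Θ := by exact_mod_cast hΘ32
  have hHr : (1 : ℝ) ≤ H := by exact_mod_cast hHp
  have hHBr : (16 : ℝ) * Θ * B ≤ H := by exact_mod_cast hHB
  have hBr : (1 : ℝ) ≤ B := by exact_mod_cast hB
  have hDlr : (64 : ℝ) * Am ≤ Dl := by exact_mod_cast hDl1
  have hAmr : (2 : ℝ) ≤ Am := by exact_mod_cast hAm
  have hDlr1 : (1 : ℝ) ≤ Dl := by linarith
  have hEr : (1 : ℝ) ≤ E := by exact_mod_cast hE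
  have hS : (0 : ℝ) ≤ Dl * H * Kn := by positivity
  have hδ : (1 / (Dl : ℝ)) * (2 * Am) ≤ 1 := by
    rw [one_div, inv_mul_le_iff₀ (by linarith)]
    linarith
  have hδ0 : 0 ≤ 1 / (Dl : ℝ) := by positivity
  have hη0 : 0 ≤ 1 / (H : ℝ) := by positivity
  have hθ0 : 0 ≤ 1 / (Θ : ℝ) := by positivity
  have hθ : 1 / (Θ : ℝ) ≤ 1 / 32 := by
    exact one_div_le_one_div_of_le (by norm_num) hΘr
  have hηB : (1 / (H : ℝ)) * B ≤ 1 / 32 := by
    rw [one_div, inv_mul_le_iff₀ (by linarith)]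
    nlinarith
  have hδ1 : 1 / (Dl : ℝ) ≤ 1 := by
    rw [div_le_one (by linarith)]; exact hDlr1
  refine
    { lt := ?_, m1 := ?_, m2 := ?_, c1 := comp_c1 h, bel := comp_below h, c2 := ?_,
      td := ?_, ee := ?_, deg := comp_ldeg U A Δ Θ H Dl Kn Am Δg gA.deg, posΔ := gA.posΔ,
      posD := ?_, posE := ?_, posN := ?_ }
  · intro W hW
    obtain ⟨w, v, hv, rfl⟩ := (comp_ev_iff U A Δ Θ H Dl Kn Am W).1 hW
    have hw := gU.lt w.1 w.2
    have hs := gA.sep v hv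
    have hx : A.xz v.1 < A.xz v.2 := by
      by_contra hcon
      push Not at hcon
      have h1 : (A.xz v.2 : ℝ) ≤ A.xz v.1 := by exact_mod_cast hcon
      have h2 : A.x v.2 ≤ A.x v.1 := by
        unfold Gad.x
        exact div_le_div_of_nonneg_right h1 (by positivity)
      linarith
    change (Θ * H * A.Z : ℤ) * U.t w.1.1 + (H * A.Z + Θ * A.xz v.1) * (U.t w.1.2 - U.t w.1.1)
      < (Θ * H * A.Z : ℤ) * U.t w.1.1 + (H * A.Z + Θ * A.xz v.2) * (U.t w.1.2 - U.t w.1.1)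
    have h3 : (0 : ℤ) < Θ * (A.xz v.2 - A.xz v.1) * (U.t w.1.2 - U.t w.1.1) := by
      apply mul_pos (mul_pos (by linarith) (by linarith)) (by linarith)
    linarith
  · intro W hW
    obtain ⟨w, v, hv, rfl⟩ := (comp_ev_iff U A Δ Θ H Dl Kn Am W).1 hW
    exact gA.m1 v hv
  · intro W hW
    obtain ⟨w, v, hv, rfl⟩ := (comp_ev_iff U A Δ Θ H Dl Kn Am W).1 hW
    exact gA.m2 v hv
  · exact comp_c2 h
  · intro p
    push_cast
    rcases p with ⟨i, o⟩ | ⟨i, b⟩ | ⟨w, g⟩ | w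
    · change |(Θ * H * A.Z : ℤ) * U.t i| ≤ _
      have h1 := c5_aux (Q := 0) (R := 0) (c := U.t i) hP (by simp) (by simpa using hP)
        (gU.td i) (gU.td i)
      simpa using h1
    · change |(Θ * H * A.Z : ℤ) * U.t i| ≤ _
      have h1 := c5_aux (Q := 0) (R := 0) (c := U.t i) hP (by simp) (by simpa using hP)
        (gU.td i) (gU.td i)
      simpa using h1
    · change |(Θ * H * A.Z : ℤ) * U.t w.1.1 + (H * A.Z + Θ * A.xz g) * (U.t w.1.2 - U.t w.1.1)| ≤ _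
      refine c5_aux hP ?_ hPR (gU.td _) (gU.td _)
      have h1 := hxz g
      have h2 := abs_add_le ((H : ℤ) * A.Z) (Θ * A.xz g)
      rw [abs_of_nonneg hHZ, abs_mul, abs_of_nonneg (by linarith : (0 : ℤ) ≤ Θ)] at h2
      have h3 : (Θ : ℤ) * |A.xz g| ≤ Θ * (A.Z * B) := mul_le_mul_of_nonneg_left h1 (by linarith)
      have h4 : (Θ : ℤ) * (A.Z * B) ≤ H * A.Z := by
        have h5 : (Θ : ℤ) * B ≤ H := by nlinarith
        nlinarith
      linarith
    · change |(Θ * H * A.Z : ℤ) * U.t w.1.1 - (H * A.Z) * (U.t w.1.2 - U.t w.1.1)| ≤ _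
      have h1 := c5_aux (Q := -((H : ℤ) * A.Z)) hP
        (by rw [abs_neg, abs_of_nonneg hHZ]; linarith) hPR (gU.td w.1.1) (gU.td w.1.2)
      have h2 : (Θ * H * A.Z : ℤ) * U.t w.1.1 + -((H : ℤ) * A.Z) * (U.t w.1.2 - U.t w.1.1)
        = (Θ * H * A.Z : ℤ) * U.t w.1.1 - (H * A.Z) * (U.t w.1.2 - U.t w.1.1) := by ring
      rw [h2] at h1
      exact h1
  · intro p
    push_cast
    rcases p with ⟨i, o⟩ | ⟨i, b⟩ | ⟨w, g⟩ | w
    · change |(Dl * H * Kn : ℝ) * (U.e i + (1 / (Dl : ℝ)) * A.o o)| ≤ _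
      have h1 := c5_aux2 (φ := 0) (z := (1 / (Dl : ℝ)) * A.o o) hS (by norm_num) (by
        rw [abs_mul, abs_of_nonneg hδ0]
        have h2 := gA.ob o
        have h3 : (1 / (Dl : ℝ)) * |A.o o| ≤ (1 / (Dl : ℝ)) * (2 * Am) :=
          mul_le_mul_of_nonneg_left (by linarith) hδ0
        linarith) hEr (gU.ee i) (gU.ee i)
      simpa using h1
    · change |(Dl * H * Kn : ℝ) * (U.e i + (1 / (Dl : ℝ)) *
        (if b then (2 * Am : ℝ) else -(2 * Am : ℝ)))| ≤ _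
      have h1 := c5_aux2 (φ := 0) (z := (1 / (Dl : ℝ)) *
        (if b then (2 * Am : ℝ) else -(2 * Am : ℝ))) hS (by norm_num) (by
        rw [abs_mul, abs_of_nonneg hδ0]
        have h2 : |(if b then (2 * Am : ℝ) else -(2 * Am : ℝ))| = 2 * Am := by
          split_ifs
          · exact abs_of_nonneg (by positivity)
          · rw [abs_neg]; exact abs_of_nonneg (by positivity)
        rw [h2]
        exact hδ) hEr (gU.ee i) (gU.ee i)
      simpa using h1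
    · change |(Dl * H * Kn : ℝ) * (U.e w.1.1
          + (1 / (Θ : ℝ) + (1 / (H : ℝ)) * A.x g) * (U.e w.1.2 - U.e w.1.1)
          + (1 / (Dl : ℝ)) * (1 / (H : ℝ)) * A.y g)| ≤ _
      refine c5_aux2 hS ?_ ?_ hEr (gU.ee _) (gU.ee _)
      · have h1 := abs_add_le (1 / (Θ : ℝ)) ((1 / (H : ℝ)) * A.x g)
        rw [abs_of_nonneg hθ0, abs_mul, abs_of_nonneg hη0] at h1
        have h3 : (1 / (H : ℝ)) * |A.x g| ≤ (1 / (H : ℝ)) * B :=
          mul_le_mul_of_nonneg_left (gA.xb g) hη0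
        linarith
      · rw [abs_mul, abs_mul, abs_of_nonneg hδ0, abs_of_nonneg hη0, mul_assoc]
        have h3 : (1 / (H : ℝ)) * |A.y g| ≤ (1 / (H : ℝ)) * B :=
          mul_le_mul_of_nonneg_left (gA.yb g) hη0
        have h4 : 0 ≤ (1 / (H : ℝ)) * |A.y g| := by positivity
        have h5 : (1 / (Dl : ℝ)) * ((1 / (H : ℝ)) * |A.y g|) ≤ 1 * ((1 / (H : ℝ)) * |A.y g|) :=
          mul_le_mul_of_nonneg_right hδ1 h4
        linarith
    · change |(Dl * H * Kn : ℝ) * (U.e w.1.1 - (1 / (Θ : ℝ)) * (U.e w.1.2 - U.e w.1.1))| ≤ _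
      have h1 := c5_aux2 (φ := -(1 / (Θ : ℝ))) (z := 0) hS
        (by rw [abs_neg, abs_of_nonneg hθ0]; linarith) (by norm_num) hEr
        (gU.ee w.1.1) (gU.ee w.1.2)
      have h2 : (Dl * H * Kn : ℝ) * (U.e w.1.1 + -(1 / (Θ : ℝ)) * (U.e w.1.2 - U.e w.1.1) + 0)
        = (Dl * H * Kn : ℝ) * (U.e w.1.1 - (1 / (Θ : ℝ)) * (U.e w.1.2 - U.e w.1.1)) := by ring
      rw [h2] at h1
      exact h1
  · have : 0 < 2 * (Θ * H * A.Z) * D := by positivity
    omega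
  · have : 0 < 3 * (Dl * H * Kn) * E := by positivity
    omega
  · have : 0 < (2 + Am) * B * Kn := by positivity
    omega

end Vale.Agent.P065
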