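import Vale.Agent.P065.CompDefs

/-! Real inequalities (row R). -/

namespace Vale.Agent.P065

section aux

variable {θ η δ k X Y Am B N : ℝ}

theorem RPar.θ32 (h : RPar θ η δ k X Y Am B N) : θ ≤ 1 / 32 := by
  have h1 := h.hθN
  have h2 := mul_le_mul_of_nonneg_left h.hN h.hθ.le
  linarith

theorem RPar.ηθ (h : RPar θ η δ k X Y Am B N) : η ≤ θ / 16 := by
  have h1 := h.hηB
  have h2 := mul_le_mul_of_nonneg_left h.hB h.hη.le
  linarith

theorem RPar.δθ (h : RPar θ η δ k X Y Am B N) : δ ≤ θ / 128 := by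
  have h1 := h.hδA
  have h2 := mul_le_mul_of_nonneg_left h.hAm h.hδ.le
  linarith

theorem RPar.ηY (h : RPar θ η δ k X Y Am B N) : |η * Y| ≤ θ / 16 := by
  rw [abs_mul, abs_of_pos h.hη]
  exact (mul_le_mul_of_nonneg_left h.Y1 h.hη.le).trans h.hηB

theorem RPar.θ2 (h : RPar θ η δ k X Y Am B N) : θ * θ ≤ θ / 32 := by
  have := mul_le_mul_of_nonneg_left h.θ32 h.hθ.le
  linarith

/-- a small product -/
theorem RPar.δηy (h : RPar θ η δ k X Y Am B N) {y : ℝ} (hy : |y| ≤ B) :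
    |δ * η * y| ≤ θ / 4096 := by
  rw [mul_assoc, abs_mul, abs_of_pos h.hδ, abs_mul, abs_of_pos h.hη]
  have h1 : η * |y| ≤ θ / 16 := (mul_le_mul_of_nonneg_left hy h.hη.le).trans h.hηB
  have h2 : δ * (η * |y|) ≤ θ / 128 * (θ / 16) :=
    mul_le_mul h.δθ h1 (mul_nonneg h.hη.le (abs_nonneg _)) (by linarith [h.hθ])
  have h3 := h.θ2
  have h4 := h.hθ
  linarith

/-- the perturbation term is small -/
theorem RPar.pert (h : RPar θ η δ k X Y Am B N) (τ : ℝ) :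
    |δ * (η * Y - X * (τ - θ))| ≤ θ / 64 * (1 + |τ|) := by
  have hX0 : 0 ≤ X := by linarith [h.X1]
  have h1 : |η * Y - X * (τ - θ)| ≤ θ / 16 + Am * (|τ| + θ) := by
    refine (abs_sub _ _).trans (add_le_add h.ηY ?_)
    rw [abs_mul, abs_of_nonneg hX0]
    refine mul_le_mul h.X2 ?_ (abs_nonneg _) (by linarith [h.hAm])
    refine (abs_sub _ _).trans ?_
    rw [abs_of_pos h.hθ]
  rw [abs_mul, abs_of_pos h.hδ]
  have h2 := mul_le_mul_of_nonneg_left h1 h.hδ.le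
  have h3 : δ * (θ / 16 + Am * (|τ| + θ)) = δ * (θ / 16) + (δ * Am) * (|τ| + θ) := by ring
  have h4 : δ * (θ / 16) ≤ θ / 128 * (θ / 16) :=
    mul_le_mul_of_nonneg_right h.δθ (by linarith [h.hθ])
  have h5 : (δ * Am) * (|τ| + θ) ≤ θ / 64 * (|τ| + θ) :=
    mul_le_mul_of_nonneg_right h.hδA (by linarith [h.hθ, abs_nonneg τ])
  have h6 := h.θ2
  have h7 := h.hθ
  have h8 : θ / 64 * (|τ| + θ) = θ / 64 * |τ| + θ * θ / 64 := by ring
  have h9 : θ / 64 * (1 + |τ|) = θ / 64 + θ / 64 * |τ| := by ring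
  rw [h9]
  rw [h3] at h2
  linarith

/-- the required margin is small -/
theorem RPar.marg (h : RPar θ η δ k X Y Am B N) (τ : ℝ) :
    δ * k * (2 * |τ| + 5 * θ) ≤ θ / 1024 * (1 + |τ|) := by
  have h1 : δ * k ≤ θ / 128 * (1 / 16) :=
    mul_le_mul h.δθ h.hk2 h.hk.le (by linarith [h.hθ])
  have h2 : 0 ≤ 2 * |τ| + 5 * θ := by linarith [h.hθ, abs_nonneg τ]
  have h3 := mul_le_mul_of_nonneg_right h1 h2
  have h4 : 2 * |τ| + 5 * θ ≤ 2 * (1 + |τ|) := by linarith [h.θ32]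
  have h5 := mul_le_mul_of_nonneg_left h4 (show 0 ≤ θ / 128 * (1 / 16) by linarith [h.hθ])
  have h6 : θ / 128 * (1 / 16) * (2 * (1 + |τ|)) = θ / 1024 * (1 + |τ|) := by ring
  linarith

theorem abs_close {a b c : ℝ} (h : |a - b| ≤ c) : |b| - c ≤ |a| ∧ |a| ≤ |b| + c := by
  have h1 := abs_sub_abs_le_abs_sub b a
  have h2 := abs_sub_abs_le_abs_sub a b
  rw [abs_sub_comm] at h1
  constructor <;> linarith

theorem sign_close {a b c : ℝ} (h : |a - b| ≤ c) (hc : c < |b|) :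
    (0 < b → 0 < a) ∧ (b < 0 → a < 0) := by
  rw [abs_le] at h
  constructor
  · intro hb
    rw [abs_of_pos hb] at hc
    linarith
  · intro hb
    rw [abs_of_neg hb] at hc
    linarith

end aux

/-- far cluster or dummy point (row R) -/
theorem R_p {θ η δ k X Y Am B N : ℝ} (h : RPar θ η δ k X Y Am B N) {f τ o : ℝ}
    (hf : 1 + |τ| ≤ |f|) (ho : |o| ≤ 2 * Am) :
    (0 < f → 0 < hg θ η δ X Y (f + δ * o) τ) ∧ (f < 0 → hg θ η δ X Y (f + δ * o) τ < 0) ∧
    δ * k * (2 * |τ| + 5 * θ) ≤ |hg θ η δ X Y (f + δ * o) τ| := by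
  have h1 : |hg θ η δ X Y (f + δ * o) τ - f| ≤ 1 / 2 * (1 + |τ|) := by
    have e1 : hg θ η δ X Y (f + δ * o) τ - f = δ * o - δ * (η * Y - X * (τ - θ)) := by
      unfold hg
      ring
    rw [e1]
    refine (abs_sub _ _).trans ?_
    have e2 : |δ * o| ≤ θ / 32 := by
      rw [abs_mul, abs_of_pos h.hδ]
      have := mul_le_mul_of_nonneg_left ho h.hδ.le
      linarith [h.hδA]
    have e3 := h.pert τ
    have e4 : θ / 64 * (1 + |τ|) ≤ 1 / 4 * (1 + |τ|) :=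
      mul_le_mul_of_nonneg_right (by linarith [h.θ32]) (by linarith [abs_nonneg τ])
    linarith [h.θ32, abs_nonneg τ]
  have h2 : 0 < 1 + |τ| := by linarith [abs_nonneg τ]
  have h3 := sign_close h1 (by linarith)
  have h4 := (abs_close h1).1
  refine ⟨h3.1, h3.2, (h.marg τ).trans ?_⟩
  have e4 : θ / 1024 * (1 + |τ|) ≤ 1 / 4 * (1 + |τ|) :=
    mul_le_mul_of_nonneg_right (by linarith [h.θ32]) (by linarith [abs_nonneg τ])
  linarith

/-- cluster point at the left endpoint -/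
theorem R_a {θ η δ k X Y Am B N : ℝ} (h : RPar θ η δ k X Y Am B N) {o : ℝ}
    (ho : 5 * θ * k ≤ |o - (η * Y + θ * X)|) :
    (hg θ η δ X Y (0 + δ * o) 0 < 0 ↔ o < η * Y + θ * X) ∧
    δ * k * (2 * |(0 : ℝ)| + 5 * θ) ≤ |hg θ η δ X Y (0 + δ * o) 0| := by
  have e1 : hg θ η δ X Y (0 + δ * o) 0 = δ * (o - (η * Y + θ * X)) := by
    unfold hg
    ring
  rw [e1]
  constructor
  · constructor
    · intro hlt
      by_contra hge
      have := mul_nonneg h.hδ.le (sub_nonneg.2 (not_lt.1 hge))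
      linarith
    · intro hlt
      exact mul_neg_of_pos_of_neg h.hδ (sub_neg.2 hlt)
  · rw [abs_mul, abs_of_pos h.hδ, abs_zero]
    have := mul_le_mul_of_nonneg_left ho h.hδ.le
    linarith

/-- cluster point at the right endpoint -/
theorem R_c {θ η δ k X Y Am B N : ℝ} (h : RPar θ η δ k X Y Am B N) {o : ℝ}
    (ho : 7 * k ≤ |o - (η * Y - (1 - θ) * X)|) :
    (hg θ η δ X Y (0 + δ * o) 1 < 0 ↔ o < η * Y - (1 - θ) * X) ∧
    δ * k * (2 * |(1 : ℝ)| + 5 * θ) ≤ |hg θ η δ X Y (0 + δ * o) 1| := by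
  have e1 : hg θ η δ X Y (0 + δ * o) 1 = δ * (o - (η * Y - (1 - θ) * X)) := by
    unfold hg
    ring
  rw [e1]
  constructor
  · constructor
    · intro hlt
      by_contra hge
      have := mul_nonneg h.hδ.le (sub_nonneg.2 (not_lt.1 hge))
      linarith
    · intro hlt
      exact mul_neg_of_pos_of_neg h.hδ (sub_neg.2 hlt)
  · rw [abs_mul, abs_of_pos h.hδ, abs_one]
    have h1 := mul_le_mul_of_nonneg_left ho h.hδ.le
    have h2 : δ * k * (2 * 1 + 5 * θ) ≤ δ * k * 7 :=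
      mul_le_mul_of_nonneg_left (by linarith [h.θ32]) (mul_nonneg h.hδ.le h.hk.le)
    linarith

/-- dummies at the endpoints: `τ = 0` or `τ = 1` -/
theorem R_dum {θ η δ k X Y Am B N : ℝ} (h : RPar θ η δ k X Y Am B N) {τ : ℝ}
    (hτ : τ = 0 ∨ τ = 1) :
    (0 < hg θ η δ X Y (0 + δ * (2 * Am)) τ) ∧ (hg θ η δ X Y (0 + δ * (-(2 * Am))) τ < 0) ∧
    δ * k * (2 * |τ| + 5 * θ) ≤ |hg θ η δ X Y (0 + δ * (2 * Am)) τ| ∧
    δ * k * (2 * |τ| + 5 * θ) ≤ |hg θ η δ X Y (0 + δ * (-(2 * Am))) τ| := by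
  have hτ1 : |τ| ≤ 1 := by
    rcases hτ with rfl | rfl
    · rw [abs_zero]
      exact zero_le_one
    · rw [abs_one]
  have hp : |η * Y - X * (τ - θ)| ≤ Am + 1 / 16 := by
    have hX0 : 0 ≤ X := by linarith [h.X1]
    have h1 : |τ - θ| ≤ 1 := by
      rw [abs_le]
      rcases hτ with rfl | rfl <;> constructor <;> linarith [h.θ32, h.hθ]
    have h2 : |X * (τ - θ)| ≤ Am * 1 := by
      rw [abs_mul, abs_of_nonneg hX0]
      exact mul_le_mul h.X2 h1 (abs_nonneg _) (by linarith [h.hAm])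
    have h3 := abs_sub (η * Y) (X * (τ - θ))
    have h4 := h.ηY
    linarith [h.θ32]
  rw [abs_le] at hp
  have e1 : hg θ η δ X Y (0 + δ * (2 * Am)) τ = δ * (2 * Am - (η * Y - X * (τ - θ))) := by
    unfold hg
    ring
  have e2 : hg θ η δ X Y (0 + δ * (-(2 * Am))) τ =
      -(δ * (2 * Am + (η * Y - X * (τ - θ)))) := by
    unfold hg
    ring
  have p1 : 1 ≤ 2 * Am - (η * Y - X * (τ - θ)) := by linarith [h.hAm, hp.2]
  have p2 : 1 ≤ 2 * Am + (η * Y - X * (τ - θ)) := by linarith [h.hAm, hp.1]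
  have q1 := mul_le_mul_of_nonneg_left p1 h.hδ.le
  have q2 := mul_le_mul_of_nonneg_left p2 h.hδ.le
  have hδ := h.hδ
  have r1 : δ * k * (2 * |τ| + 5 * θ) ≤ δ := by
    have s1 : k * (2 * |τ| + 5 * θ) ≤ 1 / 16 * 3 := by
      refine mul_le_mul h.hk2 (by linarith [h.θ32]) ?_ (by norm_num)
      linarith [abs_nonneg τ, h.hθ]
    have s2 := mul_le_mul_of_nonneg_left s1 h.hδ.le
    linarith
  have t1 : 0 < δ * (2 * Am - (η * Y - X * (τ - θ))) := by linarith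
  have t2 : 0 < δ * (2 * Am + (η * Y - X * (τ - θ))) := by linarith
  have t3 := abs_of_pos t1
  have t4 := abs_of_pos t2
  rw [e1, e2, abs_neg, t3, t4]
  refine ⟨by linarith, by linarith, by linarith, by linarith⟩

/-- light or dual point of another event whose left endpoint is off the pair -/
theorem R_d1 {θ η δ k X Y Am B N : ℝ} (h : RPar θ η δ k X Y Am B N) {fa fc τa τc φ y : ℝ}
    (hfa : 1 + |τa| ≤ |fa|) (hfc : |fc| ≤ N * |fa|) (hτc : |τc| ≤ N * |fa|)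
    (hφ : |φ| ≤ 17 / 16 * θ) (hy : |y| ≤ B) :
    (0 < fa → 0 < hg θ η δ X Y (fa + φ * (fc - fa) + δ * η * y) (τa + φ * (τc - τa))) ∧
    (fa < 0 → hg θ η δ X Y (fa + φ * (fc - fa) + δ * η * y) (τa + φ * (τc - τa)) < 0) ∧
    1 / 2 * |fa| ≤ |hg θ η δ X Y (fa + φ * (fc - fa) + δ * η * y) (τa + φ * (τc - τa))| ∧
    |hg θ η δ X Y (fa + φ * (fc - fa) + δ * η * y) (τa + φ * (τc - τa))| ≤ 2 * |fa| ∧
    δ * k * (2 * |τa + φ * (τc - τa)| + 5 * θ) ≤
      |hg θ η δ X Y (fa + φ * (fc - fa) + δ * η * y) (τa + φ * (τc - τa))| := by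
  have hF : 1 ≤ |fa| := by linarith [abs_nonneg τa]
  have hθN := h.hθN
  have g1 : 17 / 16 * θ * ((N + 1) * |fa|) ≤ 17 / 256 * |fa| := by
    have := mul_le_mul_of_nonneg_right hθN (abs_nonneg fa)
    have e : 17 / 16 * θ * ((N + 1) * |fa|) = 17 / 16 * (θ * (N + 1) * |fa|) := by ring
    rw [e]
    linarith
  have g2 : |φ * (fc - fa)| ≤ 17 / 256 * |fa| := by
    rw [abs_mul]
    refine le_trans (mul_le_mul hφ ((abs_sub fc fa).trans ?_) (abs_nonneg _)
      (by linarith [h.hθ])) g1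
    linarith
  have g3 : |φ * (τc - τa)| ≤ 17 / 256 * |fa| := by
    rw [abs_mul]
    refine le_trans (mul_le_mul hφ ((abs_sub τc τa).trans ?_) (abs_nonneg _)
      (by linarith [h.hθ])) g1
    linarith
  have g4 : |τa + φ * (τc - τa)| ≤ |fa| - 1 + 17 / 256 * |fa| :=
    (abs_add_le _ _).trans (add_le_add (by linarith) g3)
  have g5 := h.pert (τa + φ * (τc - τa))
  have g6 : θ / 64 * (1 + |τa + φ * (τc - τa)|) ≤ 1 / 64 * |fa| := by
    have s1 : 1 + |τa + φ * (τc - τa)| ≤ 2 * |fa| := by linarith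
    have s2 := mul_le_mul (show θ / 64 ≤ 1 / 2048 by linarith [h.θ32]) s1
      (by linarith [abs_nonneg (τa + φ * (τc - τa))]) (by norm_num)
    linarith
  have g7 := h.δηy hy
  have h1 : |hg θ η δ X Y (fa + φ * (fc - fa) + δ * η * y) (τa + φ * (τc - τa)) - fa| ≤
      1 / 4 * |fa| := by
    have e1 : hg θ η δ X Y (fa + φ * (fc - fa) + δ * η * y) (τa + φ * (τc - τa)) - fa =
        φ * (fc - fa) + δ * η * y - δ * (η * Y - X * ((τa + φ * (τc - τa)) - θ)) := by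
      unfold hg
      ring
    rw [e1]
    have s1 := abs_sub (φ * (fc - fa) + δ * η * y)
      (δ * (η * Y - X * ((τa + φ * (τc - τa)) - θ)))
    have s2 := abs_add_le (φ * (fc - fa)) (δ * η * y)
    linarith [h.θ32]
  have h3 := sign_close h1 (by linarith)
  have h4 := abs_close h1
  refine ⟨h3.1, h3.2, by linarith [h4.1], by linarith [h4.2], ?_⟩
  refine (h.marg _).trans ?_
  have s1 : θ / 1024 * (1 + |τa + φ * (τc - τa)|) ≤ θ / 64 * (1 + |τa + φ * (τc - τa)|) :=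
    mul_le_mul_of_nonneg_right (by linarith [h.hθ])
      (by linarith [abs_nonneg (τa + φ * (τc - τa))])
  linarith [h4.1]

/-- light or dual point of another event whose left endpoint is on the pair (`τa = 0` or `1`) -/
theorem R_d2 {θ η δ k X Y Am B N : ℝ} (h : RPar θ η δ k X Y Am B N) {fc τa τc φ y : ℝ}
    (hτa : τa = 0 ∨ τa = 1) (hfc : 1 + |τc| ≤ |fc|)
    (hφ1 : 15 / 16 * θ ≤ |φ|) (hφ : |φ| ≤ 17 / 16 * θ) (hy : |y| ≤ B) :
    (0 < φ * fc → 0 < hg θ η δ X Y (0 + φ * (fc - 0) + δ * η * y) (τa + φ * (τc - τa))) ∧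
    (φ * fc < 0 → hg θ η δ X Y (0 + φ * (fc - 0) + δ * η * y) (τa + φ * (τc - τa)) < 0) ∧
    θ / 2 * |fc| ≤ |hg θ η δ X Y (0 + φ * (fc - 0) + δ * η * y) (τa + φ * (τc - τa))| ∧
    |hg θ η δ X Y (0 + φ * (fc - 0) + δ * η * y) (τa + φ * (τc - τa))| ≤ 2 * θ * |fc| ∧
    δ * k * (2 * |τa + φ * (τc - τa)| + 5 * θ) ≤
      |hg θ η δ X Y (0 + φ * (fc - 0) + δ * η * y) (τa + φ * (τc - τa))| := by
  have hF : 1 ≤ |fc| := by linarith [abs_nonneg τc]
  have hθ := h.hθ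
  have hτ1 : |τa| ≤ 1 := by
    rcases hτa with rfl | rfl
    · rw [abs_zero]
      exact zero_le_one
    · rw [abs_one]
  have g3 : |φ * (τc - τa)| ≤ 17 / 16 * θ * |fc| := by
    rw [abs_mul]
    refine mul_le_mul hφ ((abs_sub τc τa).trans ?_) (abs_nonneg _) (by linarith)
    linarith
  have g3' : 17 / 16 * θ * |fc| ≤ 1 / 16 * |fc| :=
    mul_le_mul_of_nonneg_right (by linarith [h.θ32]) (abs_nonneg _)
  have g4 : 1 + |τa + φ * (τc - τa)| ≤ 33 / 16 * |fc| := by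
    have := abs_add_le τa (φ * (τc - τa))
    linarith
  have g5 := h.pert (τa + φ * (τc - τa))
  have g6 : θ / 64 * (1 + |τa + φ * (τc - τa)|) ≤ 1 / 16 * (θ * |fc|) := by
    have s2 := mul_le_mul_of_nonneg_left g4 (show 0 ≤ θ / 64 by linarith)
    have s3 := mul_nonneg hθ.le (abs_nonneg fc)
    have s4 : θ / 64 * (33 / 16 * |fc|) = 33 / 1024 * (θ * |fc|) := by ring
    linarith
  have g7 := h.δηy hy
  have g8 : θ / 4096 ≤ 1 / 4096 * (θ * |fc|) := by
    have := mul_le_mul_of_nonneg_left hF hθ.le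
    linarith
  have hT : 0 < θ * |fc| := mul_pos hθ (by linarith)
  have h1 : |hg θ η δ X Y (0 + φ * (fc - 0) + δ * η * y) (τa + φ * (τc - τa)) - φ * fc| ≤
      1 / 8 * (θ * |fc|) := by
    have e1 : hg θ η δ X Y (0 + φ * (fc - 0) + δ * η * y) (τa + φ * (τc - τa)) - φ * fc =
        δ * η * y - δ * (η * Y - X * ((τa + φ * (τc - τa)) - θ)) := by
      unfold hg
      ring
    rw [e1]
    have s1 := abs_sub (δ * η * y) (δ * (η * Y - X * ((τa + φ * (τc - τa)) - θ)))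
    linarith
  have l1 : 15 / 16 * (θ * |fc|) ≤ |φ * fc| := by
    rw [abs_mul]
    have := mul_le_mul_of_nonneg_right hφ1 (abs_nonneg fc)
    linarith
  have l2 : |φ * fc| ≤ 17 / 16 * (θ * |fc|) := by
    rw [abs_mul]
    have := mul_le_mul_of_nonneg_right hφ (abs_nonneg fc)
    linarith
  have h3 := sign_close h1 (by linarith)
  have h4 := abs_close h1
  have l3 : θ / 2 * |fc| = 1 / 2 * (θ * |fc|) := by ring
  have l4 : 2 * θ * |fc| = 2 * (θ * |fc|) := by ring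
  refine ⟨h3.1, h3.2, by rw [l3]; linarith [h4.1], by rw [l4]; linarith [h4.2], ?_⟩
  refine (h.marg _).trans ?_
  have s1 : θ / 1024 * (1 + |τa + φ * (τc - τa)|) ≤ θ / 64 * (1 + |τa + φ * (τc - τa)|) :=
    mul_le_mul_of_nonneg_right (by linarith)
      (by linarith [abs_nonneg (τa + φ * (τc - τa))])
  linarith [h4.1]

/-- the dual point of the event itself -/
theorem R_e {θ η δ k X Y Am B N : ℝ} (h : RPar θ η δ k X Y Am B N) :
    hg θ η δ X Y 0 (-θ) < 0 ∧ δ * k * (2 * |(-θ)| + 5 * θ) ≤ |hg θ η δ X Y 0 (-θ)| := by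
  have e1 : hg θ η δ X Y 0 (-θ) = -(δ * (η * Y + 2 * (θ * X))) := by
    unfold hg
    ring
  have h1 := abs_le.1 h.ηY
  have h2 := mul_le_mul_of_nonneg_left h.X1 h.hθ.le
  have h3 : 15 / 16 * θ ≤ η * Y + 2 * (θ * X) := by linarith [h1.1]
  have h4 := mul_le_mul_of_nonneg_left h3 h.hδ.le
  have h5 : 0 < δ * θ := mul_pos h.hδ h.hθ
  have h6 : δ * (15 / 16 * θ) = 15 / 16 * (δ * θ) := by ring
  rw [h6] at h4
  rw [e1, abs_neg, abs_neg, abs_of_pos h.hθ, abs_of_pos (by linarith)]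
  refine ⟨by linarith, ?_⟩
  have h7 : δ * k * (2 * θ + 5 * θ) = 7 * k * (δ * θ) := by ring
  have h8 : 7 * k * (δ * θ) ≤ 7 * (1 / 16) * (δ * θ) :=
    mul_le_mul_of_nonneg_right (by linarith [h.hk2]) h5.le
  rw [h7]
  linarith

/-- light point of the event itself -/
theorem R_l {θ η δ X Y x y : ℝ} :
    hg θ η δ X Y (δ * η * y) (θ + η * x) = δ * η * (y - (Y - X * x)) := by
  unfold hg; ring

/-- the margin of the composite follows from the simplified inequality -/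
theorem R_suff {θ η δ k X Y Am B N : ℝ} (h : RPar θ η δ k X Y Am B N) {τ x1 x2 hh : ℝ}
    (hx1 : |x1| ≤ B) (hx : 1 / 2 ≤ x2 - x1)
    (hh1 : δ * k * (2 * |τ| + 5 * θ) ≤ |hh|) :
    1 + |(τ - θ - η * x1) / (η * (x2 - x1))| ≤ |1 / (δ * η * k) * hh| := by
  have hη := h.hη
  have hθ := h.hθ
  have hp : 0 < δ * η * k := mul_pos (mul_pos h.hδ hη) h.hk
  have h1 : (2 * |τ| + 5 * θ) / η ≤ |1 / (δ * η * k) * hh| := by
    have e0 : |1 / (δ * η * k)| = 1 / (δ * η * k) := abs_of_pos (one_div_pos.2 hp)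
    rw [abs_mul, e0, div_le_iff₀ hη]
    have e1 : 1 / (δ * η * k) * |hh| * η = |hh| / (δ * k) := by
      have := h.hδ.ne'
      have := h.hk.ne'
      field_simp
    rw [e1, le_div_iff₀ (mul_pos h.hδ h.hk)]
    linarith
  refine le_trans ?_ h1
  have h2 : |(τ - θ - η * x1) / (η * (x2 - x1))| ≤ (|τ| + θ + θ / 16) / (η * (1 / 2)) := by
    rw [abs_div, abs_of_pos (show 0 < η * (x2 - x1) from mul_pos hη (by linarith))]
    have e1 : |τ - θ - η * x1| ≤ |τ| + θ + θ / 16 := by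
      have s1 := abs_sub (τ - θ) (η * x1)
      have s2 := abs_sub τ θ
      rw [abs_of_pos hθ] at s2
      have s3 : |η * x1| ≤ θ / 16 := by
        rw [abs_mul, abs_of_pos hη]
        exact (mul_le_mul_of_nonneg_left hx1 hη.le).trans h.hηB
      linarith
    exact div_le_div₀ (by linarith [abs_nonneg τ]) e1 (by positivity)
      (mul_le_mul_of_nonneg_left hx hη.le)
  have h3 : 1 + (|τ| + θ + θ / 16) / (η * (1 / 2)) = (η + 2 * (|τ| + θ + θ / 16)) / η := by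
    field_simp
  have h4 : (η + 2 * (|τ| + θ + θ / 16)) / η ≤ (2 * |τ| + 5 * θ) / η :=
    div_le_div_of_nonneg_right (by linarith [h.ηθ]) hη.le
  linarith

end Vale.Agent.P065
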