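import Vale.Agent.P065.CompCh
import Vale.Agent.P065.CompA
import Vale.Agent.P065.Reals

/-! Row CS1: signs and sizes of the heights in the composite, first half. -/

namespace Vale.Agent.P065

open Finset Classical

variable {ι G κ : Type}

variable [Fintype ι] [Fintype G] [Fintype κ]
variable {U : Cfg ι} {A : Gad G κ} {lam Δ D E N Θ H Dl Kn Am B Δg Λ : ℕ}

/-- far clusters -/
theorem cs_far (h : CPar U A lam Δ D E N Θ H Dl Kn Am B Δg Λ) {w : ι × ι} (hw : w ∈ U.ev)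
    {v : G × G} (hv : v ∈ A.ev) (i : ι) (h1 : i ≠ w.1) (h2 : i ≠ w.2) (o : κ) :
    (ch U A Θ H Dl Am w v (Sum.inl (i, o)) < 0 ↔ U.fh w i < 0) ∧
    (1 / (Dl : ℝ)) * (1 / (Kn : ℝ)) * (2 * |ptau U A Θ H w (Sum.inl (i, o))| + 5 * (1 / (Θ : ℝ)))
      ≤ |ch U A Θ H Dl Am w v (Sum.inl (i, o))| := by
  have hR := h.rpar hv
  have hf := h.gU.c1 w hw i h1 h2
  have ho : |A.o o| ≤ 2 * (Am : ℝ) := by
    have := h.gA.ob o
    have h0 : (0 : ℝ) ≤ Am := Nat.cast_nonneg _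
    linarith
  obtain ⟨r1, r2, r3⟩ := R_p hR hf ho
  have hne : U.fh w i ≠ 0 := by
    intro h0
    rw [h0, abs_zero] at hf
    have := abs_nonneg (U.tau w i)
    linarith
  refine ⟨⟨fun hlt => ?_, fun hlt => r2 hlt⟩, r3⟩
  rcases lt_or_gt_of_ne hne with h0 | h0
  · exact h0
  · exact absurd (r1 h0) (not_lt.mpr (le_of_lt hlt))

/-- far dummies -/
theorem cs_fard (h : CPar U A lam Δ D E N Θ H Dl Kn Am B Δg Λ) {w : ι × ι} (hw : w ∈ U.ev)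
    {v : G × G} (hv : v ∈ A.ev) (i : ι) (h1 : i ≠ w.1) (h2 : i ≠ w.2) (b : Bool) :
    (ch U A Θ H Dl Am w v (Sum.inr (Sum.inl (i, b))) < 0 ↔ U.fh w i < 0) ∧
    (1 / (Dl : ℝ)) * (1 / (Kn : ℝ)) * (2 * |ptau U A Θ H w (Sum.inr (Sum.inl (i, b)))|
      + 5 * (1 / (Θ : ℝ))) ≤ |ch U A Θ H Dl Am w v (Sum.inr (Sum.inl (i, b)))| := by
  have hR := h.rpar hv
  have hf := h.gU.c1 w hw i h1 h2
  have h0 : (0 : ℝ) ≤ 2 * Am := by positivity
  have ho : |(if b then (2 * Am : ℝ) else -(2 * Am : ℝ))| ≤ 2 * (Am : ℝ) := by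
    cases b
    · simp [abs_of_nonneg h0]
    · simp [abs_of_nonneg h0]
  obtain ⟨r1, r2, r3⟩ := R_p hR hf ho
  have hne : U.fh w i ≠ 0 := by
    intro h0
    rw [h0, abs_zero] at hf
    have := abs_nonneg (U.tau w i)
    linarith
  refine ⟨⟨fun hlt => ?_, fun hlt => r2 hlt⟩, r3⟩
  rcases lt_or_gt_of_ne hne with h0 | h0
  · exact h0
  · exact absurd (r1 h0) (not_lt.mpr (le_of_lt hlt))

/-- cluster at the left endpoint -/
theorem cs_left (h : CPar U A lam Δ D E N Θ H Dl Kn Am B Δg Λ) {w : ι × ι} (hw : w ∈ U.ev)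
    {v : G × G} (hv : v ∈ A.ev) (o : κ) :
    (ch U A Θ H Dl Am w v (Sum.inl (w.1, o)) < 0 ↔
      A.o o < (1 / (H : ℝ)) * A.Y v + (1 / (Θ : ℝ)) * A.X v) ∧
    (1 / (Dl : ℝ)) * (1 / (Kn : ℝ)) * (2 * |ptau U A Θ H w (Sum.inl (w.1, o))| + 5 * (1 / (Θ : ℝ)))
      ≤ |ch U A Θ H Dl Am w v (Sum.inl (w.1, o))| := by
  have hR := h.rpar hv
  have key := R_a hR (h.gA.oa v hv o)
  have e1 : pf U A Θ H Dl Am w (Sum.inl (w.1, o)) = 0 + (1 / (Dl : ℝ)) * A.o o := by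
    simp only [pf, Cfg.fh_fst]
  have e2 : ptau U A Θ H w (Sum.inl (w.1, o)) = 0 := by
    simp only [ptau, Cfg.tau_fst]
  unfold ch
  rw [e1, e2]
  exact key

/-- cluster at the right endpoint -/
theorem cs_right (h : CPar U A lam Δ D E N Θ H Dl Kn Am B Δg Λ) {w : ι × ι} (hw : w ∈ U.ev)
    {v : G × G} (hv : v ∈ A.ev) (o : κ) :
    (ch U A Θ H Dl Am w v (Sum.inl (w.2, o)) < 0 ↔
      A.o o < (1 / (H : ℝ)) * A.Y v - (1 - 1 / (Θ : ℝ)) * A.X v) ∧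
    (1 / (Dl : ℝ)) * (1 / (Kn : ℝ)) * (2 * |ptau U A Θ H w (Sum.inl (w.2, o))| + 5 * (1 / (Θ : ℝ)))
      ≤ |ch U A Θ H Dl Am w v (Sum.inl (w.2, o))| := by
  have hR := h.rpar hv
  have key := R_c hR (h.gA.oc v hv o)
  have hlt := h.gU.lt w hw
  have e1 : pf U A Θ H Dl Am w (Sum.inl (w.2, o)) = 0 + (1 / (Dl : ℝ)) * A.o o := by
    simp only [pf, U.fh_snd w hlt]
  have e2 : ptau U A Θ H w (Sum.inl (w.2, o)) = 1 := by
    simp only [ptau, U.tau_snd w hlt]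
  unfold ch
  rw [e1, e2]
  exact key

/-- dummies at the endpoints -/
theorem cs_dum (h : CPar U A lam Δ D E N Θ H Dl Kn Am B Δg Λ) {w : ι × ι} (hw : w ∈ U.ev)
    {v : G × G} (hv : v ∈ A.ev) (i : ι) (hi : i = w.1 ∨ i = w.2) (b : Bool) :
    (ch U A Θ H Dl Am w v (Sum.inr (Sum.inl (i, b))) < 0 ↔ b = false) ∧
    (1 / (Dl : ℝ)) * (1 / (Kn : ℝ)) * (2 * |ptau U A Θ H w (Sum.inr (Sum.inl (i, b)))|
      + 5 * (1 / (Θ : ℝ))) ≤ |ch U A Θ H Dl Am w v (Sum.inr (Sum.inl (i, b)))| := by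
  have hR := h.rpar hv
  have hlt := h.gU.lt w hw
  have hf0 : U.fh w i = 0 := by
    rcases hi with rfl | rfl
    · exact U.fh_fst w
    · exact U.fh_snd w hlt
  have hτ : U.tau w i = 0 ∨ U.tau w i = 1 := by
    rcases hi with rfl | rfl
    · exact Or.inl (U.tau_fst w)
    · exact Or.inr (U.tau_snd w hlt)
  obtain ⟨r1, r2, r3, r4⟩ := R_dum hR hτ
  cases b with
  | false =>
    have e1 : pf U A Θ H Dl Am w (Sum.inr (Sum.inl (i, false)))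
        = 0 + (1 / (Dl : ℝ)) * (-(2 * Am)) := by
      simp [pf, hf0]
    have e2 : ptau U A Θ H w (Sum.inr (Sum.inl (i, false))) = U.tau w i := rfl
    unfold ch
    rw [e1, e2]
    exact ⟨⟨fun _ => rfl, fun _ => r2⟩, r4⟩
  | true =>
    have e1 : pf U A Θ H Dl Am w (Sum.inr (Sum.inl (i, true)))
        = 0 + (1 / (Dl : ℝ)) * (2 * Am) := by
      simp [pf, hf0]
    have e2 : ptau U A Θ H w (Sum.inr (Sum.inl (i, true))) = U.tau w i := rfl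
    unfold ch
    rw [e1, e2]
    exact ⟨⟨fun hl => absurd r1 (not_lt.mpr (le_of_lt hl)), fun hl => absurd hl (by decide)⟩, r3⟩

/-- dual point of the event itself -/
theorem cs_dual_self (h : CPar U A lam Δ D E N Θ H Dl Kn Am B Δg Λ) (w : {w // w ∈ U.ev})
    {v : G × G} (hv : v ∈ A.ev) :
    ch U A Θ H Dl Am w.1 v (Sum.inr (Sum.inr (Sum.inr w))) < 0 ∧
    (1 / (Dl : ℝ)) * (1 / (Kn : ℝ)) * (2 * |ptau U A Θ H w.1 (Sum.inr (Sum.inr (Sum.inr w)))|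
      + 5 * (1 / (Θ : ℝ))) ≤ |ch U A Θ H Dl Am w.1 v (Sum.inr (Sum.inr (Sum.inr w)))| := by
  have hR := h.rpar hv
  have hlt := h.gU.lt w.1 w.2
  have key := R_e hR
  have e1 : pf U A Θ H Dl Am w.1 (Sum.inr (Sum.inr (Sum.inr w))) = 0 := by
    simp [pf, U.fh_snd w.1 hlt, Cfg.fh_fst]
  have e2 : ptau U A Θ H w.1 (Sum.inr (Sum.inr (Sum.inr w))) = -(1 / (Θ : ℝ)) := by
    simp [ptau, U.tau_snd w.1 hlt, Cfg.tau_fst]
  unfold ch
  rw [e1, e2]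
  exact key

/-- light point of the event itself -/
theorem cs_light_self (h : CPar U A lam Δ D E N Θ H Dl Kn Am B Δg Λ) (w : {w // w ∈ U.ev})
    {v : G × G} (hv : v ∈ A.ev) (g : G) :
    ch U A Θ H Dl Am w.1 v (lp w g) = (1 / (Dl : ℝ)) * (1 / (H : ℝ)) * A.gh v g ∧
    ptau U A Θ H w.1 (lp w g) = 1 / (Θ : ℝ) + (1 / (H : ℝ)) * A.x g := by
  have hlt := h.gU.lt w.1 w.2
  have e1 : pf U A Θ H Dl Am w.1 (lp w g) = (1 / (Dl : ℝ)) * (1 / (H : ℝ)) * A.y g := by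
    simp only [pf, lp, U.fh_snd w.1 hlt, Cfg.fh_fst]
    ring
  have e2 : ptau U A Θ H w.1 (lp w g) = 1 / (Θ : ℝ) + (1 / (H : ℝ)) * A.x g := by
    simp only [ptau, lp, U.tau_snd w.1 hlt, Cfg.tau_fst]
    ring
  refine ⟨?_, e2⟩
  unfold ch
  rw [e1, e2, R_l]
  rfl

end Vale.Agent.P065
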