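import Vale.Agent.P065.CompCh
import Vale.Agent.P065.Reals

/-! Row CS2: signs and sizes of the heights of the light and dual points of other events. -/

namespace Vale.Agent.P065

open Finset Classical

variable {ι G κ : Type} [Fintype ι] [Fintype G] [Fintype κ]

variable {U : Cfg ι} {A : Gad G κ} {lam Δ D E N Θ H Dl Kn Am B Δg Λ : ℕ}

/-- `|η x| ≤ θ/16` -/
theorem CPar.eta_x (h : CPar U A lam Δ D E N Θ H Dl Kn Am B Δg Λ) {v : G × G} (hv : v ∈ A.ev)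
    (g : G) : |(1 / (H : ℝ)) * A.x g| ≤ (1 / (Θ : ℝ)) / 16 := by
  have hR := h.rpar hv
  rw [abs_mul, abs_of_pos hR.hη]
  exact le_trans (mul_le_mul_of_nonneg_left (h.gA.xb g) hR.hη.le) hR.hηB

theorem CPar.phi_light (h : CPar U A lam Δ D E N Θ H Dl Kn Am B Δg Λ) {v : G × G} (hv : v ∈ A.ev)
    (g : G) : 15 / 16 * (1 / (Θ : ℝ)) ≤ 1 / (Θ : ℝ) + (1 / (H : ℝ)) * A.x g ∧
      1 / (Θ : ℝ) + (1 / (H : ℝ)) * A.x g ≤ 17 / 16 * (1 / (Θ : ℝ)) := by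
  have := abs_le.mp (h.eta_x hv g)
  constructor <;> linarith [this.1, this.2]

/-- off-case data: bounds at an event whose left endpoint is off `w` -/
theorem CPar.off (h : CPar U A lam Δ D E N Θ H Dl Kn Am B Δg Λ) {w : ι × ι} (hw : w ∈ U.ev)
    (w' : {w // w ∈ U.ev}) (h1 : w'.1.1 ≠ w.1) (h2 : w'.1.1 ≠ w.2) :
    1 + |U.tau w w'.1.1| ≤ |U.fh w w'.1.1| ∧ |U.fh w w'.1.2| ≤ N * |U.fh w w'.1.1| ∧
      |U.tau w w'.1.2| ≤ N * |U.fh w w'.1.1| := by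
  have hN : (1 : ℝ) ≤ N := by exact_mod_cast h.gU.posN
  have c1 := h.gU.c1 w hw w'.1.1 h1 h2
  have c2 := h.gU.c2 w hw w'.1 w'.2 h1 h2
  refine ⟨c1, c2, ?_⟩
  have hfa : (1 : ℝ) ≤ |U.fh w w'.1.1| := by linarith [abs_nonneg (U.tau w w'.1.1)]
  have hNf : (1 : ℝ) ≤ N * |U.fh w w'.1.1| := by nlinarith
  by_cases e1 : w'.1.2 = w.1
  · rw [e1, Cfg.tau_left]; simp; positivity
  · by_cases e2 : w'.1.2 = w.2
    · rw [e2, Cfg.tau_right (h.gU.lt w hw)]; simpa using hNf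
    · have := h.gU.c1 w hw w'.1.2 e1 e2
      linarith

theorem CPar.on (h : CPar U A lam Δ D E N Θ H Dl Kn Am B Δg Λ) {w : ι × ι} (hw : w ∈ U.ev)
    (w' : {w // w ∈ U.ev}) (h0 : w'.1 ≠ w) (h1 : w'.1.1 = w.1 ∨ w'.1.1 = w.2) :
    (U.tau w w'.1.1 = 0 ∨ U.tau w w'.1.1 = 1) ∧ U.fh w w'.1.1 = 0 ∧
      1 + |U.tau w w'.1.2| ≤ |U.fh w w'.1.2| := by
  have hlt := h.gU.lt w hw
  have hlt' := h.gU.lt w'.1 w'.2
  rcases h1 with h1 | h1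
  · refine ⟨Or.inl (by rw [h1, Cfg.tau_left]), by rw [h1, Cfg.fh_left], ?_⟩
    refine h.gU.c1 w hw _ ?_ ?_
    · intro e; rw [h1, e] at hlt'; exact absurd hlt' (lt_irrefl _)
    · intro e; exact h0 (Prod.ext h1 e)
  · refine ⟨Or.inr (by rw [h1, Cfg.tau_right hlt]), by rw [h1, Cfg.fh_right hlt], ?_⟩
    refine h.gU.c1 w hw _ ?_ ?_
    · intro e; rw [h1, e] at hlt'; exact absurd hlt' (not_lt.mpr hlt.le)
    · intro e; rw [h1, e] at hlt'; exact absurd hlt' (lt_irrefl _)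

/-- light points of an event whose left endpoint is off `w` -/
theorem cs_light_off (h : CPar U A lam Δ D E N Θ H Dl Kn Am B Δg Λ) {w : ι × ι} (hw : w ∈ U.ev)
    {v : G × G} (hv : v ∈ A.ev) (w' : {w // w ∈ U.ev}) (h1 : w'.1.1 ≠ w.1) (h2 : w'.1.1 ≠ w.2)
    (g : G) :
    (ch U A Θ H Dl Am w v (lp w' g) < 0 ↔ U.fh w w'.1.1 < 0) ∧
    1 / 2 * |U.fh w w'.1.1| ≤ |ch U A Θ H Dl Am w v (lp w' g)| ∧
    |ch U A Θ H Dl Am w v (lp w' g)| ≤ 2 * |U.fh w w'.1.1| ∧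
    (1 / (Dl : ℝ)) * (1 / (Kn : ℝ)) * (2 * |ptau U A Θ H w (lp w' g)|
      + 5 * (1 / (Θ : ℝ))) ≤ |ch U A Θ H Dl Am w v (lp w' g)| := by
  have hR := h.rpar hv
  obtain ⟨ha, hc, hτ⟩ := h.off hw w' h1 h2
  obtain ⟨p1, p2⟩ := h.phi_light hv g
  have hθ := hR.hθ
  have hφ : |1 / (Θ : ℝ) + (1 / (H : ℝ)) * A.x g| ≤ 17 / 16 * (1 / (Θ : ℝ)) := by
    rw [abs_of_nonneg (by linarith)]; exact p2
  obtain ⟨q1, q2, q3, q4, q5⟩ := R_d1 hR ha hc hτ hφ (h.gA.yb g)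
  refine ⟨⟨?_, q2⟩, q3, q4, q5⟩
  intro hneg
  by_contra hcon
  have hne : U.fh w w'.1.1 ≠ 0 := by
    intro e; rw [e] at ha; simp at ha; linarith [abs_nonneg (U.tau w w'.1.1)]
  have hpos : 0 < U.fh w w'.1.1 := lt_of_le_of_ne (not_lt.mp hcon) (Ne.symm hne)
  exact absurd hneg (not_lt.mpr (q1 hpos).le)

/-- dual point of an event whose left endpoint is off `w` -/
theorem cs_dual_off (h : CPar U A lam Δ D E N Θ H Dl Kn Am B Δg Λ) {w : ι × ι} (hw : w ∈ U.ev)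
    {v : G × G} (hv : v ∈ A.ev) (w' : {w // w ∈ U.ev}) (h1 : w'.1.1 ≠ w.1) (h2 : w'.1.1 ≠ w.2) :
    (ch U A Θ H Dl Am w v (Sum.inr (Sum.inr (Sum.inr w'))) < 0 ↔ U.fh w w'.1.1 < 0) ∧
    (1 / (Dl : ℝ)) * (1 / (Kn : ℝ)) * (2 * |ptau U A Θ H w (Sum.inr (Sum.inr (Sum.inr w')))|
      + 5 * (1 / (Θ : ℝ))) ≤ |ch U A Θ H Dl Am w v (Sum.inr (Sum.inr (Sum.inr w')))| := by
  have hR := h.rpar hv
  obtain ⟨ha, hc, hτ⟩ := h.off hw w' h1 h2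
  have hθ := hR.hθ
  have hφ : |-(1 / (Θ : ℝ))| ≤ 17 / 16 * (1 / (Θ : ℝ)) := by
    rw [abs_neg, abs_of_pos hθ]; linarith
  have hy : |(0 : ℝ)| ≤ B := by rw [abs_zero]; exact le_trans zero_le_one hR.hB
  obtain ⟨q1, q2, -, -, q5⟩ := R_d1 hR ha hc hτ hφ hy
  rw [mul_zero, add_zero] at q1 q2 q5
  refine ⟨⟨?_, q2⟩, q5⟩
  intro hneg
  by_contra hcon
  have hne : U.fh w w'.1.1 ≠ 0 := by
    intro e; rw [e] at ha; simp at ha; linarith [abs_nonneg (U.tau w w'.1.1)]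
  have hpos : 0 < U.fh w w'.1.1 := lt_of_le_of_ne (not_lt.mp hcon) (Ne.symm hne)
  exact absurd hneg (not_lt.mpr (q1 hpos).le)

/-- light points of another event whose left endpoint is on `w` -/
theorem cs_light_on (h : CPar U A lam Δ D E N Θ H Dl Kn Am B Δg Λ) {w : ι × ι} (hw : w ∈ U.ev)
    {v : G × G} (hv : v ∈ A.ev) (w' : {w // w ∈ U.ev}) (h0 : w'.1 ≠ w)
    (h1 : w'.1.1 = w.1 ∨ w'.1.1 = w.2) (g : G) :
    (ch U A Θ H Dl Am w v (lp w' g) < 0 ↔ U.fh w w'.1.2 < 0) ∧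
    (1 / (Θ : ℝ)) / 2 * |U.fh w w'.1.2| ≤ |ch U A Θ H Dl Am w v (lp w' g)| ∧
    |ch U A Θ H Dl Am w v (lp w' g)| ≤ 2 * (1 / (Θ : ℝ)) * |U.fh w w'.1.2| ∧
    (1 / (Dl : ℝ)) * (1 / (Kn : ℝ)) * (2 * |ptau U A Θ H w (lp w' g)|
      + 5 * (1 / (Θ : ℝ))) ≤ |ch U A Θ H Dl Am w v (lp w' g)| := by
  have hR := h.rpar hv
  obtain ⟨hτ, hfa, hc⟩ := h.on hw w' h0 h1
  obtain ⟨p1, p2⟩ := h.phi_light hv g
  have hθ := hR.hθ
  have hφ0 : 0 < 1 / (Θ : ℝ) + (1 / (H : ℝ)) * A.x g := by linarith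
  have hφ : |1 / (Θ : ℝ) + (1 / (H : ℝ)) * A.x g| ≤ 17 / 16 * (1 / (Θ : ℝ)) := by
    rw [abs_of_pos hφ0]; exact p2
  have hφ1 : 15 / 16 * (1 / (Θ : ℝ)) ≤ |1 / (Θ : ℝ) + (1 / (H : ℝ)) * A.x g| := by
    rw [abs_of_pos hφ0]; exact p1
  obtain ⟨q1, q2, q3, q4, q5⟩ := R_d2 hR hτ hc hφ1 hφ (h.gA.yb g)
  have key : ch U A Θ H Dl Am w v (lp w' g) = hg (1 / (Θ : ℝ)) (1 / (H : ℝ)) (1 / (Dl : ℝ))
      (A.X v) (A.Y v) (0 + (1 / (Θ : ℝ) + (1 / (H : ℝ)) * A.x g) * (U.fh w w'.1.2 - 0)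
        + (1 / (Dl : ℝ)) * (1 / (H : ℝ)) * A.y g)
      (U.tau w w'.1.1 + (1 / (Θ : ℝ) + (1 / (H : ℝ)) * A.x g) * (U.tau w w'.1.2 - U.tau w w'.1.1))
      := by
    simp only [ch, lp, pf, ptau, hfa]
  have key2 : ptau U A Θ H w (lp (κ := κ) w' g) =
      U.tau w w'.1.1 + (1 / (Θ : ℝ) + (1 / (H : ℝ)) * A.x g) * (U.tau w w'.1.2 - U.tau w w'.1.1) :=
    rfl
  rw [key, key2]
  refine ⟨⟨?_, fun hn => q2 (mul_neg_of_pos_of_neg hφ0 hn)⟩, q3, q4, q5⟩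
  intro hneg
  by_contra hcon
  have hne : U.fh w w'.1.2 ≠ 0 := by
    intro e; rw [e] at hc; simp at hc; linarith [abs_nonneg (U.tau w w'.1.2)]
  have hpos : 0 < U.fh w w'.1.2 := lt_of_le_of_ne (not_lt.mp hcon) (Ne.symm hne)
  exact absurd hneg (not_lt.mpr (q1 (mul_pos hφ0 hpos)).le)

/-- dual point of another event whose left endpoint is on `w` -/
theorem cs_dual_on (h : CPar U A lam Δ D E N Θ H Dl Kn Am B Δg Λ) {w : ι × ι} (hw : w ∈ U.ev)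
    {v : G × G} (hv : v ∈ A.ev) (w' : {w // w ∈ U.ev}) (h0 : w'.1 ≠ w)
    (h1 : w'.1.1 = w.1 ∨ w'.1.1 = w.2) :
    (ch U A Θ H Dl Am w v (Sum.inr (Sum.inr (Sum.inr w'))) < 0 ↔ ¬ (U.fh w w'.1.2 < 0)) ∧
    (1 / (Dl : ℝ)) * (1 / (Kn : ℝ)) * (2 * |ptau U A Θ H w (Sum.inr (Sum.inr (Sum.inr w')))|
      + 5 * (1 / (Θ : ℝ))) ≤ |ch U A Θ H Dl Am w v (Sum.inr (Sum.inr (Sum.inr w')))| := by
  have hR := h.rpar hv
  obtain ⟨hτ, hfa, hc⟩ := h.on hw w' h0 h1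
  have hθ := hR.hθ
  have hφ0 : -(1 / (Θ : ℝ)) < 0 := by linarith
  have hφ : |-(1 / (Θ : ℝ))| ≤ 17 / 16 * (1 / (Θ : ℝ)) := by
    rw [abs_neg, abs_of_pos hθ]; linarith
  have hφ1 : 15 / 16 * (1 / (Θ : ℝ)) ≤ |-(1 / (Θ : ℝ))| := by
    rw [abs_neg, abs_of_pos hθ]; linarith
  have hy : |(0 : ℝ)| ≤ B := by rw [abs_zero]; exact le_trans zero_le_one hR.hB
  obtain ⟨q1, q2, -, -, q5⟩ := R_d2 hR hτ hc hφ1 hφ hy
  rw [mul_zero, add_zero] at q1 q2 q5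
  have key : ch U A Θ H Dl Am w v (Sum.inr (Sum.inr (Sum.inr w'))) =
      hg (1 / (Θ : ℝ)) (1 / (H : ℝ)) (1 / (Dl : ℝ))
      (A.X v) (A.Y v) (0 + (-(1 / (Θ : ℝ))) * (U.fh w w'.1.2 - 0))
      (U.tau w w'.1.1 + (-(1 / (Θ : ℝ))) * (U.tau w w'.1.2 - U.tau w w'.1.1))
      := by
    simp only [ch, pf, ptau, hfa]
  have key2 : ptau U A Θ H w (Sum.inr (Sum.inr (Sum.inr w')) : CIdx ι G κ U) =
      U.tau w w'.1.1 + (-(1 / (Θ : ℝ))) * (U.tau w w'.1.2 - U.tau w w'.1.1) :=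
    rfl
  rw [key, key2]
  refine ⟨⟨?_, ?_⟩, q5⟩
  · intro hneg hn
    exact absurd hneg (not_lt.mpr (q1 (mul_pos_of_neg_of_neg hφ0 hn)).le)
  · intro hn
    have hne : U.fh w w'.1.2 ≠ 0 := by
      intro e; rw [e] at hc; simp at hc; linarith [abs_nonneg (U.tau w w'.1.2)]
    have hpos : 0 < U.fh w w'.1.2 := lt_of_le_of_ne (not_lt.mp hn) (Ne.symm hne)
    exact q2 (mul_neg_of_neg_of_pos hφ0 hpos)

end Vale.Agent.P065
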