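import Vale.Agent.P065.CompDefs

/-! Row CW: total weight of the composite. -/

namespace Vale.Agent.P065

open Finset Classical

variable {ι G κ : Type} [Fintype ι] [Fintype G] [Fintype κ]

theorem sum_ldeg (U : Cfg ι) : ∑ i, U.ldeg i = U.ev.card := by
  unfold Cfg.ldeg
  exact (Finset.card_eq_sum_card_fiberwise (f := fun w : ι × ι => w.1) (s := U.ev)
    (t := Finset.univ) (fun w _ => by simp)).symm

theorem m_of_ldeg (U : Cfg ι) (hm : ∀ w ∈ U.ev, U.m w.1 = 1) (i : ι) (hi : U.ldeg i ≠ 0) :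
    U.m i = 1 := by
  unfold Cfg.ldeg at hi
  obtain ⟨w, hw⟩ := Finset.card_ne_zero.mp hi
  rw [Finset.mem_filter] at hw
  rw [← hw.2]
  exact hm w hw.1

theorem sum_m_ldeg (U : Cfg ι) (Δ : ℕ)
    (hm : ∀ w ∈ U.ev, U.m w.1 = 1) (hd : ∀ i, U.ldeg i ≤ Δ) :
    ∑ i, U.m i * (Δ - U.ldeg i) + U.ev.card = U.wt * Δ := by
  rw [← sum_ldeg, ← Finset.sum_add_distrib, Cfg.wt, Finset.sum_mul]
  refine Finset.sum_congr rfl fun i _ => ?_
  by_cases hi : U.ldeg i = 0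
  · simp [hi]
  · rw [m_of_ldeg U hm i hi, one_mul, one_mul]
    exact Nat.sub_add_cancel (hd i)

/-- total weight of the composite -/
theorem comp_wt (U : Cfg ι) (A : Gad G κ) (Δ Θ H Dl Kn Am : ℕ)
    (hm : ∀ w ∈ U.ev, U.m w.1 = 1) (hd : ∀ i, U.ldeg i ≤ Δ) :
    (comp U A Δ Θ H Dl Kn Am).wt = U.wt * (A.ko + 2 * A.N0 * Δ) := by
  have h := sum_m_ldeg U Δ hm hd
  have h1 : (comp U A Δ Θ H Dl Kn Am).wt =
      (∑ p : ι × κ, U.m p.1 * A.wo p.2) + ((∑ p : ι × Bool, U.m p.1 * (A.N0 * (Δ - U.ldeg p.1)))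
        + ((∑ p : {w // w ∈ U.ev} × G, A.m p.2) + ∑ _p : {w // w ∈ U.ev}, A.N0)) := by
    rw [Cfg.wt, Fintype.sum_sum_type, Fintype.sum_sum_type, Fintype.sum_sum_type]
    rfl
  rw [h1, Fintype.sum_prod_type, Fintype.sum_prod_type, Fintype.sum_prod_type]
  simp only [Finset.sum_const, Finset.card_univ, Fintype.card_bool, smul_eq_mul,
    Fintype.card_coe]
  have h2 : ∑ i, ∑ o, U.m i * A.wo o = U.wt * A.ko := by
    rw [Cfg.wt, Gad.ko, Finset.sum_mul_sum]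
  have h3 : ∑ i, 2 * (U.m i * (A.N0 * (Δ - U.ldeg i))) =
      2 * A.N0 * ∑ i, U.m i * (Δ - U.ldeg i) := by
    rw [Finset.mul_sum]
    exact Finset.sum_congr rfl fun i _ => by ring
  have h4 : ∑ g, A.m g = A.N0 := rfl
  rw [h2, h3, h4]
  calc U.wt * A.ko + (2 * A.N0 * ∑ i, U.m i * (Δ - U.ldeg i)
        + (U.ev.card * A.N0 + U.ev.card * A.N0))
      = U.wt * A.ko + 2 * A.N0 * (∑ i, U.m i * (Δ - U.ldeg i) + U.ev.card) := by ring
    _ = U.wt * (A.ko + 2 * A.N0 * Δ) := by rw [h]; ring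

end Vale.Agent.P065
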