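import Vale.Agent.P065.GadDefs

/-! Row G4: cardinalities in the gadget. -/

namespace Vale.Agent.P065

open Finset Classical

variable {ι : Type} [Fintype ι]
variable {Q : Cfg ι} {lam Δ D E N A S Θ H : ℕ}

/-- the copy determines its parameters -/
theorem isCopy_unique (hlt : ∀ w ∈ Q.ev, Q.t w.1 < Q.t w.2)
    {v : (ι × Fin (S + 2 * A * D)) × (ι × Fin (S + 2 * A * D))} {α β α' β' : ℕ}
    (h : IsCopy Q A S D v α β) (h' : IsCopy Q A S D v α' β') : α = α' ∧ β = β' := by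
  obtain ⟨-, -, -, h1, h2, h3⟩ := h
  obtain ⟨-, -, -, h1', h2', -⟩ := h'
  have hpos := hlt _ h3
  have e1 : ((α : ℤ) - α') * (Q.t v.2.1 - Q.t v.1.1) = 0 := by
    have : (β : ℤ) - α * Q.t v.1.1 = β' - α' * Q.t v.1.1 := by rw [← h1, h1']
    have : (β : ℤ) - α * Q.t v.2.1 = β' - α' * Q.t v.2.1 := by rw [← h2, h2']
    linarith
  have e2 : (α : ℤ) - α' = 0 := by
    rcases mul_eq_zero.mp e1 with h | h
    · exact h
    · simp only at hpos; omega
  have e3 : (α : ℤ) = α' := by linarith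
  refine ⟨by exact_mod_cast e3, ?_⟩
  have : (β : ℤ) - α * Q.t v.1.1 = β' - α' * Q.t v.1.1 := by rw [← h1, h1']
  rw [e3] at this
  have : (β : ℤ) = β' := by linarith
  exact_mod_cast this

/-- the heights of a copy are in range -/
theorem copy_range (htd : ∀ i, |Q.t i| ≤ (D : ℤ)) {α β : ℕ} (hα : α ≤ A) (hβ : β < S) (j : ι) :
    0 ≤ (β : ℤ) - α * Q.t j + A * D ∧ (β : ℤ) - α * Q.t j + A * D < S + 2 * A * D := by
  have h1 := abs_le.mp (htd j)
  have hα' : (α : ℤ) ≤ A := by exact_mod_cast hα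
  have hβ' : (β : ℤ) < S := by exact_mod_cast hβ
  have h2 : (α : ℤ) * Q.t j ≤ A * D := by
    calc (α : ℤ) * Q.t j ≤ α * D := mul_le_mul_of_nonneg_left h1.2 (by positivity)
      _ ≤ A * D := mul_le_mul_of_nonneg_right hα' (by positivity)
  have h3 : -((A : ℤ) * D) ≤ (α : ℤ) * Q.t j := by
    calc -((A : ℤ) * D) ≤ -(α * D) := by
          have := mul_le_mul_of_nonneg_right hα' (by positivity : (0 : ℤ) ≤ D)
          linarith
      _ = α * (-D) := by ring
      _ ≤ α * Q.t j := mul_le_mul_of_nonneg_left h1.1 (by positivity)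
  have h4 : (0 : ℤ) ≤ β := by positivity
  constructor
  · linarith
  · linarith

/-- the light point of column `j` at the height of the copy `(α, β)` -/
def cpt (Q : Cfg ι) (htd : ∀ i, |Q.t i| ≤ (D : ℤ)) {α β : ℕ} (hα : α ≤ A) (hβ : β < S) (j : ι) :
    ι × Fin (S + 2 * A * D) :=
  (j, ⟨((β : ℤ) - α * Q.t j + A * D).toNat, by
    have h := copy_range (Q := Q) htd hα hβ j
    zify
    rw [Int.toNat_of_nonneg h.1]
    push_cast
    exact h.2⟩)

theorem gc_cpt (htd : ∀ i, |Q.t i| ≤ (D : ℤ)) {α β : ℕ} (hα : α ≤ A) (hβ : β < S) (j : ι) :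
    gc A S D (cpt Q htd hα hβ j) = β - α * Q.t j := by
  have h := copy_range (Q := Q) htd hα hβ j
  simp only [gc, cpt]
  rw [Int.toNat_of_nonneg h.1]
  ring

theorem gc_inj {p q : ι × Fin (S + 2 * A * D)} (h1 : p.1 = q.1) (h2 : gc A S D p = gc A S D q) :
    p = q := by
  refine Prod.ext h1 (Fin.ext ?_)
  simp only [gc] at h2
  have : ((p.2 : ℕ) : ℤ) = ((q.2 : ℕ) : ℤ) := by linarith
  exact_mod_cast this

/-- Row G4a -/
theorem g_card (h : GPar Q lam Δ D E N A S Θ H) :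
    (gad Q A S D E Θ).ev.card = A * S * Q.ev.card := by
  have htd := h.gQ.td
  have hlt := h.gQ.lt
  have h0 : A * S * Q.ev.card = (Finset.Icc 1 A ×ˢ Finset.range S ×ˢ Q.ev).card := by
    rw [Finset.card_product, Finset.card_product, Nat.card_Icc, Finset.card_range]
    simp [mul_assoc]
  rw [h0]
  symm
  refine Finset.card_bij (fun a ha =>
    (cpt Q htd (α := a.1) (β := a.2.1) (by simp at ha; exact ha.1.2) (by simp at ha; exact ha.2.1) a.2.2.1,
     cpt Q htd (α := a.1) (β := a.2.1) (by simp at ha; exact ha.1.2) (by simp at ha; exact ha.2.1) a.2.2.2))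
    ?_ ?_ ?_
  · intro a ha
    have ha' := ha
    simp only [Finset.mem_product, Finset.mem_Icc, Finset.mem_range] at ha'
    simp only [gad, Finset.mem_filter, Finset.mem_univ, true_and]
    exact ⟨a.1, a.2.1, ha'.1.1, ha'.1.2, ha'.2.1, gc_cpt htd ha'.1.2 ha'.2.1 _,
      gc_cpt htd ha'.1.2 ha'.2.1 _, ha'.2.2⟩
  · intro a ha b hb hab
    have ha' := ha
    have hb' := hb
    simp only [Finset.mem_product, Finset.mem_Icc, Finset.mem_range] at ha' hb'
    have ca : IsCopy Q A S D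
        (cpt Q htd (α := a.1) (β := a.2.1) ha'.1.2 ha'.2.1 a.2.2.1,
         cpt Q htd (α := a.1) (β := a.2.1) ha'.1.2 ha'.2.1 a.2.2.2) a.1 a.2.1 :=
      ⟨ha'.1.1, ha'.1.2, ha'.2.1, gc_cpt htd ha'.1.2 ha'.2.1 _,
        gc_cpt htd ha'.1.2 ha'.2.1 _, ha'.2.2⟩
    have cb : IsCopy Q A S D
        (cpt Q htd (α := b.1) (β := b.2.1) hb'.1.2 hb'.2.1 b.2.2.1,
         cpt Q htd (α := b.1) (β := b.2.1) hb'.1.2 hb'.2.1 b.2.2.2) b.1 b.2.1 :=
      ⟨hb'.1.1, hb'.1.2, hb'.2.1, gc_cpt htd hb'.1.2 hb'.2.1 _,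
        gc_cpt htd hb'.1.2 hb'.2.1 _, hb'.2.2⟩
    have hab' : (cpt Q htd (α := a.1) (β := a.2.1) ha'.1.2 ha'.2.1 a.2.2.1,
         cpt Q htd (α := a.1) (β := a.2.1) ha'.1.2 ha'.2.1 a.2.2.2) =
        (cpt Q htd (α := b.1) (β := b.2.1) hb'.1.2 hb'.2.1 b.2.2.1,
         cpt Q htd (α := b.1) (β := b.2.1) hb'.1.2 hb'.2.1 b.2.2.2) := hab
    rw [← hab'] at cb
    have hu := isCopy_unique hlt ca cb
    have e1 := congrArg (fun p => p.1.1) hab'
    have e2 := congrArg (fun p => p.2.1) hab'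
    simp only [cpt] at e1 e2
    exact Prod.ext hu.1 (Prod.ext hu.2 (Prod.ext e1 e2))
  · intro v hv
    simp only [gad, Finset.mem_filter, Finset.mem_univ, true_and] at hv
    obtain ⟨α, β, hc⟩ := hv
    obtain ⟨h1, h2, h3, h4, h5, h6⟩ := hc
    refine ⟨(α, β, (v.1.1, v.2.1)), ?_, ?_⟩
    · simp only [Finset.mem_product, Finset.mem_Icc, Finset.mem_range]
      exact ⟨⟨h1, h2⟩, h3, h6⟩
    · refine Prod.ext ?_ ?_
      · refine gc_inj rfl ?_
        rw [h4]; exact gc_cpt htd h2 h3 _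
      · refine gc_inj rfl ?_
        rw [h5]; exact gc_cpt htd h2 h3 _

/-- Row G4b -/
theorem g_deg (h : GPar Q lam Δ D E N A S Θ H) (g : ι × Fin (S + 2 * A * D)) :
    ((gad Q A S D E Θ).ev.filter (fun v => v.1 = g)).card ≤ A * Δ := by
  have h0 : (Finset.Icc 1 A ×ˢ (Q.ev.filter (fun w => w.1 = g.1))).card ≤ A * Δ := by
    rw [Finset.card_product, Nat.card_Icc]
    simp only [Nat.add_sub_cancel]
    exact Nat.mul_le_mul_left _ (h.gQ.deg g.1)
  refine le_trans ?_ h0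
  have hex : ∀ v ∈ (gad Q A S D E Θ).ev, ∃ α β : ℕ, IsCopy Q A S D v α β := by
    intro v hv
    simp only [gad, Finset.mem_filter, Finset.mem_univ, true_and] at hv
    exact hv
  let F : (ι × Fin (S + 2 * A * D)) × (ι × Fin (S + 2 * A * D)) → ℕ × (ι × ι) := fun v =>
    (if hv : ∃ α β : ℕ, IsCopy Q A S D v α β then hv.choose else 0, (v.1.1, v.2.1))
  have hF : ∀ v (α β : ℕ), IsCopy Q A S D v α β → F v = (α, (v.1.1, v.2.1)) := by
    intro v α β hc
    have hv : ∃ α β : ℕ, IsCopy Q A S D v α β := ⟨α, β, hc⟩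
    have hs := hv.choose_spec
    obtain ⟨β', hβ'⟩ := hs
    have := isCopy_unique h.gQ.lt hβ' hc
    simp only [F, dif_pos hv, this.1]
  refine Finset.card_le_card_of_injOn F ?_ ?_
  · intro v hv
    rw [Finset.mem_coe, Finset.mem_filter] at hv
    obtain ⟨α, β, hc⟩ := hex v hv.1
    rw [hF v α β hc]
    simp only [Finset.coe_product, Set.mem_prod, Finset.mem_coe, Finset.mem_Icc,
      Finset.mem_filter]
    exact ⟨⟨hc.1, hc.2.1⟩, hc.2.2.2.2.2, by rw [hv.2]⟩
  · intro v hv u hu huv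
    rw [Finset.mem_coe, Finset.mem_filter] at hv hu
    obtain ⟨α, β, hc⟩ := hex v hv.1
    obtain ⟨α', β', hc'⟩ := hex u hu.1
    rw [hF v α β hc, hF u α' β' hc'] at huv
    simp only [Prod.mk.injEq] at huv
    obtain ⟨e1, e2, e3⟩ := huv
    have hvu : v.1 = u.1 := by rw [hv.2, hu.2]
    subst e1
    have hβ : (β : ℤ) = β' := by
      have := hc.2.2.2.1
      have h' := hc'.2.2.2.1
      rw [hvu] at this
      rw [this] at h'
      linarith
    refine Prod.ext hvu (gc_inj e3 ?_)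
    rw [hc.2.2.2.2.1, hc'.2.2.2.2.1, e3, hβ]

/-- Row G4c -/
theorem g_N0 (Q : Cfg ι) (A S D E Θ : ℕ) :
    (gad Q A S D E Θ).N0 = Q.wt * (S + 2 * A * D) := by
  simp only [Gad.N0, gad, Cfg.wt]
  rw [Fintype.sum_prod_type, Finset.sum_mul]
  refine Finset.sum_congr rfl fun i _ => ?_
  simp [mul_comm]

theorem tsum_le (h : Q.Good lam Δ D E N) : |tsum Q| ≤ Q.wt * D := by
  rw [tsum, Cfg.wt]
  push_cast
  rw [Finset.sum_mul]
  refine le_trans (Finset.abs_sum_le_sum_abs _ _) (Finset.sum_le_sum fun i _ => ?_)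
  rw [abs_mul, abs_of_nonneg (by positivity : (0 : ℤ) ≤ (Q.m i : ℤ))]
  exact mul_le_mul_of_nonneg_left (h.td i) (by positivity)

/-- the weight of the `inr` offsets is a genuine natural number -/
theorem wo_nonneg (h : GPar Q lam Δ D E N A S Θ H) :
    0 ≤ (Q.wt : ℤ) * ((S : ℤ) - 1) + tsum Q := by
  have h1 := tsum_le h.gQ
  have h2 := (abs_le.mp h1).1
  have hD : 1 ≤ D := h.gQ.posD
  have hA := h.hA
  have hS := h.hS
  have h3 : D + 1 ≤ S := by
    have : 32 * D ≤ 32 * A * D := by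
      calc 32 * D = 32 * 1 * D := by ring
        _ ≤ 32 * A * D := Nat.mul_le_mul_right _ (Nat.mul_le_mul_left _ hA)
    omega
  have h4 : (D : ℤ) ≤ (S : ℤ) - 1 := by
    have : ((D + 1 : ℕ) : ℤ) ≤ S := by exact_mod_cast h3
    push_cast at this
    linarith
  have h5 : (Q.wt : ℤ) * D ≤ Q.wt * ((S : ℤ) - 1) :=
    mul_le_mul_of_nonneg_left h4 (by positivity)
  linarith

theorem one_le_S (h : GPar Q lam Δ D E N A S Θ H) : 1 ≤ S := by
  have hD : 1 ≤ D := h.gQ.posD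
  have hA := h.hA
  have hS := h.hS
  have : 1 * 1 ≤ A * D := Nat.mul_le_mul hA hD
  nlinarith

/-- Row G4d -/
theorem g_ko (h : GPar Q lam Δ D E N A S Θ H) :
    ((gad Q A S D E Θ).ko : ℤ) =
      A * (S - 1) * Q.wt + (A - 1) * (Q.wt * (S - 1) + tsum Q) := by
  have hw := wo_nonneg h
  have hS := one_le_S h
  have hA := h.hA
  rw [Gad.ko, Fintype.sum_sum_type]
  simp only [gad, Finset.sum_const, Finset.card_univ, Fintype.card_prod, Fintype.card_fin,
    smul_eq_mul]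
  push_cast [Nat.cast_sub hS, Nat.cast_sub hA]
  rw [Int.toNat_of_nonneg hw]

end Vale.Agent.P065
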