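import Vale.Agent.P065.GadCount
import Vale.Agent.P065.GadCard

/-! Row G5: the gadget theorem. -/

namespace Vale.Agent.P065

open Finset Classical

variable {ι : Type} [Fintype ι]
variable {Q : Cfg ι} {lam Δ D E N A S Θ H : ℕ}

theorem gad_mem_ev {v : (ι × Fin (S + 2 * A * D)) × (ι × Fin (S + 2 * A * D))}
    (hv : v ∈ (gad Q A S D E Θ).ev) : ∃ α β : ℕ, IsCopy Q A S D v α β := by
  simp only [gad, Finset.mem_filter, Finset.mem_univ, true_and] at hv
  exact hv

theorem gad_good (h : GPar Q lam Δ D E N A S Θ H) :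
    (gad Q A S D E Θ).Good Θ H (256 * E * zz D E S) (A + 2) (8 * S) (A * Δ)
      (gLam Q lam A S D) := by
  have hE : 1 ≤ E := h.gQ.posE
  have hD : 1 ≤ D := h.gQ.posD
  have hS : 1 ≤ S := one_le_S h
  have hA := h.hA
  have hΔ : 1 ≤ Δ := h.gQ.posΔ
  have hZ : 1 ≤ zz D E S := by
    have : 0 < 1024 * E * S * D ^ 2 := by positivity
    exact this
  obtain ⟨b1, b2, b3, b4⟩ := g_bounds h
  refine ⟨hZ, ?_, ?_, ?_, ?_, b2, b3, b4, ?_, ?_, ?_, ?_, ?_, ?_, ?_, ?_, ?_, ?_, ?_⟩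
  · intro v hv
    obtain ⟨α, β, hc⟩ := gad_mem_ev hv
    exact g_sep h hc
  · intro v hv
    obtain ⟨α, β, hc⟩ := gad_mem_ev hv
    exact (b1 v α β hc).1
  · intro v hv
    obtain ⟨α, β, hc⟩ := gad_mem_ev hv
    exact (b1 v α β hc).2.1
  · intro v hv
    obtain ⟨α, β, hc⟩ := gad_mem_ev hv
    exact (b1 v α β hc).2.2
  · intro v hv g h1 h2
    obtain ⟨α, β, hc⟩ := gad_mem_ev hv
    exact g_marg h hc g h1 h2
  · intro v hv o
    obtain ⟨α, β, hc⟩ := gad_mem_ev hv
    exact (g_oa h hc).2.2 o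
  · intro v hv o
    obtain ⟨α, β, hc⟩ := gad_mem_ev hv
    exact (g_oc h hc).2.2 o
  · intro v hv
    obtain ⟨α, β, hc⟩ := gad_mem_ev hv
    have e1 := g_light_count h hc
    have e2 := g_off_count_a h hc
    have e3 := g_off_count_c h hc
    have key : ((gLam Q lam A S D : ℕ) : ℤ) =
        2 * (Q.wt : ℤ) * A * (S - 1) + Q.wt * A * D + lam - tsum Q := by
      rw [gLam, Int.toNat_of_nonneg]
      have e : 2 * (Q.wt : ℤ) * A * (S - 1) + Q.wt * A * D + lam - tsum Q =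
          (Q.wt * (β + A * D) - α * tsum Q + lam) +
          (Q.wt * A * (S - 1) + (α - 1) * (Q.wt * (S - 1) + tsum Q)) +
          (Q.wt * (S - 1 - β) + Q.wt * (A - α) * (S - 1)) := by ring
      rw [e, ← e1, ← e2, ← e3]
      positivity
    zify
    rw [key]
    push_cast at e1 e2 e3
    rw [e1, e2, e3]
    ring
  · intro v hv
    obtain ⟨α, β, hc⟩ := gad_mem_ev hv
    exact h.gQ.m1 _ hc.2.2.2.2.2
  · intro v hv
    obtain ⟨α, β, hc⟩ := gad_mem_ev hv
    exact h.gQ.m2 _ hc.2.2.2.2.2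
  · intro g
    refine le_trans (Finset.card_le_card ?_) (g_deg h g)
    intro v hv
    simp only [Finset.mem_filter] at hv ⊢
    exact hv
  · exact Nat.mul_pos hA hΔ
  · omega
  · omega
  · have : 1 ≤ E * zz D E S := Nat.mul_pos hE hZ
    have e : 256 * E * zz D E S = 256 * (E * zz D E S) := by ring
    omega

end Vale.Agent.P065
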