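import Vale.Agent.P065.Defs

/-! Numerical predicates for the recursion. -/

namespace Vale.Agent.P065

/-- there is a good configuration with these numbers -/
def HasCfg (n M Δ D E N : ℕ) : Prop :=
  ∃ (ι : Type) (_ : Fintype ι) (U : Cfg ι) (lam : ℕ), U.Good lam Δ D E N ∧ U.wt = n ∧ U.ev.card = M

/-- logarithmic form -/
def Sys (F L K T P : ℝ) : Prop :=
  ∃ n M Δ D E N : ℕ, HasCfg n M Δ D E N ∧ 1 ≤ n ∧ Real.log n ≤ F ∧ (n : ℝ) * Real.exp L ≤ M ∧
    Real.log Δ ≤ K ∧ Real.log D ≤ T ∧ Real.log E ≤ T ∧ Real.log N ≤ P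

end Vale.Agent.P065
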