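import Vale.Agent.P065.CompMain
import Vale.Agent.P065.GadMain
import Vale.Agent.P065.SysDefs
import Vale.Agent.P065.CompW
import Vale.Agent.P065.CompB

/-! Row S1: composition in numbers. -/

namespace Vale.Agent.P065

open Finset Classical

theorem compose_aux {n' A S D Δ t ko : ℤ} (hA : A = 32 * Δ) (hΔ : 1 ≤ Δ) (hD : 1 ≤ D)
    (hn : 0 ≤ n') (hS : 32 * A * D ≤ S) (ht : t ≤ n' * D)
    (hko : ko = A * (S - 1) * n' + (A - 1) * (n' * (S - 1) + t)) :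
    10 * (ko + 2 * (n' * (S + 2 * A * D)) * Δ) ≤ 21 * n' * A * S := by
  subst hA
  have h1 : (32 * Δ - 1) * t ≤ (32 * Δ - 1) * (n' * D) :=
    mul_le_mul_of_nonneg_left ht (by linarith)
  have h2 : n' * (32 * (32 * Δ) * D) ≤ n' * S := mul_le_mul_of_nonneg_left hS hn
  have h3 : 0 ≤ n' * D := mul_nonneg hn (by linarith)
  have hS0 : 0 ≤ S := le_trans (by positivity) hS
  have h4 : 0 ≤ n' * S := mul_nonneg hn hS0
  have h5 : n' * S ≤ n' * S * Δ := by nlinarith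
  have h6 : Δ * (n' * (32 * (32 * Δ) * D)) ≤ Δ * (n' * S) :=
    mul_le_mul_of_nonneg_left h2 (by linarith)
  rw [hko]
  nlinarith

/-- Row S1. `A = 32 Δ`, `Θ = 16 (N+1)`, `Z = zz D' E' S`, `H = 16 Z Θ (8 S)`,
`Dl = 64 Θ (A+2)`, `Kn = 256 E' Z`. -/
theorem hasCfg_comp {n M Δ D E N n' M' Δ' D' E' N' : ℕ} (h : HasCfg n M Δ D E N)
    (h' : HasCfg n' M' Δ' D' E' N') (hn' : 1 ≤ n') (S : ℕ) (hS : 32 * (32 * Δ) * D' ≤ S) :
    ∃ n'' : ℕ, 10 * n'' ≤ 21 * n * n' * (32 * Δ) * S ∧ n * n' ≤ n'' ∧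
      HasCfg n'' (M * (32 * Δ * S * M')) (32 * Δ * Δ')
        (2 * ((16 * (N + 1)) * (16 * zz D' E' S * (16 * (N + 1)) * (8 * S)) * zz D' E' S) * D)
        (3 * ((64 * (16 * (N + 1)) * (32 * Δ + 2)) * (16 * zz D' E' S * (16 * (N + 1)) * (8 * S))
          * (256 * E' * zz D' E' S)) * E)
        ((2 + (32 * Δ + 2)) * (8 * S) * (256 * E' * zz D' E' S)) := by
  obtain ⟨ι, _, U, lam, hU, hUw, hUe⟩ := h
  obtain ⟨ι', _, Q, lam', hQ, hQw, hQe⟩ := h'
  have hΔ := hU.posΔ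
  have hD' := hQ.posD
  have hE' := hQ.posE
  have hSpos : 1 ≤ S := by
    have : 0 < 32 * (32 * Δ) * D' := by positivity
    omega
  have hz : 1 ≤ zz D' E' S := by
    have : 0 < zz D' E' S := by unfold zz; positivity
    omega
  have hP : GPar Q lam' Δ' D' E' N' (32 * Δ) S (16 * (N + 1))
      (16 * zz D' E' S * (16 * (N + 1)) * (8 * S)) :=
    { gQ := hQ, hA := by omega, hS := hS, hΘ := by omega, hH := le_rfl }
  have hG := gad_good hP
  have hC : CPar U (gad Q (32 * Δ) S D' E' (16 * (N + 1))) lam Δ D E N (16 * (N + 1))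
      (16 * zz D' E' S * (16 * (N + 1)) * (8 * S)) (64 * (16 * (N + 1)) * (32 * Δ + 2))
      (256 * E' * zz D' E' S) (32 * Δ + 2) (8 * S) (32 * Δ * Δ') (gLam Q lam' (32 * Δ) S D') :=
    { gU := hU, gA := hG, hΘ := le_rfl,
      hH := by
        calc 16 * (16 * (N + 1)) * (8 * S) = 16 * 1 * (16 * (N + 1)) * (8 * S) := by ring
          _ ≤ 16 * zz D' E' S * (16 * (N + 1)) * (8 * S) := by gcongr
      hDl := le_rfl }
  have hcg := comp_good hC
  have hw := comp_wt U (gad Q (32 * Δ) S D' E' (16 * (N + 1))) Δ (16 * (N + 1))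
      (16 * zz D' E' S * (16 * (N + 1)) * (8 * S)) (64 * (16 * (N + 1)) * (32 * Δ + 2))
      (256 * E' * zz D' E' S) (32 * Δ + 2) hU.m1 hU.deg
  have hN0 := g_N0 Q (32 * Δ) S D' E' (16 * (N + 1))
  have hko := g_ko hP
  have hts := tsum_le hQ
  refine ⟨_, ?_, ?_, ⟨_, inferInstance, _, _, hcg, rfl, ?_⟩⟩
  · rw [hw, hUw, hN0, hQw]
    have h1 := compose_aux (n' := (n' : ℤ)) (A := ((32 * Δ : ℕ) : ℤ)) (S := (S : ℤ))
      (D := (D' : ℤ)) (Δ := (Δ : ℤ)) (t := tsum Q)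
      (ko := ((gad Q (32 * Δ) S D' E' (16 * (N + 1))).ko : ℤ)) (by push_cast; ring)
      (by exact_mod_cast hΔ) (by exact_mod_cast hD') (by positivity) (by exact_mod_cast hS)
      (by rw [hQw] at hts; exact (abs_le.1 hts).2) (by rw [hQw] at hko; exact hko)
    have h2 : 10 * ((gad Q (32 * Δ) S D' E' (16 * (N + 1))).ko
        + 2 * (n' * (S + 2 * (32 * Δ) * D')) * Δ) ≤ 21 * n' * (32 * Δ) * S := by
      exact_mod_cast h1
    calc 10 * (n * ((gad Q (32 * Δ) S D' E' (16 * (N + 1))).ko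
          + 2 * (n' * (S + 2 * (32 * Δ) * D')) * Δ))
        = n * (10 * ((gad Q (32 * Δ) S D' E' (16 * (N + 1))).ko
          + 2 * (n' * (S + 2 * (32 * Δ) * D')) * Δ)) := by ring
      _ ≤ n * (21 * n' * (32 * Δ) * S) := Nat.mul_le_mul_left _ h2
      _ = 21 * n * n' * (32 * Δ) * S := by ring
  · rw [hw, hUw, hN0, hQw]
    refine Nat.mul_le_mul_left _ ?_
    have h3 : n' * 1 * 1 ≤ n' * (S + 2 * (32 * Δ) * D') * Δ :=
      Nat.mul_le_mul (Nat.mul_le_mul_left _ (by omega)) hΔ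
    have h4 : 2 * (n' * (S + 2 * (32 * Δ) * D')) * Δ
      = 2 * (n' * (S + 2 * (32 * Δ) * D') * Δ) := by ring
    rw [h4]
    omega
  · rw [comp_ev_card, g_card hP, hUe, hQe]

end Vale.Agent.P065
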