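import Mathlib

/-! Definitions for the halving-line lower bound (P065). -/

namespace Vale.Agent.P065

open Finset Classical

/-- A weighted configuration: points `(t i, e i)` with weight `m i`, and a set of event pairs. -/
structure Cfg (ι : Type) where
  t : ι → ℤ
  e : ι → ℝ
  m : ι → ℕ
  ev : Finset (ι × ι)

namespace Cfg

variable {ι : Type} (U : Cfg ι)

/-- affine coordinate of `i` along the pair `w` (0 at `w.1`, 1 at `w.2`) -/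
noncomputable def tau (w : ι × ι) (i : ι) : ℝ :=
  ((U.t i : ℝ) - U.t w.1) / ((U.t w.2 : ℝ) - U.t w.1)

/-- height of `i` above the line through the pair `w` -/
noncomputable def fh (w : ι × ι) (i : ι) : ℝ :=
  U.e i - U.e w.1 - U.tau w i * (U.e w.2 - U.e w.1)

/-- total weight -/
def wt [Fintype ι] : ℕ := ∑ i, U.m i

/-- weight strictly below the line of `w` -/
noncomputable def below [Fintype ι] (w : ι × ι) : ℕ := ∑ i, if U.fh w i < 0 then U.m i else 0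

/-- number of events with left endpoint `i` -/
noncomputable def ldeg (i : ι) : ℕ := (U.ev.filter (fun w => w.1 = i)).card

/-- The good configurations. -/
structure Good [Fintype ι] (lam Δ D E N : ℕ) : Prop where
  lt : ∀ w ∈ U.ev, U.t w.1 < U.t w.2
  m1 : ∀ w ∈ U.ev, U.m w.1 = 1
  m2 : ∀ w ∈ U.ev, U.m w.2 = 1
  c1 : ∀ w ∈ U.ev, ∀ i, i ≠ w.1 → i ≠ w.2 → 1 + |U.tau w i| ≤ |U.fh w i|
  bel : ∀ w ∈ U.ev, U.below w = lam
  c2 : ∀ w ∈ U.ev, ∀ w' ∈ U.ev, w'.1 ≠ w.1 → w'.1 ≠ w.2 →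
    |U.fh w w'.2| ≤ N * |U.fh w w'.1|
  td : ∀ i, |U.t i| ≤ D
  ee : ∀ i, |U.e i| ≤ E
  deg : ∀ i, U.ldeg i ≤ Δ
  posΔ : 1 ≤ Δ
  posD : 1 ≤ D
  posE : 1 ≤ E
  posN : 1 ≤ N

end Cfg

/-- A gadget: light points `(xz g / Z, y g)` with weights, gadget events, and weighted offsets. -/
structure Gad (G κ : Type) where
  Z : ℕ
  xz : G → ℤ
  y : G → ℝ
  m : G → ℕ
  ev : Finset (G × G)
  o : κ → ℝ
  wo : κ → ℕ

namespace Gad

variable {G κ : Type} (A : Gad G κ)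

noncomputable def x (g : G) : ℝ := (A.xz g : ℝ) / A.Z

/-- minus the slope of the line of the gadget event `v` -/
noncomputable def X (v : G × G) : ℝ := -((A.y v.2 - A.y v.1) / (A.x v.2 - A.x v.1))

/-- the intercept: the line of `v` is `y = Y v - X v * x` -/
noncomputable def Y (v : G × G) : ℝ := A.y v.1 + A.X v * A.x v.1

/-- height of the light point `g` above the line of `v` -/
noncomputable def gh (v : G × G) (g : G) : ℝ := A.y g - (A.Y v - A.X v * A.x g)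

/-- total light weight -/
def N0 [Fintype G] : ℕ := ∑ g, A.m g

/-- total offset weight -/
def ko [Fintype κ] : ℕ := ∑ o, A.wo o

/-- The good gadgets, relative to `θ = 1/Θ`, `η' = 1/H`, relative margin `1/Kn`,
slopes at most `Am`, coordinates at most `B`, degree at most `Δg`, constant count `Λ`. -/
structure Good [Fintype G] [Fintype κ] (Θ H Kn Am B Δg Λ : ℕ) : Prop where
  posZ : 1 ≤ A.Z
  sep : ∀ v ∈ A.ev, (1 / 2 : ℝ) ≤ A.x v.2 - A.x v.1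
  X1 : ∀ v ∈ A.ev, (1 / 2 : ℝ) ≤ A.X v
  X2 : ∀ v ∈ A.ev, A.X v ≤ Am
  Yb : ∀ v ∈ A.ev, |A.Y v| ≤ B
  xb : ∀ g, |A.x g| ≤ B
  yb : ∀ g, |A.y g| ≤ B
  ob : ∀ o, |A.o o| ≤ Am
  marg : ∀ v ∈ A.ev, ∀ g, g ≠ v.1 → g ≠ v.2 →
    (1 / (Kn : ℝ)) * (1 + |A.x g - A.x v.1| / (A.x v.2 - A.x v.1)) ≤ |A.gh v g|
  oa : ∀ v ∈ A.ev, ∀ o, 5 * (1 / (Θ : ℝ)) * (1 / (Kn : ℝ)) ≤
    |A.o o - ((1 / (H : ℝ)) * A.Y v + (1 / (Θ : ℝ)) * A.X v)|
  oc : ∀ v ∈ A.ev, ∀ o, 7 * (1 / (Kn : ℝ)) ≤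
    |A.o o - ((1 / (H : ℝ)) * A.Y v - (1 - 1 / (Θ : ℝ)) * A.X v)|
  cnt : ∀ v ∈ A.ev,
    (∑ g, if A.gh v g < 0 then A.m g else 0)
    + (∑ o, if A.o o < (1 / (H : ℝ)) * A.Y v + (1 / (Θ : ℝ)) * A.X v then A.wo o else 0)
    + (∑ o, if A.o o < (1 / (H : ℝ)) * A.Y v - (1 - 1 / (Θ : ℝ)) * A.X v then A.wo o else 0) = Λ
  m1 : ∀ v ∈ A.ev, A.m v.1 = 1
  m2 : ∀ v ∈ A.ev, A.m v.2 = 1
  deg : ∀ g, (A.ev.filter (fun v => v.1 = g)).card ≤ Δg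
  posΔ : 1 ≤ Δg
  posAm : 2 ≤ Am
  posB : 1 ≤ B
  posKn : 16 ≤ Kn

end Gad

/-- index type of the composite -/
abbrev CIdx (ι G κ : Type) (U : Cfg ι) : Type :=
  (ι × κ) ⊕ (ι × Bool) ⊕ ({w // w ∈ U.ev} × G) ⊕ {w // w ∈ U.ev}

/-- The composite of `U` with the gadget `A`; `Θ = 1/θ`, `H = 1/η'`, `Dl = 1/δ`;
the `t`-scale is `Θ H Z`, the `e`-scale is `Dl H Kn`. -/
noncomputable def comp {ι G κ : Type} [Fintype G] [Fintype κ] (U : Cfg ι) (A : Gad G κ)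
    (Δ Θ H Dl Kn Am : ℕ) : Cfg (CIdx ι G κ U) where
  t := fun p => match p with
    | Sum.inl (i, _) => (Θ * H * A.Z : ℤ) * U.t i
    | Sum.inr (Sum.inl (i, _)) => (Θ * H * A.Z : ℤ) * U.t i
    | Sum.inr (Sum.inr (Sum.inl (w, g))) =>
        (Θ * H * A.Z : ℤ) * U.t w.1.1 + (H * A.Z + Θ * A.xz g) * (U.t w.1.2 - U.t w.1.1)
    | Sum.inr (Sum.inr (Sum.inr w)) =>
        (Θ * H * A.Z : ℤ) * U.t w.1.1 - (H * A.Z) * (U.t w.1.2 - U.t w.1.1)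
  e := fun p => match p with
    | Sum.inl (i, o) => (Dl * H * Kn : ℝ) * (U.e i + (1 / (Dl : ℝ)) * A.o o)
    | Sum.inr (Sum.inl (i, b)) =>
        (Dl * H * Kn : ℝ) * (U.e i + (1 / (Dl : ℝ)) * (if b then (2 * Am : ℝ) else -(2 * Am : ℝ)))
    | Sum.inr (Sum.inr (Sum.inl (w, g))) =>
        (Dl * H * Kn : ℝ) * (U.e w.1.1
          + (1 / (Θ : ℝ) + (1 / (H : ℝ)) * A.x g) * (U.e w.1.2 - U.e w.1.1)
          + (1 / (Dl : ℝ)) * (1 / (H : ℝ)) * A.y g)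
    | Sum.inr (Sum.inr (Sum.inr w)) =>
        (Dl * H * Kn : ℝ) * (U.e w.1.1 - (1 / (Θ : ℝ)) * (U.e w.1.2 - U.e w.1.1))
  m := fun p => match p with
    | Sum.inl (i, o) => U.m i * A.wo o
    | Sum.inr (Sum.inl (i, _)) => U.m i * (A.N0 * (Δ - U.ldeg i))
    | Sum.inr (Sum.inr (Sum.inl (_, g))) => A.m g
    | Sum.inr (Sum.inr (Sum.inr _)) => A.N0
  ev := (Finset.univ : Finset {w // w ∈ U.ev}).biUnion (fun w =>
    A.ev.image (fun v =>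
      ((Sum.inr (Sum.inr (Sum.inl (w, v.1))) : CIdx ι G κ U),
       (Sum.inr (Sum.inr (Sum.inl (w, v.2))) : CIdx ι G κ U))))

end Vale.Agent.P065
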