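import Mathlib

/-!
# P065 : end game. From one weighted configuration to all even `n`.
-/

namespace Vale.Agent.P065

open Finset Topology

/-- orientation determinant of three points of the plane -/
def orient (a b c : ℝ × ℝ) : ℝ := (b.1 - a.1) * (c.2 - a.2) - (c.1 - a.1) * (b.2 - a.2)

open scoped Classical in
/-- a family of points with `M` events (ordered pairs) whose lines miss all other points and have exactly
`lam` points below -/
def Lev (ι : Type) [Fintype ι] (lam M : ℕ) : Prop :=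
  ∃ (p : ι → ℝ × ℝ) (ev : Finset (ι × ι)), M ≤ ev.card ∧ ∀ w ∈ ev, (p w.1).1 < (p w.2).1 ∧
    (∀ k, k ≠ w.1 → k ≠ w.2 → orient (p w.1) (p w.2) (p k) ≠ 0) ∧
    (univ.filter fun k => orient (p w.1) (p w.2) (p k) < 0).card = lam

open scoped Classical in
def Weak (n M : ℕ) : Prop := ∃ (p : Fin n → ℝ × ℝ) (ev : Finset (Fin n × Fin n)), M ≤ ev.card ∧
  ∀ w ∈ ev, (p w.1).1 < (p w.2).1 ∧
    (∀ k, k ≠ w.1 → k ≠ w.2 → orient (p w.1) (p w.2) (p k) ≠ 0) ∧
    2 * (univ.filter fun k => orient (p w.1) (p w.2) (p k) < 0).card + 2 = n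

theorem Lev.equiv {ι κ : Type} [Fintype ι] [Fintype κ] {lam M : ℕ} (h : Lev ι lam M) (e : ι ≃ κ) :
    Lev κ lam M := by
  classical
  obtain ⟨p, ev, hM, h⟩ := h
  refine ⟨fun k => p (e.symm k), ev.map ((e.prodCongr e).toEmbedding), by rwa [card_map], ?_⟩
  intro w hw
  rw [Finset.mem_map] at hw
  obtain ⟨w, hw, rfl⟩ := hw
  obtain ⟨h1, h2, h3⟩ := h w hw
  simp only [Equiv.coe_toEmbedding, Equiv.prodCongr_apply, Prod.map_fst, Prod.map_snd,
    Equiv.symm_apply_apply]
  refine ⟨h1, ?_, ?_⟩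
  · intro k hk1 hk2
    apply h2
    · intro hh; apply hk1; rw [← hh, Equiv.apply_symm_apply]
    · intro hh; apply hk2; rw [← hh, Equiv.apply_symm_apply]
  · rw [← h3]
    refine card_bij' (fun k _ => e.symm k) (fun k _ => e k) ?_ ?_ ?_ ?_ <;> simp

theorem weak_of_lev {ι : Type} [Fintype ι] {lam M : ℕ} (h : Lev ι lam M)
    (hl : 2 * lam + 2 = Fintype.card ι) : Weak (Fintype.card ι) M := by
  classical
  obtain ⟨p, ev, hM, h⟩ := h.equiv (Fintype.equivFin ι)
  refine ⟨p, ev, hM, fun w hw => ?_⟩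
  obtain ⟨h1, h2, h3⟩ := h w hw
  exact ⟨h1, h2, by rw [h3, hl]⟩

theorem lev_of_weak {n M : ℕ} (h : Weak n M) (hM : 0 < M) :
    ∃ lam, 2 * lam + 2 = n ∧ Lev (Fin n) lam M := by
  classical
  obtain ⟨p, ev, hM', h⟩ := h
  obtain ⟨w0, hw0⟩ : ev.Nonempty := by
    rw [← card_pos]; omega
  refine ⟨_, (h w0 hw0).2.2, p, ev, hM', fun w hw => ?_⟩
  obtain ⟨h1, h2, h3⟩ := h w hw
  have h4 := (h w0 hw0).2.2
  exact ⟨h1, h2, by omega⟩

/-- adding far points -/
theorem Lev.addFar {ι : Type} [Fintype ι] {lam M : ℕ} (h : Lev ι lam M) (κ κ' : Type) [Fintype κ]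
    [Fintype κ'] : Lev (ι ⊕ κ ⊕ κ') (lam + Fintype.card κ') M := by
  classical
  obtain ⟨p, ev, hM, h⟩ := h
  -- a large height
  obtain ⟨Y, hY⟩ : ∃ Y : ℝ, ∀ w ∈ ev, 0 < orient (p w.1) (p w.2) (0, Y) ∧
      orient (p w.1) (p w.2) (0, -Y) < 0 := by
    have key : ∀ w ∈ ev, ∀ᶠ Y : ℝ in Filter.atTop, 0 < orient (p w.1) (p w.2) (0, Y) ∧
        orient (p w.1) (p w.2) (0, -Y) < 0 := by
      intro w hw
      have h1 : 0 < (p w.2).1 - (p w.1).1 := sub_pos.2 (h w hw).1
      have ht : Filter.Tendsto (fun Y : ℝ => ((p w.2).1 - (p w.1).1) * Y) Filter.atTop Filter.atTop :=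
        Filter.Tendsto.const_mul_atTop h1 Filter.tendsto_id
      have ha := ht.eventually_gt_atTop (((p w.2).1 - (p w.1).1) * (p w.1).2 -
        (p w.1).1 * ((p w.2).2 - (p w.1).2))
      have hb := ht.eventually_gt_atTop (-(((p w.2).1 - (p w.1).1) * (p w.1).2 -
        (p w.1).1 * ((p w.2).2 - (p w.1).2)))
      filter_upwards [ha, hb] with Y ha hb
      simp only [orient]
      constructor <;> nlinarith
    have := (Filter.eventually_all_finset ev).2 key
    exact this.exists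
  let P : ι ⊕ κ ⊕ κ' → ℝ × ℝ := Sum.elim p (Sum.elim (fun _ => (0, Y)) (fun _ => (0, -Y)))
  refine ⟨P, ev.map ((Function.Embedding.inl).prodMap Function.Embedding.inl), by rwa [card_map], ?_⟩
  intro w hw
  rw [Finset.mem_map] at hw
  obtain ⟨w, hw, rfl⟩ := hw
  obtain ⟨h1, h2, h3⟩ := h w hw
  obtain ⟨hy1, hy2⟩ := hY w hw
  refine ⟨h1, ?_, ?_⟩
  · rintro (k | k | k) hk1 hk2
    · exact h2 k (fun hh => hk1 (by rw [hh]; rfl)) (fun hh => hk2 (by rw [hh]; rfl))
    · exact hy1.ne'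
    · exact hy2.ne
  · rw [Finset.card_filter, Fintype.sum_sum_type, Fintype.sum_sum_type, ← h3, Finset.card_filter]
    show ∑ k : ι, (if orient (p w.1) (p w.2) (p k) < 0 then 1 else 0) +
      (∑ _k : κ, (if orient (p w.1) (p w.2) (0, Y) < 0 then 1 else 0) +
      ∑ _k : κ', (if orient (p w.1) (p w.2) (0, -Y) < 0 then 1 else 0)) = _
    rw [if_neg (not_lt.2 hy1.le), if_pos hy2]
    simp

/-- (W0) -/
theorem weak_of_weighted {I : Type} [Fintype I] (t e : I → ℝ) (m : I → ℕ) (ev : Finset (I × I))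
    (lam : ℕ) (hlt : ∀ w ∈ ev, t w.1 < t w.2) (hm : ∀ w ∈ ev, m w.1 = 1 ∧ m w.2 = 1)
    (hoff : ∀ w ∈ ev, ∀ i, i ≠ w.1 → i ≠ w.2 →
      orient (t w.1, e w.1) (t w.2, e w.2) (t i, e i) ≠ 0)
    (hlam : ∀ w ∈ ev, ∑ i, (open scoped Classical in
      if orient (t w.1, e w.1) (t w.2, e w.2) (t i, e i) < 0 then m i else 0) = lam) :
    Weak ((∑ i, m i) + ((∑ i, m i) - (2 * lam + 2)) + ((2 * lam + 2) - ∑ i, m i)) ev.card := by
  classical
  set n := ∑ i, m i with hn
  let ι := Σ i : I, Fin (m i)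
  have hcard : Fintype.card ι = n := by simp [ι, hn]
  by_cases hev : ev = ∅
  · subst hev
    exact ⟨fun _ => 0, ∅, le_refl _, by simp⟩
  have hlev : Lev ι lam ev.card := by
    let q : ι → ℝ × ℝ := fun k => (t k.1, e k.1)
    let ev' : Finset (ι × ι) := univ.filter fun w => (w.1.1, w.2.1) ∈ ev
    refine ⟨q, ev', ?_, ?_⟩
    · refine card_le_card_of_surjOn (fun w => (w.1.1, w.2.1)) ?_
      intro w hw
      obtain ⟨h1, h2⟩ := hm w hw
      refine ⟨(⟨w.1, ⟨0, by omega⟩⟩, ⟨w.2, ⟨0, by omega⟩⟩), ?_, rfl⟩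
      rw [mem_coe, mem_filter]
      exact ⟨mem_univ _, hw⟩
    · rintro ⟨⟨a, ia⟩, ⟨c, ic⟩⟩ hw
      rw [mem_filter] at hw
      replace hw := hw.2
      simp only at hw
      obtain ⟨h1, h2⟩ := hm _ hw
      simp only at h1 h2
      refine ⟨hlt _ hw, ?_, ?_⟩
      · rintro ⟨k, ik⟩ hk1 hk2
        refine hoff _ hw k ?_ ?_
        · rintro rfl
          apply hk1
          have : ik = ia := by
            apply Fin.ext
            have := ik.isLt; have := ia.isLt
            simp only at *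
            omega
          rw [this]
        · rintro rfl
          apply hk2
          have : ik = ic := by
            apply Fin.ext
            have := ik.isLt; have := ic.isLt
            simp only at *
            omega
          rw [this]
      · rw [← hlam _ hw, Finset.card_filter, Fintype.sum_sigma]
        refine sum_congr rfl fun i _ => ?_
        show ∑ _k : Fin (m i), (if orient (t a, e a) (t c, e c) (t i, e i) < 0 then 1 else 0) = _
        rw [sum_const, card_univ, Fintype.card_fin]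
        split_ifs <;> simp
  have h2 := hlev.addFar (Fin ((2 * lam + 2) - n)) (Fin (n - (2 * lam + 2)))
  have h3 := weak_of_lev h2 (by
    simp only [Fintype.card_sum, Fintype.card_fin, hcard]
    omega)
  have h4 : Fintype.card (ι ⊕ Fin ((2 * lam + 2) - n) ⊕ Fin (n - (2 * lam + 2))) =
      n + (n - (2 * lam + 2)) + ((2 * lam + 2) - n) := by
    simp only [Fintype.card_sum, Fintype.card_fin, hcard]
    omega
  rwa [h4] at h3

/-- (W1) -/
theorem Weak.add_two {n M : ℕ} (h : Weak n M) : Weak (n + 2) M := by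
  classical
  rcases Nat.eq_zero_or_pos M with rfl | hM
  · exact ⟨fun _ => 0, ∅, le_refl _, by simp⟩
  obtain ⟨lam, hl, h⟩ := lev_of_weak h hM
  have h2 := weak_of_lev (h.addFar (Fin 1) (Fin 1)) (by simp; omega)
  have h4 : Fintype.card (Fin n ⊕ Fin 1 ⊕ Fin 1) = n + 2 := by simp
  rwa [h4] at h2

theorem Weak.add_even {n M : ℕ} (h : Weak n M) (k : ℕ) : Weak (n + 2 * k) M := by
  induction k with
  | zero => exact h
  | succ k ih => exact ih.add_two

theorem Weak.mono {n M M' : ℕ} (h : Weak n M) (hM : M' ≤ M) : Weak n M' := by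
  classical
  obtain ⟨p, ev, h1, h2⟩ := h
  exact ⟨p, ev, hM.trans h1, h2⟩

/-- the abscissa of the second end of the chord through the `i`-th vertex -/
noncomputable def xc (s i : ℕ) : ℝ := if i ≤ s then (i : ℝ) + s + 1 / 2 else (i : ℝ) - s - 1 / 2

theorem xc_sign (s i j : ℕ) : ((j : ℝ) - i) * (j - xc s i) < 0 ↔
    (if i ≤ s then i < j ∧ j ≤ i + s else i ≤ j + s ∧ j < i) := by
  unfold xc
  split_ifs with h
  · constructor
    · intro hh
      constructor
      · by_contra hc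
        push Not at hc
        have h1 : (j : ℝ) ≤ i := by exact_mod_cast hc
        have h2 : (0 : ℝ) ≤ s := by positivity
        nlinarith [mul_nonneg (sub_nonneg.2 h1) (by linarith : (0 : ℝ) ≤ (i : ℝ) + s + 1 / 2 - j)]
      · by_contra hc
        push Not at hc
        have h1 : (i : ℝ) + s + 1 ≤ j := by exact_mod_cast hc
        have h2 : (0 : ℝ) ≤ s := by positivity
        nlinarith [mul_nonneg (by linarith : (0 : ℝ) ≤ (j : ℝ) - i)
          (by linarith : (0 : ℝ) ≤ (j : ℝ) - (i + s + 1 / 2))]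
    · rintro ⟨h1, h2⟩
      have h1' : (i : ℝ) + 1 ≤ j := by exact_mod_cast h1
      have h2' : (j : ℝ) ≤ i + s := by exact_mod_cast h2
      nlinarith
  · push Not at h
    have h0 : (s : ℝ) + 1 ≤ i := by exact_mod_cast h
    constructor
    · intro hh
      constructor
      · by_contra hc
        push Not at hc
        have h1 : (j : ℝ) + s + 1 ≤ i := by exact_mod_cast hc
        have h2 : (0 : ℝ) ≤ s := by positivity
        nlinarith [mul_nonneg (by linarith : (0 : ℝ) ≤ (i : ℝ) - j)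
          (by linarith : (0 : ℝ) ≤ (i : ℝ) - s - 1 / 2 - j)]
      · by_contra hc
        push Not at hc
        have h1 : (i : ℝ) ≤ j := by exact_mod_cast hc
        have h2 : (0 : ℝ) ≤ s := by positivity
        nlinarith [mul_nonneg (sub_nonneg.2 h1) (by linarith : (0 : ℝ) ≤ (j : ℝ) - ((i : ℝ) - s - 1 / 2))]
    · rintro ⟨h1, h2⟩
      have h1' : (i : ℝ) ≤ j + s := by exact_mod_cast h1
      have h2' : (j : ℝ) + 1 ≤ i := by exact_mod_cast h2
      nlinarith

theorem xc_ne (s i j : ℕ) (hij : j ≠ i) : ((j : ℝ) - i) * (j - xc s i) ≠ 0 := by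
  have h1 : ((j : ℝ) - i) ≠ 0 := sub_ne_zero.2 (by exact_mod_cast hij)
  refine mul_ne_zero h1 ?_
  unfold xc
  intro hh
  split_ifs at hh with h
  · have h2 : (2 * (j : ℤ) - 2 * i - 2 * s - 1 : ℤ) = 0 := by
      have : ((2 * (j : ℤ) - 2 * i - 2 * s - 1 : ℤ) : ℝ) = 0 := by push_cast; linarith
      exact_mod_cast this
    omega
  · have h2 : (2 * (j : ℤ) - 2 * i + 2 * s + 1 : ℤ) = 0 := by
      have : ((2 * (j : ℤ) - 2 * i + 2 * s + 1 : ℤ) : ℝ) = 0 := by push_cast; linarith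
      exact_mod_cast this
    omega

open scoped Classical in
theorem xc_card (s : ℕ) (i : Fin (2 * s + 1)) :
    (univ.filter fun j : Fin (2 * s + 1) => (((j : ℕ) : ℝ) - (i : ℕ)) * ((j : ℕ) - xc s i) < 0).card
      = s := by
  have hi := i.isLt
  by_cases h : (i : ℕ) ≤ s
  · have : (univ.filter fun j : Fin (2 * s + 1) =>
        (((j : ℕ) : ℝ) - (i : ℕ)) * ((j : ℕ) - xc s i) < 0) =
        Finset.Ioc i ⟨(i : ℕ) + s, by omega⟩ := by
      ext j
      rw [mem_filter, xc_sign, if_pos h, Finset.mem_Ioc, Fin.lt_def, Fin.le_def]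
      simp
    rw [this, Fin.card_Ioc]
    simp
  · have : (univ.filter fun j : Fin (2 * s + 1) =>
        (((j : ℕ) : ℝ) - (i : ℕ)) * ((j : ℕ) - xc s i) < 0) =
        Finset.Ico ⟨(i : ℕ) - s, by omega⟩ i := by
      ext j
      rw [mem_filter, xc_sign, if_neg h, Finset.mem_Ico, Fin.lt_def, Fin.le_def]
      simp only [mem_univ, true_and]
      constructor
      · rintro ⟨h1, h2⟩; exact ⟨by omega, h2⟩
      · rintro ⟨h1, h2⟩; exact ⟨by omega, h2⟩
    rw [this, Fin.card_Ico]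
    simp only []
    omega

/-- (W2) : copies -/
theorem Lev.copies {ι : Type} [Fintype ι] {lam M : ℕ} (h : Lev ι lam M) (s : ℕ) :
    Lev (Fin (2 * s + 1) × ι) (lam + s * Fintype.card ι) ((2 * s + 1) * M) := by
  classical
  obtain ⟨p, ev, hM, h⟩ := h
  let P : ℝ → Fin (2 * s + 1) × ι → ℝ × ℝ := fun ε k =>
    ((k.1 : ℕ) + ε * (p k.2).1,
      ((k.1 : ℕ) : ℝ) ^ 2 + ε * (((k.1 : ℕ) : ℝ) + xc s k.1) * (p k.2).1 + ε ^ 2 * (p k.2).2)
  obtain ⟨ε, hε, hP⟩ : ∃ ε : ℝ, 0 < ε ∧ ∀ w ∈ ev, ∀ i j : Fin (2 * s + 1), ∀ k : ι, j ≠ i →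
      orient (P ε (i, w.1)) (P ε (i, w.2)) (P ε (j, k)) ≠ 0 ∧
      (orient (P ε (i, w.1)) (P ε (i, w.2)) (P ε (j, k)) < 0 ↔
        (((j : ℕ) : ℝ) - (i : ℕ)) * ((j : ℕ) - xc s i) < 0) := by
    have key : ∀ w ∈ ev, ∀ i j : Fin (2 * s + 1), ∀ k : ι, ∀ᶠ ε : ℝ in 𝓝[>] 0, (j ≠ i →
      orient (P ε (i, w.1)) (P ε (i, w.2)) (P ε (j, k)) ≠ 0 ∧
      (orient (P ε (i, w.1)) (P ε (i, w.2)) (P ε (j, k)) < 0 ↔
        (((j : ℕ) : ℝ) - (i : ℕ)) * ((j : ℕ) - xc s i) < 0)) := by
      intro w hw i j k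
      by_cases hij : j = i
      · exact Filter.Eventually.of_forall fun ε hne => absurd hij hne
      have hne := xc_ne s (i : ℕ) (j : ℕ) (fun hh => hij (Fin.ext hh))
      have ht : 0 < (p w.2).1 - (p w.1).1 := sub_pos.2 (h w hw).1
      let G : ℝ → ℝ := fun ε =>
        ((p w.2).1 - (p w.1).1) * ((((j : ℕ) : ℝ) ^ 2 + ε * (((j : ℕ) : ℝ) + xc s j) * (p k).1
          + ε ^ 2 * (p k).2 - ((((i : ℕ) : ℝ)) ^ 2 + ε * (((i : ℕ) : ℝ) + xc s i) * (p w.1).1
          + ε ^ 2 * (p w.1).2)) - (((i : ℕ) : ℝ) + xc s i) *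
            (((j : ℕ) : ℝ) + ε * (p k).1 - (((i : ℕ) : ℝ) + ε * (p w.1).1))) -
          ε * (((j : ℕ) : ℝ) + ε * (p k).1 - (((i : ℕ) : ℝ) + ε * (p w.1).1)) *
            ((p w.2).2 - (p w.1).2)
      have hG : ∀ ε, orient (P ε (i, w.1)) (P ε (i, w.2)) (P ε (j, k)) = ε * G ε := by
        intro ε
        simp only [orient, P, G]
        ring
      have hcont : Continuous G := by
        simp only [G]
        fun_prop
      have hG0 : G 0 = ((p w.2).1 - (p w.1).1) *
          ((((j : ℕ) : ℝ) - (i : ℕ)) * ((j : ℕ) - xc s i)) := by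
        simp only [G]
        ring
      have hpos : ∀ᶠ ε : ℝ in 𝓝[>] 0, 0 < ε := eventually_mem_nhdsWithin
      rcases lt_or_gt_of_ne hne with hlt | hgt
      · have h0 : G 0 < 0 := by rw [hG0]; exact mul_neg_of_pos_of_neg ht hlt
        have h1 : ∀ᶠ ε : ℝ in 𝓝[>] 0, G ε < 0 :=
          (hcont.continuousAt.eventually (eventually_lt_nhds h0)).filter_mono nhdsWithin_le_nhds
        filter_upwards [h1, hpos] with ε h1 hpos _
        rw [hG]
        exact ⟨(mul_neg_of_pos_of_neg hpos h1).ne, ⟨fun _ => hlt, fun _ => mul_neg_of_pos_of_neg hpos h1⟩⟩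
      · have h0 : 0 < G 0 := by rw [hG0]; exact mul_pos ht hgt
        have h1 : ∀ᶠ ε : ℝ in 𝓝[>] 0, 0 < G ε :=
          (hcont.continuousAt.eventually (eventually_gt_nhds h0)).filter_mono nhdsWithin_le_nhds
        filter_upwards [h1, hpos] with ε h1 hpos _
        rw [hG]
        exact ⟨(mul_pos hpos h1).ne', ⟨fun hh => absurd hh (not_lt.2 (mul_pos hpos h1).le),
          fun hh => absurd hh (not_lt.2 hgt.le)⟩⟩
    have key2 : ∀ᶠ ε : ℝ in 𝓝[>] 0, ∀ w ∈ ev, ∀ i j : Fin (2 * s + 1), ∀ k : ι, (j ≠ i →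
      orient (P ε (i, w.1)) (P ε (i, w.2)) (P ε (j, k)) ≠ 0 ∧
      (orient (P ε (i, w.1)) (P ε (i, w.2)) (P ε (j, k)) < 0 ↔
        (((j : ℕ) : ℝ) - (i : ℕ)) * ((j : ℕ) - xc s i) < 0)) := by
      rw [Filter.eventually_all_finset]
      intro w hw
      rw [Filter.eventually_all]
      intro i
      rw [Filter.eventually_all]
      intro j
      rw [Filter.eventually_all]
      intro k
      exact key w hw i j k
    have hpos : ∀ᶠ ε : ℝ in 𝓝[>] 0, 0 < ε := eventually_mem_nhdsWithin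
    obtain ⟨ε, h1, h2⟩ := (hpos.and key2).exists
    exact ⟨ε, h1, h2⟩
  let f : (Fin (2 * s + 1) × (ι × ι)) ↪ (Fin (2 * s + 1) × ι) × (Fin (2 * s + 1) × ι) :=
    ⟨fun x => ((x.1, x.2.1), (x.1, x.2.2)), by
      rintro ⟨i, a, b⟩ ⟨i', a', b'⟩ hh
      simp only [Prod.mk.injEq] at hh
      obtain ⟨⟨h1, h2⟩, h3, h4⟩ := hh
      rw [h1, h2, h4]⟩
  refine ⟨P ε, ((univ : Finset (Fin (2 * s + 1))) ×ˢ ev).map f, ?_, ?_⟩
  · rw [card_map, card_product, card_univ, Fintype.card_fin]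
    exact Nat.mul_le_mul_left _ hM
  intro w' hw'
  rw [Finset.mem_map] at hw'
  obtain ⟨⟨i, w⟩, hw, rfl⟩ := hw'
  rw [mem_product] at hw
  replace hw := hw.2
  simp only at hw
  obtain ⟨h1, h2, h3⟩ := h w hw
  have hsame : ∀ k, orient (P ε (i, w.1)) (P ε (i, w.2)) (P ε (i, k)) =
      ε ^ 3 * orient (p w.1) (p w.2) (p k) := by
    intro k
    simp only [orient, P]
    ring
  refine ⟨?_, ?_, ?_⟩
  · show ((i : ℕ) : ℝ) + ε * (p w.1).1 < ((i : ℕ) : ℝ) + ε * (p w.2).1
    have := mul_lt_mul_of_pos_left h1 hε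
    linarith
  · rintro ⟨j, k⟩ hk1 hk2
    by_cases hij : j = i
    · subst hij
      show orient (P ε (j, w.1)) (P ε (j, w.2)) (P ε (j, k)) ≠ 0
      rw [hsame]
      refine mul_ne_zero (by positivity) (h2 k ?_ ?_)
      · rintro rfl; exact hk1 rfl
      · rintro rfl; exact hk2 rfl
    · exact (hP w hw i j k hij).1
  · rw [Finset.card_filter, Fintype.sum_prod_type]
    show ∑ j, ∑ k, (if orient (P ε (i, w.1)) (P ε (i, w.2)) (P ε (j, k)) < 0 then 1 else 0) = _
    have hrow : ∀ j, (∑ k, (if orient (P ε (i, w.1)) (P ε (i, w.2)) (P ε (j, k)) < 0 then 1 else 0)) =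
        (if j = i then lam else 0) + (if (((j : ℕ) : ℝ) - (i : ℕ)) * ((j : ℕ) - xc s i) < 0 then
          Fintype.card ι else 0) := by
      intro j
      by_cases hij : j = i
      · subst hij
        rw [if_pos rfl, if_neg (by rw [sub_self, zero_mul]; exact lt_irrefl _), add_zero, ← h3,
          Finset.card_filter]
        refine sum_congr rfl fun k _ => ?_
        rw [hsame]
        have : ε ^ 3 * orient (p w.1) (p w.2) (p k) < 0 ↔ orient (p w.1) (p w.2) (p k) < 0 := by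
          constructor
          · intro hh
            by_contra hc
            push Not at hc
            have : 0 ≤ ε ^ 3 * orient (p w.1) (p w.2) (p k) := by positivity
            linarith
          · intro hh
            exact mul_neg_of_pos_of_neg (by positivity) hh
        simp only [this]
      · rw [if_neg hij, zero_add]
        simp only [(hP w hw i j _ hij).2]
        rw [sum_const, card_univ]
        split_ifs <;> simp
    simp only [hrow]
    rw [sum_add_distrib, Finset.sum_ite_eq' univ i, if_pos (mem_univ _), ← Finset.sum_filter, sum_const,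
      xc_card, smul_eq_mul]

/-- (W2) -/
theorem Weak.copies {n M : ℕ} (h : Weak n M) (s : ℕ) : Weak ((2 * s + 1) * n) ((2 * s + 1) * M) := by
  classical
  rcases Nat.eq_zero_or_pos M with rfl | hM
  · exact ⟨fun _ => 0, ∅, by simp, by simp⟩
  obtain ⟨lam, hl, h⟩ := lev_of_weak h hM
  have h2 := weak_of_lev (h.copies s) (by
    rw [Fintype.card_prod, Fintype.card_fin, Fintype.card_fin, ← hl]; ring)
  rwa [Fintype.card_prod, Fintype.card_fin, Fintype.card_fin] at h2

theorem quad_ne {c0 c1 c2 : ℝ} (h : c2 ≠ 0) : ∀ᶠ ε : ℝ in 𝓝[>] 0, c0 + c1 * ε + c2 * ε ^ 2 ≠ 0 := by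
  have hpos : ∀ᶠ ε : ℝ in 𝓝[>] 0, 0 < ε := eventually_mem_nhdsWithin
  by_cases h0 : c0 = 0
  · by_cases h1 : c1 = 0
    · filter_upwards [hpos] with ε hε
      rw [h0, h1]
      have : c2 * ε ^ 2 ≠ 0 := mul_ne_zero h (by positivity)
      simpa using this
    · have hc : Continuous fun ε : ℝ => c1 + c2 * ε := by fun_prop
      have h2 : ∀ᶠ ε : ℝ in 𝓝[>] 0, c1 + c2 * ε ≠ 0 := by
        have := (hc.continuousAt (x := (0 : ℝ))).eventually_ne (y := (0 : ℝ)) (by simpa using h1)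
        exact this.filter_mono nhdsWithin_le_nhds
      filter_upwards [hpos, h2] with ε hε h2
      rw [h0]
      have : ε * (c1 + c2 * ε) ≠ 0 := mul_ne_zero hε.ne' h2
      intro hh
      apply this
      rw [← hh]
      ring
  · have hc : Continuous fun ε : ℝ => c0 + c1 * ε + c2 * ε ^ 2 := by fun_prop
    have := (hc.continuousAt (x := (0 : ℝ))).eventually_ne (y := (0 : ℝ)) (by simpa using h0)
    exact this.filter_mono nhdsWithin_le_nhds

/-- perturbation to general position -/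
theorem perturb {n : ℕ} (p : Fin n → ℝ × ℝ) (ev : Finset (Fin n × Fin n))
    (h : ∀ w ∈ ev, (p w.1).1 < (p w.2).1 ∧
      (∀ k, k ≠ w.1 → k ≠ w.2 → orient (p w.1) (p w.2) (p k) ≠ 0)) : ∃ p' : Fin n → ℝ × ℝ,
    (∀ a b c, a ≠ b → b ≠ c → a ≠ c → orient (p' a) (p' b) (p' c) ≠ 0) ∧
    ∀ w ∈ ev, (p' w.1).1 < (p' w.2).1 ∧
      ∀ k, (orient (p' w.1) (p' w.2) (p' k) < 0 ↔ orient (p w.1) (p w.2) (p k) < 0) := by
  let P : ℝ → Fin n → ℝ × ℝ := fun ε j => ((p j).1 + ε * (j : ℕ), (p j).2 + ε * ((j : ℕ) : ℝ) ^ 2)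
  have hcont : ∀ a b c, Continuous fun ε => orient (P ε a) (P ε b) (P ε c) := by
    intro a b c
    simp only [orient, P]
    fun_prop
  have hP0 : ∀ j, P 0 j = p j := by
    intro j
    simp [P]
  have h1 : ∀ a b c : Fin n, ∀ᶠ ε : ℝ in 𝓝[>] 0, (a ≠ b → b ≠ c → a ≠ c →
      orient (P ε a) (P ε b) (P ε c) ≠ 0) := by
    intro a b c
    by_cases hab : a = b
    · exact Filter.Eventually.of_forall fun ε hne => absurd hab hne
    by_cases hbc : b = c
    · exact Filter.Eventually.of_forall fun ε _ hne => absurd hbc hne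
    by_cases hac : a = c
    · exact Filter.Eventually.of_forall fun ε _ _ hne => absurd hac hne
    have ecast : ∀ x y : Fin n, x ≠ y → ((y : ℕ) : ℝ) - (x : ℕ) ≠ 0 := by
      intro x y hxy hh
      apply hxy
      apply Fin.ext
      have : ((y : ℕ) : ℝ) = (x : ℕ) := by linarith
      exact_mod_cast this.symm
    have e1 := ecast a b hab
    have e2 := ecast a c hac
    have e3 := ecast b c hbc
    have hc2 : (((b : ℕ) : ℝ) - (a : ℕ)) * (((c : ℕ) : ℝ) - (a : ℕ)) * (((c : ℕ) : ℝ) - (b : ℕ)) ≠ 0 :=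
      mul_ne_zero (mul_ne_zero e1 e2) e3
    filter_upwards [quad_ne (c0 := orient (p a) (p b) (p c))
      (c1 := ((b : ℕ) - (a : ℕ)) * ((p c).2 - (p a).2) + ((p b).1 - (p a).1) *
        (((c : ℕ) : ℝ) ^ 2 - ((a : ℕ) : ℝ) ^ 2) - ((c : ℕ) - (a : ℕ)) * ((p b).2 - (p a).2) -
        ((p c).1 - (p a).1) * (((b : ℕ) : ℝ) ^ 2 - ((a : ℕ) : ℝ) ^ 2)) hc2] with ε hε _ _ _
    intro hh
    apply hε
    rw [← hh]
    simp only [orient, P]
    ring
  have h2 : ∀ w ∈ ev, ∀ᶠ ε : ℝ in 𝓝[>] 0, (P ε w.1).1 < (P ε w.2).1 := by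
    intro w hw
    have hc : Continuous fun ε => (P ε w.2).1 - (P ε w.1).1 := by
      simp only [P]; fun_prop
    have h0 : 0 < (P 0 w.2).1 - (P 0 w.1).1 := by
      rw [hP0, hP0]; exact sub_pos.2 (h w hw).1
    have := (hc.continuousAt.eventually (eventually_gt_nhds h0)).filter_mono
      (nhdsWithin_le_nhds (s := Set.Ioi 0))
    filter_upwards [this] with ε hε
    exact sub_pos.1 hε
  have h3 : ∀ w ∈ ev, ∀ k, ∀ᶠ ε : ℝ in 𝓝[>] 0,
      (orient (P ε w.1) (P ε w.2) (P ε k) < 0 ↔ orient (p w.1) (p w.2) (p k) < 0) := by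
    intro w hw k
    by_cases hk1 : k = w.1
    · subst hk1
      refine Filter.Eventually.of_forall fun ε => ?_
      have e1 : ∀ a b : ℝ × ℝ, orient a b a = 0 := by intro a b; simp only [orient]; ring
      rw [e1, e1]
    by_cases hk2 : k = w.2
    · subst hk2
      refine Filter.Eventually.of_forall fun ε => ?_
      have e1 : ∀ a b : ℝ × ℝ, orient a b b = 0 := by intro a b; simp only [orient]; ring
      rw [e1, e1]
    have hne := (h w hw).2 k hk1 hk2
    have e0 : orient (P 0 w.1) (P 0 w.2) (P 0 k) = orient (p w.1) (p w.2) (p k) := by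
      rw [hP0, hP0, hP0]
    rcases lt_or_gt_of_ne hne with hlt | hgt
    · have hlt' : orient (P 0 w.1) (P 0 w.2) (P 0 k) < 0 := by rw [e0]; exact hlt
      have := ((hcont w.1 w.2 k).continuousAt.eventually
        (eventually_lt_nhds hlt')).filter_mono (nhdsWithin_le_nhds (s := Set.Ioi 0))
      filter_upwards [this] with ε hε
      exact ⟨fun _ => hlt, fun _ => hε⟩
    · have hgt' : 0 < orient (P 0 w.1) (P 0 w.2) (P 0 k) := by rw [e0]; exact hgt
      have := ((hcont w.1 w.2 k).continuousAt.eventually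
        (eventually_gt_nhds hgt')).filter_mono (nhdsWithin_le_nhds (s := Set.Ioi 0))
      filter_upwards [this] with ε hε
      exact ⟨fun hh => absurd hh (not_lt.2 hε.le), fun hh => absurd hh (not_lt.2 hgt.le)⟩
  have H1 : ∀ᶠ ε : ℝ in 𝓝[>] 0, ∀ a b c : Fin n, (a ≠ b → b ≠ c → a ≠ c →
      orient (P ε a) (P ε b) (P ε c) ≠ 0) := by
    rw [Filter.eventually_all]; intro a
    rw [Filter.eventually_all]; intro b
    rw [Filter.eventually_all]; intro c
    exact h1 a b c
  have H2 : ∀ᶠ ε : ℝ in 𝓝[>] 0, ∀ w ∈ ev, (P ε w.1).1 < (P ε w.2).1 :=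
    (Filter.eventually_all_finset ev).2 h2
  have H3 : ∀ᶠ ε : ℝ in 𝓝[>] 0, ∀ w ∈ ev, ∀ k,
      (orient (P ε w.1) (P ε w.2) (P ε k) < 0 ↔ orient (p w.1) (p w.2) (p k) < 0) := by
    rw [Filter.eventually_all_finset]
    intro w hw
    rw [Filter.eventually_all]
    exact h3 w hw
  obtain ⟨ε, h1, h2, h3⟩ := (H1.and (H2.and H3)).exists
  exact ⟨P ε, h1, fun w hw => ⟨h2 w hw, h3 w hw⟩⟩

open scoped Classical in
/-- (W3), first form -/
theorem Weak.genPos {n M : ℕ} (h : Weak n M) : ∃ p : Fin n → ℝ × ℝ,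
    (∀ a b c, a ≠ b → b ≠ c → a ≠ c → orient (p a) (p b) (p c) ≠ 0) ∧
    ∃ ev : Finset (Fin n × Fin n), M ≤ ev.card ∧ ∀ w ∈ ev, (p w.1).1 < (p w.2).1 ∧
      2 * (univ.filter fun k => orient (p w.1) (p w.2) (p k) < 0).card + 2 = n := by
  obtain ⟨p, ev, hM, h⟩ := h
  obtain ⟨p', h1, h2⟩ := perturb p ev (fun w hw => ⟨(h w hw).1, (h w hw).2.1⟩)
  refine ⟨p', h1, ev, hM, fun w hw => ⟨(h2 w hw).1, ?_⟩⟩
  simp only [(h2 w hw).2]
  exact (h w hw).2.2

open scoped Classical in
theorem Lev.genPos {n lam M : ℕ} (h : Lev (Fin n) lam M) : ∃ p : Fin n → ℝ × ℝ,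
    (∀ a b c, a ≠ b → b ≠ c → a ≠ c → orient (p a) (p b) (p c) ≠ 0) ∧
    ∃ ev : Finset (Fin n × Fin n), M ≤ ev.card ∧ ∀ w ∈ ev, (p w.1).1 < (p w.2).1 ∧
      (univ.filter fun k => orient (p w.1) (p w.2) (p k) < 0).card = lam := by
  obtain ⟨p, ev, hM, h⟩ := h
  obtain ⟨p', h1, h2⟩ := perturb p ev (fun w hw => ⟨(h w hw).1, (h w hw).2.1⟩)
  refine ⟨p', h1, ev, hM, fun w hw => ⟨(h2 w hw).1, ?_⟩⟩
  simp only [(h2 w hw).2]
  exact (h w hw).2.2

/-- the set `s` of two points spans a halving line of `P` : a line through two points `a, b` of `P`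
with exactly `(|P| - 2) / 2` points of `P` strictly on each side -/
def IsHalvingPair (P : Finset (ℝ × ℝ)) (s : Finset (ℝ × ℝ)) : Prop :=
  ∃ a ∈ P, ∃ b ∈ P, a ≠ b ∧ s = {a, b} ∧
    2 * {c | c ∈ P ∧ 0 < orient a b c}.ncard + 2 = P.card ∧
    2 * {c | c ∈ P ∧ orient a b c < 0}.ncard + 2 = P.card

theorem orient_eq_zero_of_collinear {a b c : ℝ × ℝ} (h : Collinear ℝ {a, b, c}) :
    orient a b c = 0 := by
  rw [collinear_iff_of_mem (p₀ := a) (by simp)] at h
  obtain ⟨v, h⟩ := h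
  obtain ⟨r, hb⟩ := h b (by simp)
  obtain ⟨s, hc⟩ := h c (by simp)
  rw [hb, hc]
  simp only [orient, vadd_eq_add, Prod.fst_add, Prod.snd_add, Prod.smul_fst, Prod.smul_snd,
    smul_eq_mul]
  ring

theorem Weak.finset {n M : ℕ} (h : Weak n M) (hn : 3 ≤ n) : ∃ P : Finset (ℝ × ℝ), P.card = n ∧
    (∀ a ∈ P, ∀ b ∈ P, ∀ c ∈ P, a ≠ b → b ≠ c → a ≠ c → ¬ Collinear ℝ {a, b, c}) ∧
    M ≤ {s : Finset (ℝ × ℝ) | IsHalvingPair P s}.ncard := by
  classical
  obtain ⟨p, hgp, ev, hM, h⟩ := h.genPos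
  have hinj : Function.Injective p := by
    intro a b hab
    by_contra hne
    obtain ⟨c, hca, hcb⟩ : ∃ c : Fin n, c ≠ a ∧ c ≠ b := by
      by_contra hcon
      push Not at hcon
      have : (univ : Finset (Fin n)) ⊆ {a, b} := by
        intro c _
        by_cases hc : c = a
        · simp [hc]
        · simp [hcon c hc]
      have h2 := card_le_card this
      rw [card_univ, Fintype.card_fin] at h2
      have h3 := card_le_two (a := a) (b := b)
      omega
    refine hgp a b c hne (Ne.symm hcb) (Ne.symm hca) ?_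
    rw [hab]
    simp only [orient]
    ring
  let P : Finset (ℝ × ℝ) := univ.map ⟨p, hinj⟩
  have hcard : P.card = n := by simp [P]
  have hmem : ∀ x, x ∈ P ↔ ∃ i, p i = x := by intro x; simp [P]
  refine ⟨P, hcard, ?_, ?_⟩
  · intro a ha b hb c hc hab hbc hac hcol
    obtain ⟨i, rfl⟩ := (hmem a).1 ha
    obtain ⟨j, rfl⟩ := (hmem b).1 hb
    obtain ⟨k, rfl⟩ := (hmem c).1 hc
    exact hgp i j k (fun hh => hab (by rw [hh])) (fun hh => hbc (by rw [hh]))
      (fun hh => hac (by rw [hh])) (orient_eq_zero_of_collinear hcol)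
  · have hfin : {s : Finset (ℝ × ℝ) | IsHalvingPair P s}.Finite := by
      refine (P.powerset : Finset (Finset (ℝ × ℝ))).finite_toSet.subset ?_
      rintro s ⟨a, ha, b, hb, -, rfl, -⟩
      rw [mem_coe, mem_powerset]
      intro x hx
      rw [mem_insert, mem_singleton] at hx
      rcases hx with rfl | rfl
      · exact ha
      · exact hb
    have hmap : (↑(ev.image fun w => ({p w.1, p w.2} : Finset (ℝ × ℝ))) : Set (Finset (ℝ × ℝ))) ⊆
        {s | IsHalvingPair P s} := by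
      intro s hs
      rw [mem_coe, mem_image] at hs
      obtain ⟨w, hw, rfl⟩ := hs
      obtain ⟨h1, h2⟩ := h w hw
      have hne : w.1 ≠ w.2 := by
        intro hh; rw [hh] at h1; exact lt_irrefl _ h1
      have c1 : {c | c ∈ P ∧ orient (p w.1) (p w.2) c < 0}.ncard =
          (univ.filter fun k => orient (p w.1) (p w.2) (p k) < 0).card := by
        rw [← Set.ncard_coe_finset, ← Set.ncard_image_of_injective _ hinj]
        congr 1
        ext x
        simp only [Set.mem_ofPred_eq, Set.mem_image, mem_coe, mem_filter, mem_univ, true_and, hmem]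
        constructor
        · rintro ⟨⟨k, rfl⟩, hk⟩; exact ⟨k, hk, rfl⟩
        · rintro ⟨k, hk, rfl⟩; exact ⟨⟨k, rfl⟩, hk⟩
      have c2 : {c | c ∈ P ∧ 0 < orient (p w.1) (p w.2) c}.ncard =
          (univ.filter fun k => 0 < orient (p w.1) (p w.2) (p k)).card := by
        rw [← Set.ncard_coe_finset, ← Set.ncard_image_of_injective _ hinj]
        congr 1
        ext x
        simp only [Set.mem_ofPred_eq, Set.mem_image, mem_coe, mem_filter, mem_univ, true_and, hmem]
        constructor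
        · rintro ⟨⟨k, rfl⟩, hk⟩; exact ⟨k, hk, rfl⟩
        · rintro ⟨k, hk, rfl⟩; exact ⟨⟨k, rfl⟩, hk⟩
      -- the total count
      have c3 : (univ.filter fun k => 0 < orient (p w.1) (p w.2) (p k)).card +
          (univ.filter fun k => orient (p w.1) (p w.2) (p k) < 0).card + 2 = n := by
        have e1 : (univ : Finset (Fin n)) = (univ.filter fun k => 0 < orient (p w.1) (p w.2) (p k)) ∪
            (univ.filter fun k => orient (p w.1) (p w.2) (p k) < 0) ∪ {w.1, w.2} := by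
          ext k
          simp only [mem_univ, true_iff, mem_union, mem_filter, true_and, mem_insert, mem_singleton]
          by_cases hk1 : k = w.1
          · exact Or.inr (Or.inl hk1)
          by_cases hk2 : k = w.2
          · exact Or.inr (Or.inr hk2)
          have := hgp w.1 w.2 k hne (Ne.symm hk2) (Ne.symm hk1)
          rcases lt_or_gt_of_ne this with hh | hh
          · exact Or.inl (Or.inr hh)
          · exact Or.inl (Or.inl hh)
        have z1 : ∀ a b : ℝ × ℝ, orient a b a = 0 := by intro a b; simp only [orient]; ring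
        have z2 : ∀ a b : ℝ × ℝ, orient a b b = 0 := by intro a b; simp only [orient]; ring
        have d1 : Disjoint ((univ.filter fun k => 0 < orient (p w.1) (p w.2) (p k)))
            (univ.filter fun k => orient (p w.1) (p w.2) (p k) < 0) := by
          rw [Finset.disjoint_left]
          intro k hk hk'
          rw [mem_filter] at hk hk'
          exact lt_asymm hk.2 hk'.2
        have d2 : Disjoint ((univ.filter fun k => 0 < orient (p w.1) (p w.2) (p k)) ∪
            (univ.filter fun k => orient (p w.1) (p w.2) (p k) < 0)) {w.1, w.2} := by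
          rw [Finset.disjoint_left]
          intro k hk hk'
          rw [mem_insert, mem_singleton] at hk'
          rw [mem_union, mem_filter, mem_filter] at hk
          rcases hk' with rfl | rfl
          · rw [z1] at hk
            rcases hk with ⟨-, hk⟩ | ⟨-, hk⟩ <;> exact lt_irrefl _ hk
          · rw [z2] at hk
            rcases hk with ⟨-, hk⟩ | ⟨-, hk⟩ <;> exact lt_irrefl _ hk
        have e2 := congrArg Finset.card e1
        rw [card_univ, Fintype.card_fin, card_union_of_disjoint d2, card_union_of_disjoint d1,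
          card_pair hne] at e2
        omega
      refine ⟨p w.1, (hmem _).2 ⟨_, rfl⟩, p w.2, (hmem _).2 ⟨_, rfl⟩, fun hh => hne (hinj hh), rfl,
        ?_, ?_⟩
      · rw [c2, hcard]; omega
      · rw [c1, hcard]; omega
    have hinj2 : Set.InjOn (fun w : Fin n × Fin n => ({p w.1, p w.2} : Finset (ℝ × ℝ))) ev := by
      rintro ⟨a, b⟩ hw ⟨a', b'⟩ hw' hh
      have l1 : (p a).1 < (p b).1 := (h _ hw).1
      have l2 : (p a').1 < (p b').1 := (h _ hw').1
      simp only at hh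
      have m1 : p a ∈ ({p a', p b'} : Finset (ℝ × ℝ)) := by rw [← hh]; simp
      have m2 : p b ∈ ({p a', p b'} : Finset (ℝ × ℝ)) := by rw [← hh]; simp
      rw [mem_insert, mem_singleton] at m1 m2
      rcases m1 with m1 | m1 <;> rcases m2 with m2 | m2
      · rw [m1, m2] at l1; exact absurd l1 (lt_irrefl _)
      · rw [hinj m1, hinj m2]
      · rw [m1, m2] at l1; exact absurd l1 (not_lt.2 l2.le)
      · rw [m1, m2] at l1; exact absurd l1 (lt_irrefl _)
    calc M ≤ ev.card := hM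
      _ = (ev.image fun w => ({p w.1, p w.2} : Finset (ℝ × ℝ))).card :=
          (card_image_of_injOn hinj2).symm
      _ = (↑(ev.image fun w => ({p w.1, p w.2} : Finset (ℝ × ℝ))) : Set (Finset (ℝ × ℝ))).ncard :=
          (Set.ncard_coe_finset _).symm
      _ ≤ _ := Set.ncard_le_ncard hmap hfin

/-- (W4) : passing to all even `n` -/
theorem Weak.all_even {n' M' : ℕ} (h : Weak n' M') (hn' : 3 ≤ n') (hM' : 0 < M') (n : ℕ)
    (hn : Even n) (hnn : n' ≤ n) : ∃ m : ℕ, n ≤ 3 * (m * n') ∧ ∃ P : Finset (ℝ × ℝ), P.card = n ∧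
    (∀ a ∈ P, ∀ b ∈ P, ∀ c ∈ P, a ≠ b → b ≠ c → a ≠ c → ¬ Collinear ℝ {a, b, c}) ∧
    m * M' ≤ {s : Finset (ℝ × ℝ) | IsHalvingPair P s}.ncard := by
  obtain ⟨lam, hl, -⟩ := lev_of_weak h hM'
  -- `2 s + 1` the largest odd number with `(2 s + 1) n' ≤ n`
  obtain ⟨q, hq⟩ : ∃ q, q = n / n' := ⟨_, rfl⟩
  have hq1 : 1 ≤ q := by
    rw [hq]; exact (Nat.one_le_div_iff (by omega)).2 hnn
  have hq2 : q * n' ≤ n := by rw [hq]; exact Nat.div_mul_le_self n n'
  have hq3 : n < (q + 1) * n' := by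
    have h1 := Nat.div_add_mod n n'
    have h2 := Nat.mod_lt n (by omega : 0 < n')
    rw [← hq] at h1
    nlinarith
  obtain ⟨s, hs⟩ : ∃ s, s = (q - 1) / 2 := ⟨_, rfl⟩
  have hs1 : 2 * s + 1 ≤ q := by omega
  have hs2 : q + 1 ≤ 3 * (2 * s + 1) := by omega
  have h1 : (2 * s + 1) * n' ≤ n := le_trans (Nat.mul_le_mul_right _ hs1) hq2
  obtain ⟨k, hk⟩ : ∃ k, n = (2 * s + 1) * n' + 2 * k := by
    obtain ⟨c, hc⟩ := hn
    refine ⟨c - (2 * s + 1) * (lam + 1), ?_⟩
    have h2 : (2 * s + 1) * n' = 2 * ((2 * s + 1) * (lam + 1)) := by rw [← hl]; ring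
    rw [h2] at h1 ⊢
    omega
  have h2 := (h.copies s).add_even k
  rw [← hk] at h2
  refine ⟨2 * s + 1, ?_, h2.finset (by omega)⟩
  calc n ≤ (q + 1) * n' := hq3.le
    _ ≤ (3 * (2 * s + 1)) * n' := Nat.mul_le_mul_right _ hs2
    _ = _ := by ring

end Vale.Agent.P065
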