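import Vale.Agent.P065.Defs
import Vale.Agent.P065.Endgame

/-!
# P065 : from a good weighted configuration to all even `n`
-/

namespace Vale.Agent.P065

open Finset Topology

theorem Cfg.fh_orient {ι : Type} (U : Cfg ι) (w : ι × ι) (i : ι) (h : U.t w.1 < U.t w.2) :
    orient ((U.t w.1 : ℝ), U.e w.1) ((U.t w.2 : ℝ), U.e w.2) ((U.t i : ℝ), U.e i) =
      ((U.t w.2 : ℝ) - U.t w.1) * U.fh w i := by
  have h1 : ((U.t w.2 : ℝ) - U.t w.1) ≠ 0 := by
    have : (U.t w.1 : ℝ) < U.t w.2 := by exact_mod_cast h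
    exact (sub_pos.2 this).ne'
  simp only [orient, Cfg.fh, Cfg.tau]
  field_simp

theorem Cfg.Good.weak {ι : Type} [Fintype ι] {U : Cfg ι} {lam Δ D E N : ℕ}
    (h : U.Good lam Δ D E N) (hne : U.ev.Nonempty) :
    ∃ n, n ≤ 2 * U.wt ∧ 3 ≤ n + 1 ∧ U.wt ≤ n ∧ Weak n U.ev.card := by
  classical
  have hpos : ∀ w ∈ U.ev, (0 : ℝ) < (U.t w.2 : ℝ) - U.t w.1 := by
    intro w hw
    have : (U.t w.1 : ℝ) < U.t w.2 := by exact_mod_cast h.lt w hw
    exact sub_pos.2 this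
  have hsign : ∀ w ∈ U.ev, ∀ i,
      (orient ((U.t w.1 : ℝ), U.e w.1) ((U.t w.2 : ℝ), U.e w.2) ((U.t i : ℝ), U.e i) < 0 ↔
        U.fh w i < 0) := by
    intro w hw i
    rw [U.fh_orient w i (h.lt w hw)]
    constructor
    · intro hh
      by_contra hc
      push Not at hc
      have := mul_nonneg (hpos w hw).le hc
      linarith
    · intro hh
      exact mul_neg_of_pos_of_neg (hpos w hw) hh
  have hW := weak_of_weighted (fun i => (U.t i : ℝ)) U.e U.m U.ev lam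
    (fun w hw => by exact_mod_cast h.lt w hw) (fun w hw => ⟨h.m1 w hw, h.m2 w hw⟩)
    (by
      intro w hw i h1 h2
      show orient ((U.t w.1 : ℝ), U.e w.1) ((U.t w.2 : ℝ), U.e w.2) ((U.t i : ℝ), U.e i) ≠ 0
      rw [U.fh_orient w i (h.lt w hw)]
      refine mul_ne_zero (hpos w hw).ne' ?_
      intro hz
      have := h.c1 w hw i h1 h2
      rw [hz, abs_zero] at this
      have h3 := abs_nonneg (U.tau w i)
      linarith)
    (by
      intro w hw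
      have hb := h.bel w hw
      rw [Cfg.below] at hb
      rw [← hb]
      refine sum_congr rfl fun i _ => ?_
      have := hsign w hw i
      by_cases hc : U.fh w i < 0
      · rw [if_pos hc]
        simp only [this.2 hc, if_true]
      · rw [if_neg hc]
        have h5 : ¬ orient ((U.t w.1 : ℝ), U.e w.1) ((U.t w.2 : ℝ), U.e w.2) ((U.t i : ℝ), U.e i) < 0 :=
          fun hh => hc (this.1 hh)
        simp only [h5, if_false])
  obtain ⟨w, hw⟩ := hne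
  have hne' : w.1 ≠ w.2 := by
    intro hh
    have := h.lt w hw
    rw [hh] at this
    exact lt_irrefl _ this
  -- `lam + 2 ≤ wt`
  have hlam : lam + 2 ≤ U.wt := by
    have hb := h.bel w hw
    rw [Cfg.below] at hb
    have e1 : U.fh w w.1 = 0 := by simp [Cfg.fh, Cfg.tau]
    have e2 : U.fh w w.2 = 0 := by
      have : ((U.t w.2 : ℝ) - U.t w.1) ≠ 0 := (hpos w hw).ne'
      simp only [Cfg.fh, Cfg.tau]
      rw [div_self this]
      ring
    have h1 : U.wt = ∑ i, (if U.fh w i < 0 then U.m i else 0) +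
        ∑ i, (if U.fh w i < 0 then 0 else U.m i) := by
      rw [Cfg.wt, ← sum_add_distrib]
      refine sum_congr rfl fun i _ => ?_
      split_ifs <;> simp
    have h2 : 2 ≤ ∑ i, (if U.fh w i < 0 then 0 else U.m i) := by
      calc 2 = ∑ i ∈ ({w.1, w.2} : Finset ι), (if U.fh w i < 0 then 0 else U.m i) := by
            rw [sum_pair hne', e1, e2, if_neg (lt_irrefl _), if_neg (lt_irrefl _), h.m1 w hw, h.m2 w hw]
        _ ≤ _ := sum_le_sum_of_subset (subset_univ _)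
    rw [h1, hb]
    omega
  refine ⟨_, ?_, ?_, ?_, hW⟩
  · show U.wt + (U.wt - (2 * lam + 2)) + ((2 * lam + 2) - U.wt) ≤ 2 * U.wt
    omega
  · show 3 ≤ U.wt + (U.wt - (2 * lam + 2)) + ((2 * lam + 2) - U.wt) + 1
    omega
  · show U.wt ≤ U.wt + (U.wt - (2 * lam + 2)) + ((2 * lam + 2) - U.wt)
    omega

/-- the maximal number of halving lines of `n` points in general position -/
noncomputable def hmax (n : ℕ) : ℕ := sSup {k | ∃ P : Finset (ℝ × ℝ), P.card = n ∧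
  (∀ a ∈ P, ∀ b ∈ P, ∀ c ∈ P, a ≠ b → b ≠ c → a ≠ c → ¬ Collinear ℝ {a, b, c}) ∧
  k = {s : Finset (ℝ × ℝ) | IsHalvingPair P s}.ncard}

theorem hmax_bdd (n : ℕ) : BddAbove {k | ∃ P : Finset (ℝ × ℝ), P.card = n ∧
    (∀ a ∈ P, ∀ b ∈ P, ∀ c ∈ P, a ≠ b → b ≠ c → a ≠ c → ¬ Collinear ℝ {a, b, c}) ∧
    k = {s : Finset (ℝ × ℝ) | IsHalvingPair P s}.ncard} := by
  refine ⟨2 ^ n, ?_⟩
  rintro k ⟨P, hP, -, rfl⟩
  rw [← hP, ← card_powerset, ← Set.ncard_coe_finset]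
  refine Set.ncard_le_ncard ?_ (Finset.finite_toSet _)
  rintro s ⟨a, ha, b, hb, -, rfl, -⟩
  rw [mem_coe, mem_powerset]
  intro x hx
  rw [mem_insert, mem_singleton] at hx
  rcases hx with rfl | rfl
  · exact ha
  · exact hb

theorem hmax_attained (n : ℕ) (hn : 3 ≤ n) : ∃ P : Finset (ℝ × ℝ), P.card = n ∧
    (∀ a ∈ P, ∀ b ∈ P, ∀ c ∈ P, a ≠ b → b ≠ c → a ≠ c → ¬ Collinear ℝ {a, b, c}) ∧
    hmax n = {s : Finset (ℝ × ℝ) | IsHalvingPair P s}.ncard := by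
  have h0 : Weak n 0 := ⟨fun _ => 0, ∅, le_refl _, by simp⟩
  obtain ⟨P, h1, h2, -⟩ := h0.finset hn
  have hne : {k | ∃ P : Finset (ℝ × ℝ), P.card = n ∧
      (∀ a ∈ P, ∀ b ∈ P, ∀ c ∈ P, a ≠ b → b ≠ c → a ≠ c → ¬ Collinear ℝ {a, b, c}) ∧
      k = {s : Finset (ℝ × ℝ) | IsHalvingPair P s}.ncard}.Nonempty := ⟨_, P, h1, h2, rfl⟩
  exact Nat.sSup_mem hne (hmax_bdd n)

/-- (W4) in the form used by `asymp` -/
theorem Weak.le_hmax {n1 M1 : ℕ} (h : Weak n1 M1) (hn : 3 ≤ n1) (n : ℕ) (he : Even n) (hnn : n1 ≤ n) :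
    (n : ℝ) * M1 ≤ 3 * n1 * hmax n := by
  rcases Nat.eq_zero_or_pos M1 with rfl | hM
  · have : (0 : ℝ) ≤ 3 * n1 * hmax n := by positivity
    simpa using this
  obtain ⟨m, hm, P, hP1, hP2, hP3⟩ := h.all_even hn hM n he hnn
  have h1 : m * M1 ≤ hmax n :=
    hP3.trans (le_csSup (hmax_bdd n) ⟨P, hP1, hP2, rfl⟩)
  have h2 : n * M1 ≤ 3 * n1 * hmax n := by
    calc n * M1 ≤ 3 * (m * n1) * M1 := Nat.mul_le_mul_right _ hm
      _ = 3 * n1 * (m * M1) := by ring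
      _ ≤ _ := Nat.mul_le_mul_left _ h1
  exact_mod_cast h2

/-- from a good configuration to `hmax n` for all even `n` -/
theorem Cfg.Good.le_hmax {ι : Type} [Fintype ι] {U : Cfg ι} {lam Δ D E N : ℕ}
    (h : U.Good lam Δ D E N) (hne : U.ev.Nonempty) (hw : 3 ≤ U.wt) :
    ∃ n1 : ℕ, U.wt ≤ n1 ∧ n1 ≤ 2 * U.wt ∧ ∀ n : ℕ, Even n → n1 ≤ n →
      (n : ℝ) * U.ev.card ≤ 3 * n1 * hmax n := by
  obtain ⟨n1, h1, -, h3, h4⟩ := h.weak hne
  exact ⟨n1, h3, h1, fun n he hn => h4.le_hmax (by omega) n he hn⟩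

end Vale.Agent.P065
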