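import Vale.Agent.P065.SysDefs

/-! Row S3: the recursion (abstract in `Sy`, so that it does not depend on geometry). -/

namespace Vale.Agent.P065

/-- Inner induction: the `(m+1)`-fold power of one system. -/
theorem recursion_inner (Sy : ℝ → ℝ → ℝ → ℝ → ℝ → Prop) (C l0 : ℝ) (hC : 1 ≤ C)
    (hcomp : ∀ F L K T P F' L' K' T' P' : ℝ,
      Sy F L K T P → Sy F' L' K' T' P' →
      Sy (F + F' + 2 * K + T' + C) (L + L' - l0) (K + K' + C)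
        (T + C * (P + T' + K + 1)) (C * (T' + K + 1)))
    {F L K T P : ℝ} (h : Sy F L K T P) (hF : 0 ≤ F) (hK : 0 ≤ K) (hT : 0 ≤ T) (hP : 0 ≤ P)
    (J : ℕ) : ∀ m : ℕ, m + 1 ≤ J → ∃ Fm Lm Km Tm Pm : ℝ, Sy Fm Lm Km Tm Pm ∧
      0 ≤ Fm ∧ 0 ≤ Km ∧ 0 ≤ Tm ∧ 0 ≤ Pm ∧ Km ≤ (m + 1) * (K + C) ∧
      Lm = l0 + (m + 1) * (L - l0) ∧ Pm ≤ P + C * (T + J * (K + C) + 1) ∧
      Fm ≤ (m + 1) * (F + (2 * (J * (K + C)) + T + C)) ∧
      Tm ≤ T + m * (C * (P + C * (T + J * (K + C) + 1) + T + J * (K + C) + 1)) := by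
  intro m
  induction m with
  | zero =>
    intro hJ
    have hJ' : (1 : ℝ) ≤ J := by exact_mod_cast hJ
    have h1 : 0 ≤ (J : ℝ) * (K + C) := by positivity
    refine ⟨F, L, K, T, P, h, hF, hK, hT, hP, ?_, ?_, ?_, ?_, ?_⟩
    · push_cast; linarith
    · push_cast; ring
    · have : 0 ≤ C * (T + J * (K + C) + 1) := by positivity
      linarith
    · push_cast; linarith
    · push_cast; linarith
  | succ m ih =>
    intro hJ
    obtain ⟨Fm, Lm, Km, Tm, Pm, hS, pF, pK, pT, pP, bK, bL, bP, bF, bT⟩ := ih (by omega)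
    have hJ' : (m : ℝ) + 1 + 1 ≤ J := by exact_mod_cast hJ
    have hC0 : 0 ≤ C := by linarith
    have hKC : 0 ≤ K + C := by linarith
    have hKJ : Km ≤ J * (K + C) :=
      bK.trans (mul_le_mul_of_nonneg_right (by linarith) hKC)
    refine ⟨_, _, _, _, _, hcomp _ _ _ _ _ _ _ _ _ _ hS h, by positivity, by positivity,
      by positivity, by positivity, ?_, ?_, ?_, ?_, ?_⟩
    · push_cast
      linarith
    · rw [bL]
      push_cast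
      ring
    · have : C * (T + Km + 1) ≤ C * (T + J * (K + C) + 1) :=
        mul_le_mul_of_nonneg_left (by linarith) hC0
      linarith
    · push_cast
      linarith
    · have : C * (Pm + T + Km + 1) ≤
          C * (P + C * (T + J * (K + C) + 1) + T + J * (K + C) + 1) :=
        mul_le_mul_of_nonneg_left (by linarith) hC0
      push_cast
      linarith

/-- The numerical step. -/
theorem recursion_step (C : ℝ) (hC : 1 ≤ C) {F K T P J m : ℝ} (pF : 0 ≤ F) (pK : 0 ≤ K)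
    (pT : 0 ≤ T) (pP : 0 ≤ P) (hJ' : 1 ≤ J) (hm0 : 0 ≤ m) (hm' : m ≤ J) {Fm Km Tm Pm : ℝ}
    (cK : Km ≤ J * (K + C)) (cP : Pm ≤ P + C * (T + J * (K + C) + 1))
    (cF : Fm ≤ J * (F + (2 * (J * (K + C)) + T + C)))
    (cT : Tm ≤ T + m * (C * (P + C * (T + J * (K + C) + 1) + T + J * (K + C) + 1))) :
    Fm + Tm + Pm + J * (Km + C + 1) ≤
      (C ^ 2 + 2 * C + 6) * (J * (F + T + P + J * (K + C + 1))) := by
  have hC0 : 0 ≤ C := by linarith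
  have hJ0 : 0 ≤ J := by linarith
  set G : ℝ := F + T + P + J * (K + C + 1) with hG
  obtain ⟨Q, hQ⟩ : ∃ Q, Q = J * (K + C) := ⟨_, rfl⟩
  have hQ0 : 0 ≤ Q := by rw [hQ]; positivity
  have hGQ : G = F + T + P + (Q + J) := by rw [hG, hQ]; ring
  have hCQ : C ≤ Q := by
    rw [hQ]
    nlinarith
  rw [← hQ] at cK cP cF cT
  have hG0 : 0 ≤ G := by rw [hGQ]; linarith
  have hGJ : G ≤ J * G := by nlinarith
  have g1 : P + (T + Q + 1) ≤ G := by rw [hGQ]; linarith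
  have g2 : T + Q + 1 ≤ G := by linarith
  have e1 : Fm ≤ 3 * (J * G) := by
    refine cF.trans ?_
    have : F + (2 * Q + T + C) ≤ 3 * G := by rw [hGQ]; linarith
    calc J * (F + (2 * Q + T + C)) ≤ J * (3 * G) := mul_le_mul_of_nonneg_left this hJ0
      _ = 3 * (J * G) := by ring
  have e2 : Tm ≤ (1 + C + C ^ 2) * (J * G) := by
    refine cT.trans ?_
    have h0 := mul_le_mul_of_nonneg_left g2 hC0
    have h1 : P + C * (T + Q + 1) + T + Q + 1 ≤ G + C * G := by linarith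
    have h2 : C * (P + C * (T + Q + 1) + T + Q + 1) ≤ C * (G + C * G) :=
      mul_le_mul_of_nonneg_left h1 hC0
    have h3 : m * (C * (P + C * (T + Q + 1) + T + Q + 1)) ≤ m * (C * (G + C * G)) :=
      mul_le_mul_of_nonneg_left h2 hm0
    have h3' : m * (C * (G + C * G)) ≤ J * (C * (G + C * G)) :=
      mul_le_mul_of_nonneg_right hm' (by positivity)
    have h4 : J * (C * (G + C * G)) = (C + C ^ 2) * (J * G) := by ring
    have h5 : T ≤ J * G := by linarith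
    linarith
  have e3 : Pm ≤ C * (J * G) := by
    refine cP.trans ?_
    have h1 : P ≤ C * P := by nlinarith
    have h2 : C * (P + (T + Q + 1)) ≤ C * G := mul_le_mul_of_nonneg_left g1 hC0
    have h3 : C * G ≤ C * (J * G) := mul_le_mul_of_nonneg_left hGJ hC0
    linarith
  have e4 : J * (Km + C + 1) ≤ 2 * (J * G) := by
    have h1 : Km + C + 1 ≤ 2 * G := by rw [hGQ]; linarith
    calc J * (Km + C + 1) ≤ J * (2 * G) := mul_le_mul_of_nonneg_left h1 hJ0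
      _ = 2 * (J * G) := by ring
  have : (C ^ 2 + 2 * C + 6) * (J * G) = 3 * (J * G) + (1 + C + C ^ 2) * (J * G) +
    C * (J * G) + 2 * (J * G) := by ring
  linarith

/-- Row S3, uniform version. -/
theorem recursion' (Sy : ℝ → ℝ → ℝ → ℝ → ℝ → Prop) (C l0 : ℝ) (hC : 1 ≤ C) (_hl0 : 0 ≤ l0)
    (hcomp : ∀ F L K T P F' L' K' T' P' : ℝ,
      Sy F L K T P → Sy F' L' K' T' P' →
      Sy (F + F' + 2 * K + T' + C) (L + L' - l0) (K + K' + C)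
        (T + C * (P + T' + K + 1)) (C * (T' + K + 1)))
    (hmono : ∀ F L K T P F' K' T' P' : ℝ, F ≤ F' → K ≤ K' → T ≤ T' → P ≤ P' →
      Sy F L K T P → Sy F' L K' T' P')
    {F0 L0 K0 T0 P0 : ℝ} (h0 : Sy F0 L0 K0 T0 P0) (hL : l0 < L0) :
    ∃ C1 B0 c0 : ℝ, 1 ≤ C1 ∧ 0 < B0 ∧ 0 < c0 ∧ ∀ J : ℕ, 1 ≤ J → ∀ j : ℕ,
      ∃ F L K T P : ℝ, Sy F L K T P ∧ F ≤ (B0 * J) * (C1 * J) ^ j ∧
        l0 + c0 * (J : ℝ) ^ j ≤ L := by
  have hC0 : 0 ≤ C := by linarith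
  obtain ⟨F1, f1, f1'⟩ : ∃ F1, 0 ≤ F1 ∧ F0 ≤ F1 := ⟨max F0 0, le_max_right _ _, le_max_left _ _⟩
  obtain ⟨K1, k1, k1'⟩ : ∃ F1, 0 ≤ F1 ∧ K0 ≤ F1 := ⟨max K0 0, le_max_right _ _, le_max_left _ _⟩
  obtain ⟨T1, t1, t1'⟩ : ∃ F1, 0 ≤ F1 ∧ T0 ≤ F1 := ⟨max T0 0, le_max_right _ _, le_max_left _ _⟩
  obtain ⟨P1, p1, p1'⟩ : ∃ F1, 0 ≤ F1 ∧ P0 ≤ F1 := ⟨max P0 0, le_max_right _ _, le_max_left _ _⟩
  refine ⟨C ^ 2 + 2 * C + 6, F1 + T1 + P1 + (K1 + C + 1), L0 - l0, by linarith [sq_nonneg C],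
    by positivity, by linarith, fun J hJ j => ?_⟩
  have hJ' : (1 : ℝ) ≤ J := by exact_mod_cast hJ
  obtain ⟨B, hB⟩ : ∃ B : ℝ, B = F1 + T1 + P1 + J * (K1 + C + 1) := ⟨_, rfl⟩
  have hBB : B ≤ (F1 + T1 + P1 + (K1 + C + 1)) * J := by
    have : 0 ≤ F1 + T1 + P1 := by positivity
    rw [hB]
    nlinarith
  suffices H : ∃ F L K T P : ℝ, Sy F L K T P ∧ 0 ≤ F ∧ 0 ≤ K ∧ 0 ≤ T ∧ 0 ≤ P ∧
      F + T + P + J * (K + C + 1) ≤ B * ((C ^ 2 + 2 * C + 6) * J) ^ j ∧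
      L = l0 + (L0 - l0) * (J : ℝ) ^ j by
    obtain ⟨F, L, K, T, P, hS, pF, pK, pT, pP, b1, b2⟩ := H
    refine ⟨F, L, K, T, P, hS, ?_, b2.ge⟩
    have h1 : 0 ≤ (J : ℝ) * (K + C + 1) := by positivity
    have h2 : F ≤ B * ((C ^ 2 + 2 * C + 6) * J) ^ j := by linarith
    exact h2.trans (mul_le_mul_of_nonneg_right hBB (by positivity))
  induction j with
  | zero =>
    refine ⟨F1, L0, K1, T1, P1, hmono _ _ _ _ _ _ _ _ _ f1' k1' t1' p1' h0, f1, k1, t1, p1,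
      ?_, ?_⟩
    · rw [pow_zero, mul_one, hB]
    · rw [pow_zero]; ring
  | succ j ih =>
    obtain ⟨F, L, K, T, P, hS, pF, pK, pT, pP, b1, b2⟩ := ih
    obtain ⟨m, hm⟩ : ∃ m, m + 1 = J := ⟨J - 1, by omega⟩
    obtain ⟨Fm, Lm, Km, Tm, Pm, hSm, qF, qK, qT, qP, cK, cL, cP, cF, cT⟩ :=
      recursion_inner Sy C l0 hC hcomp hS pF pK pT pP J m hm.le
    have hmJ : (m : ℝ) + 1 = J := by exact_mod_cast hm
    rw [hmJ] at cK cL cF
    have hm' : (m : ℝ) ≤ J := by linarith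
    refine ⟨Fm, Lm, Km, Tm, Pm, hSm, qF, qK, qT, qP, ?_, ?_⟩
    · refine (recursion_step C hC pF pK pT pP hJ' (Nat.cast_nonneg m) hm' cK cP cF cT).trans ?_
      have e6 : B * ((C ^ 2 + 2 * C + 6) * J) ^ (j + 1) =
          (C ^ 2 + 2 * C + 6) * (J * (B * ((C ^ 2 + 2 * C + 6) * J) ^ j)) := by ring
      rw [e6]
      exact mul_le_mul_of_nonneg_left (mul_le_mul_of_nonneg_left b1 (by linarith)) (by positivity)
    · rw [cL, b2]
      ring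

/-- Row S3 -/
theorem recursion (Sy : ℝ → ℝ → ℝ → ℝ → ℝ → Prop) (C l0 : ℝ) (hC : 1 ≤ C) (hl0 : 0 ≤ l0)
    (hcomp : ∀ F L K T P F' L' K' T' P' : ℝ,
      Sy F L K T P → Sy F' L' K' T' P' →
      Sy (F + F' + 2 * K + T' + C) (L + L' - l0) (K + K' + C)
        (T + C * (P + T' + K + 1)) (C * (T' + K + 1)))
    (hmono : ∀ F L K T P F' K' T' P' : ℝ, F ≤ F' → K ≤ K' → T ≤ T' → P ≤ P' →
      Sy F L K T P → Sy F' L K' T' P')
    {F0 L0 K0 T0 P0 : ℝ} (h0 : Sy F0 L0 K0 T0 P0) (hL : l0 < L0) :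
    ∃ C1 : ℝ, 1 ≤ C1 ∧ ∀ J : ℕ, 1 ≤ J → ∃ B c : ℝ, 0 < B ∧ 0 < c ∧ ∀ j : ℕ,
      ∃ F L K T P : ℝ, Sy F L K T P ∧ F ≤ B * (C1 * J) ^ j ∧ l0 + c * (J : ℝ) ^ j ≤ L := by
  obtain ⟨C1, B0, c0, hC1, hB0, hc0, H⟩ := recursion' Sy C l0 hC hl0 hcomp hmono h0 hL
  refine ⟨C1, hC1, fun J hJ => ⟨B0 * J, c0, ?_, hc0, H J hJ⟩⟩
  have hJ' : (1 : ℝ) ≤ J := by exact_mod_cast hJ
  positivity

end Vale.Agent.P065
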