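import Vale.Agent.P065.SysComp
import Vale.Agent.P065.Recur
import Vale.Agent.P065.BaseCfg

/-! The family of good configurations (assembly of composition, recursion and base). -/

namespace Vale.Agent.P065

open Finset Classical

theorem Cfg.Good.card_le {ι : Type} [Fintype ι] {U : Cfg ι} {lam Δ D E N : ℕ}
    (h : U.Good lam Δ D E N) : U.ev.card ≤ U.wt ^ 2 := by
  have h1 : U.ev ⊆ (univ.filter fun i => U.m i = 1) ×ˢ (univ.filter fun i => U.m i = 1) := by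
    intro w hw
    rw [mem_product, mem_filter, mem_filter]
    exact ⟨⟨mem_univ _, h.m1 w hw⟩, ⟨mem_univ _, h.m2 w hw⟩⟩
  have h2 := card_le_card h1
  rw [card_product] at h2
  have h3 : (univ.filter fun i => U.m i = 1).card ≤ U.wt := by
    rw [card_eq_sum_ones, sum_filter]
    exact sum_le_sum fun i _ => by split_ifs with hi <;> omega
  calc U.ev.card ≤ _ := h2
    _ ≤ U.wt * U.wt := Nat.mul_le_mul h3 h3
    _ = U.wt ^ 2 := by ring

theorem sys_mono {F L K T P F' K' T' P' : ℝ} (hF : F ≤ F') (hK : K ≤ K') (hT : T ≤ T')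
    (hP : P ≤ P') (h : Sys F L K T P) : Sys F' L K' T' P' := by
  obtain ⟨n, M, Δ, D, E, N, h1, h2, h3, h4, h5, h6, h7, h8⟩ := h
  exact ⟨n, M, Δ, D, E, N, h1, h2, h3.trans hF, h4, h5.trans hK, h6.trans hT, h7.trans hT,
    h8.trans hP⟩

theorem sys_base : ∃ F L K T P : ℝ, Sys F L K T P ∧ Real.log (21 / 10) < L := by
  obtain ⟨n, M, Δ, D, E, N, h1, h2, h3⟩ := base_cfg
  have hn : (0 : ℝ) < n := by exact_mod_cast h2
  have hM : (0 : ℝ) < M := by
    have : 0 < M := by omega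
    exact_mod_cast this
  refine ⟨Real.log n, Real.log (M / n), Real.log Δ, max (Real.log D) (Real.log E), Real.log N,
    ⟨n, M, Δ, D, E, N, h1, h2, le_refl _, ?_, le_refl _, le_max_left _ _, le_max_right _ _,
      le_refl _⟩, ?_⟩
  · rw [Real.exp_log (div_pos hM hn)]
    rw [mul_div_cancel₀ _ hn.ne']
  · refine Real.log_lt_log (by norm_num) ?_
    rw [lt_div_iff₀ hn]
    have h4 : (22 * n : ℝ) < 10 * M := by exact_mod_cast h3
    linarith

/-- the family of configurations -/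
theorem good_family : ∃ C B0 c0 : ℝ, 1 ≤ C ∧ 0 < B0 ∧ 0 < c0 ∧ ∀ J : ℕ, 1 ≤ J → ∀ j : ℕ,
    ∃ (ι : Type) (_ : Fintype ι) (U : Cfg ι) (lam Δ D E N : ℕ), U.Good lam Δ D E N ∧
      3 ≤ U.wt ∧ Real.log (2 * (U.wt : ℝ)) ≤ (B0 * J) * (C * J) ^ j ∧
      2 * (U.wt : ℝ) * Real.exp (c0 * (J : ℝ) ^ j) ≤ U.ev.card := by
  obtain ⟨C, hC, hcomp⟩ := sys_comp
  obtain ⟨F0, L0, K0, T0, P0, h0, hL⟩ := sys_base
  obtain ⟨C1, B0, c0, hC1, hB0, hc0, H⟩ := recursion' Sys C (Real.log (21 / 10)) hC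
    (Real.log_nonneg (by norm_num)) hcomp
    (fun F L K T P F' K' T' P' a b c d e => sys_mono a b c d e) h0 hL
  refine ⟨C1, B0 + Real.log 2, c0, hC1, by positivity, hc0, fun J hJ j => ?_⟩
  obtain ⟨F, L, K, T, P, ⟨n, M, Δ, D, E, N, ⟨ι, hι, U, lam, hU, hn, hM⟩, h1, h2, h3, -⟩, hF, hLL⟩ :=
    H J hJ j
  have hn0 : (0 : ℝ) < n := by exact_mod_cast h1
  have hJ1 : (1 : ℝ) ≤ J := by exact_mod_cast hJ
  have hcJ : 0 < c0 * (J : ℝ) ^ j := by positivity
  have he : Real.exp (Real.log (21 / 10) + c0 * (J : ℝ) ^ j) ≤ Real.exp L :=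
    Real.exp_le_exp.2 hLL
  rw [Real.exp_add, Real.exp_log (by norm_num)] at he
  have h4 : (n : ℝ) * (21 / 10 * Real.exp (c0 * (J : ℝ) ^ j)) ≤ M :=
    (mul_le_mul_of_nonneg_left he hn0.le).trans h3
  have h5 : 1 ≤ Real.exp (c0 * (J : ℝ) ^ j) := Real.one_le_exp hcJ.le
  have h6 : (21 / 10 : ℝ) * n ≤ M := by nlinarith
  have h7 : M ≤ n ^ 2 := by
    have := hU.card_le
    rwa [hn, hM] at this
  have h8 : 3 ≤ n := by
    by_contra hlt
    have h9 : n ≤ 2 := by omega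
    have h10 : (M : ℝ) ≤ (n : ℝ) ^ 2 := by exact_mod_cast h7
    have h11 : (n : ℝ) ≤ 2 := by exact_mod_cast h9
    nlinarith
  refine ⟨ι, hι, U, lam, Δ, D, E, N, hU, by rw [hn]; exact h8, ?_, ?_⟩
  · rw [hn, Real.log_mul (by norm_num) hn0.ne']
    have b2 : 1 ≤ (J : ℝ) * (C1 * J) ^ j := by
      have : 1 ≤ (C1 * J) ^ j := one_le_pow₀ (by nlinarith)
      nlinarith
    have b3 : 0 ≤ Real.log 2 := Real.log_nonneg (by norm_num)
    nlinarith
  · rw [hn, hM]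
    nlinarith [mul_pos hn0 (Real.exp_pos (c0 * (J : ℝ) ^ j))]

end Vale.Agent.P065
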