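import Vale.Agent.P065.KSets

/-!
# P065 : the final reduction: a family of good configurations gives both lower bounds
-/

namespace Vale.Agent.P065

open Finset

theorem final_of_good (C : ℝ) (hC : 1 ≤ C) (J0 : ℕ)
    (H : ∀ J : ℕ, J0 ≤ J → ∃ B c : ℝ, 0 < B ∧ 0 < c ∧ ∀ j : ℕ,
      ∃ (ι : Type) (_ : Fintype ι) (U : Cfg ι) (lam Δ D E N : ℕ), U.Good lam Δ D E N ∧ 3 ≤ U.wt ∧
      Real.log (2 * (U.wt : ℝ)) ≤ B * (C * J) ^ j ∧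
      2 * (U.wt : ℝ) * Real.exp (c * (J : ℝ) ^ j) ≤ U.ev.card) :
    (∀ ε : ℝ, 0 < ε → ∃ n0 : ℕ, ∀ n : ℕ, n0 ≤ n → Even n → ∃ P : Finset (ℝ × ℝ), P.card = n ∧
      (∀ a ∈ P, ∀ b ∈ P, ∀ c ∈ P, a ≠ b → b ≠ c → a ≠ c → ¬ Collinear ℝ {a, b, c}) ∧
      (n : ℝ) * Real.exp ((Real.log n) ^ (1 - ε)) ≤
        {s : Finset (ℝ × ℝ) | IsHalvingPair P s}.ncard) ∧
    (∀ ε : ℝ, 0 < ε → ∃ k0 : ℕ, ∀ k : ℕ, k0 ≤ k → ∀ n : ℕ, 2 * k ≤ n →
      ∃ P : Finset (ℝ × ℝ), P.card = n ∧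
      (∀ a ∈ P, ∀ b ∈ P, ∀ c ∈ P, a ≠ b → b ≠ c → a ≠ c → ¬ Collinear ℝ {a, b, c}) ∧
      (n : ℝ) * Real.exp ((Real.log k) ^ (1 - ε)) ≤
        {S : Finset (ℝ × ℝ) | IsKSet P S k}.ncard) := by
  have H1 : ∀ J : ℕ, J0 ≤ J → ∃ B c : ℝ, 0 < B ∧ 0 < c ∧ ∀ j : ℕ, ∃ n1 M1 : ℕ, 0 < n1 ∧
      Real.log n1 ≤ B * (C * J) ^ j ∧ (n1 : ℝ) * Real.exp (c * (J : ℝ) ^ j) ≤ M1 ∧ 3 ≤ n1 ∧
      Weak n1 M1 := by
    intro J hJ
    obtain ⟨B, c, hB, hc, hH⟩ := H J hJ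
    refine ⟨B, c, hB, hc, fun j => ?_⟩
    obtain ⟨ι, _, U, lam, Δ, D, E, N, hU, h3, h4, h5⟩ := hH j
    have hne : U.ev.Nonempty := by
      rw [← card_pos]
      have h6 : (0 : ℝ) < 2 * (U.wt : ℝ) * Real.exp (c * (J : ℝ) ^ j) := by
        have : (0 : ℝ) < U.wt := by
          have : 0 < U.wt := by omega
          exact_mod_cast this
        positivity
      have h7 : (0 : ℝ) < U.ev.card := h6.trans_le h5
      exact_mod_cast h7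
    obtain ⟨n1, e1, -, e3, e4⟩ := hU.weak hne
    have hn1 : (0 : ℝ) < n1 := by
      have : 0 < n1 := by omega
      exact_mod_cast this
    have hle : (n1 : ℝ) ≤ 2 * (U.wt : ℝ) := by exact_mod_cast e1
    refine ⟨n1, U.ev.card, by omega, ?_, ?_, by omega, e4⟩
    · exact (Real.log_le_log hn1 hle).trans h4
    · exact (mul_le_mul_of_nonneg_right hle (Real.exp_pos _).le).trans h5
  constructor
  · intro ε hε
    obtain ⟨n0, hn0⟩ := asymp hmax C hC J0 (by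
      intro J hJ
      obtain ⟨B, c, hB, hc, hH⟩ := H1 J hJ
      refine ⟨B, c, hB, hc, fun j => ?_⟩
      obtain ⟨n1, M1, h1, h2, h3, h4, h5⟩ := hH j
      exact ⟨n1, M1, h1, h2, h3, fun n hn hle => h5.le_hmax h4 n hn hle⟩) ε hε
    refine ⟨max n0 3, fun n hn heven => ?_⟩
    obtain ⟨P, h1, h2, h3⟩ := hmax_attained n (le_trans (le_max_right _ _) hn)
    refine ⟨P, h1, h2, ?_⟩
    rw [← h3]
    exact hn0 n (le_trans (le_max_left _ _) hn) heven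
  · intro ε hε
    obtain ⟨k0, hk0⟩ := asympK C hC J0 (by
      intro J hJ
      obtain ⟨B, c, hB, hc, hH⟩ := H1 J hJ
      refine ⟨B, c, hB, hc, fun j => ?_⟩
      obtain ⟨n1, M1, h1, h2, h3, h4, h5⟩ := hH j
      exact ⟨n1, M1, h1, h2, h3, fun k n hk hn => h5.le_ekmax h4 k n hk hn⟩) ε hε
    refine ⟨max k0 2, fun k hk n hn => ?_⟩
    have h2k : 2 ≤ k := le_trans (le_max_right _ _) hk
    obtain ⟨P, h1, h2, h3⟩ := ekmax_attained n k (by omega)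
    refine ⟨P, h1, h2, ?_⟩
    rw [← h3]
    exact hk0 k (le_trans (le_max_left _ _) hk) n hn

end Vale.Agent.P065
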