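import Vale.Agent.P065.GadOff

/-! Row G3b: offset counts in the gadget. -/

namespace Vale.Agent.P065

open Finset Classical

variable {ι : Type} [Fintype ι]
variable {Q : Cfg ι} {lam Δ D E N A S Θ H : ℕ}

namespace OffCnt

theorem range_lt (n a c : ℕ) :
    ∑ k ∈ Finset.range n, (if k + 1 < a then c else 0) = min n (a - 1) * c := by
  induction n with
  | zero => simp
  | succ n ih =>
    rw [Finset.sum_range_succ, ih]
    by_cases h : n + 1 < a
    · rw [if_pos h, min_eq_left (by omega), min_eq_left (by omega)]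
      ring
    · rw [if_neg h, min_eq_right (by omega), min_eq_right (by omega)]
      ring

theorem range_ge (n b c : ℕ) :
    ∑ k ∈ Finset.range n, (if b ≤ k then c else 0) = (n - b) * c := by
  induction n with
  | zero => simp
  | succ n ih =>
    rw [Finset.sum_range_succ, ih]
    by_cases h : b ≤ n
    · have h1 : n + 1 - b = (n - b) + 1 := by omega
      rw [if_pos h, h1]
      ring
    · rw [if_neg h]
      have h1 : n - b = 0 := by omega
      have h2 : n + 1 - b = 0 := by omega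
      rw [h1, h2]
      ring

theorem fin_lt (n a c : ℕ) :
    ∑ k : Fin n, (if (k : ℕ) + 1 < a then c else 0) = min n (a - 1) * c := by
  rw [← range_lt]
  exact Fin.sum_univ_eq_sum_range (fun k => if k + 1 < a then c else 0) n

theorem fin_ge (n b c : ℕ) :
    ∑ k : Fin n, (if b ≤ (k : ℕ) then c else 0) = (n - b) * c := by
  rw [← range_ge]
  exact Fin.sum_univ_eq_sum_range (fun k => if b ≤ k then c else 0) n

/-- the column sum -/
theorem range_col (n a x y : ℕ) (ha : 1 ≤ a) :
    ∑ k ∈ Finset.range n, (if a < k + 1 then x else if a = k + 1 then y else 0)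
      = (n - a) * x + (if a ≤ n then y else 0) := by
  induction n with
  | zero =>
    have h1 : ¬ a ≤ 0 := by omega
    simp [h1]
  | succ n ih =>
    rw [Finset.sum_range_succ, ih]
    by_cases h : a < n + 1
    · have h1 : a ≤ n := by omega
      have h2 : a ≤ n + 1 := by omega
      have h3 : n + 1 - a = (n - a) + 1 := by omega
      rw [if_pos h, if_pos h1, if_pos h2, h3]
      ring
    · by_cases h2 : a = n + 1
      · have h1 : ¬ a ≤ n := by omega
        have h3 : a ≤ n + 1 := by omega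
        have h4 : n - a = 0 := by omega
        have h5 : n + 1 - a = 0 := by omega
        rw [if_neg h, if_pos h2, if_neg h1, if_pos h3, h4, h5]
        ring
      · have h1 : ¬ a ≤ n := by omega
        have h3 : ¬ a ≤ n + 1 := by omega
        have h4 : n - a = 0 := by omega
        have h5 : n + 1 - a = 0 := by omega
        rw [if_neg h, if_neg h2, if_neg h1, if_neg h3, h4, h5]

theorem abs_tsum_le (h : Q.Good lam Δ D E N) : |tsum Q| ≤ Q.wt * D := by
  unfold tsum Cfg.wt
  push_cast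
  rw [Finset.sum_mul]
  refine (Finset.abs_sum_le_sum_abs _ _).trans (Finset.sum_le_sum fun j _ => ?_)
  rw [abs_mul, Nat.abs_cast]
  exact mul_le_mul_of_nonneg_left (h.td j) (by positivity)

theorem tsum_nonneg (h : GPar Q lam Δ D E N A S Θ H) :
    0 ≤ (Q.wt : ℤ) * ((S : ℤ) - 1) + tsum Q := by
  have h1 := abs_le.mp (abs_tsum_le h.gQ)
  have h2 : (D : ℤ) ≤ (S : ℤ) - 1 := by
    have hS := h.hS
    have hA := h.hA
    have hD := h.gQ.posD
    have h3 : 1 * D ≤ A * D := Nat.mul_le_mul_right D hA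
    have h4 : 32 * A * D = 32 * (A * D) := by ring
    omega
  have h5 : (Q.wt : ℤ) * D ≤ (Q.wt : ℤ) * ((S : ℤ) - 1) :=
    mul_le_mul_of_nonneg_left h2 (by positivity)
  linarith [h1.1]

theorem one_le_S (h : GPar Q lam Δ D E N A S Θ H) : 1 ≤ S := by
  have hS := h.hS
  have hA := h.hA
  have hD := h.gQ.posD
  have h3 : 1 ≤ A * D := Nat.mul_pos hA hD
  have h4 : 32 * A * D = 32 * (A * D) := by ring
  omega

end OffCnt

/-- Row G3b: offsets below at the left endpoint -/
theorem g_off_count_a (h : GPar Q lam Δ D E N A S Θ H) {v} {α β : ℕ}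
    (hv : IsCopy Q A S D v α β) :
    ((∑ o, if (gad Q A S D E Θ).o o < (1 / (H : ℝ)) * (gad Q A S D E Θ).Y v
        + (1 / (Θ : ℝ)) * (gad Q A S D E Θ).X v then (gad Q A S D E Θ).wo o else 0 : ℕ) : ℤ)
      = Q.wt * A * (S - 1) + (α - 1) * (Q.wt * (S - 1) + tsum Q) := by
  have hS1 := OffCnt.one_le_S h
  have ho := g_oa h hv
  have hal := hv.1
  have hal2 := hv.2.1
  rw [Fintype.sum_sum_type]
  have e1 : (∑ k : Fin A × Fin (S - 1), if (gad Q A S D E Θ).o (Sum.inl k) <
      (1 / (H : ℝ)) * (gad Q A S D E Θ).Y v + (1 / (Θ : ℝ)) * (gad Q A S D E Θ).X v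
      then (gad Q A S D E Θ).wo (Sum.inl k) else 0) = A * (S - 1) * Q.wt := by
    rw [Finset.sum_congr rfl fun k _ => if_pos (ho.1 k)]
    simp [gad]
  have e2 : (∑ k : Fin (A - 1), if (gad Q A S D E Θ).o (Sum.inr k) <
      (1 / (H : ℝ)) * (gad Q A S D E Θ).Y v + (1 / (Θ : ℝ)) * (gad Q A S D E Θ).X v
      then (gad Q A S D E Θ).wo (Sum.inr k) else 0)
      = (α - 1) * ((Q.wt : ℤ) * ((S : ℤ) - 1) + tsum Q).toNat := by
    have h2 : min (A - 1) (α - 1) = α - 1 := min_eq_right (by omega)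
    rw [← h2, ← OffCnt.fin_lt]
    refine Finset.sum_congr rfl fun k _ => ?_
    simp only [ho.2.1 k]
    rfl
  rw [e1, e2]
  push_cast [Int.toNat_of_nonneg (OffCnt.tsum_nonneg h), Nat.cast_sub hS1, Nat.cast_sub hal]
  ring

/-- Row G3c: offsets below at the right endpoint -/
theorem g_off_count_c (h : GPar Q lam Δ D E N A S Θ H) {v} {α β : ℕ}
    (hv : IsCopy Q A S D v α β) :
    ((∑ o, if (gad Q A S D E Θ).o o < (1 / (H : ℝ)) * (gad Q A S D E Θ).Y v
        - (1 - 1 / (Θ : ℝ)) * (gad Q A S D E Θ).X v then (gad Q A S D E Θ).wo o else 0 : ℕ) : ℤ)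
      = Q.wt * (S - 1 - β) + Q.wt * (A - α) * (S - 1) := by
  have hS1 := OffCnt.one_le_S h
  have ho := g_oc h hv
  have hal := hv.1
  have hal2 := hv.2.1
  have hbe := hv.2.2.1
  rw [Fintype.sum_sum_type]
  have e2 : (∑ k : Fin (A - 1), if (gad Q A S D E Θ).o (Sum.inr k) <
      (1 / (H : ℝ)) * (gad Q A S D E Θ).Y v - (1 - 1 / (Θ : ℝ)) * (gad Q A S D E Θ).X v
      then (gad Q A S D E Θ).wo (Sum.inr k) else 0) = 0 := by
    rw [Finset.sum_congr rfl fun k _ => if_neg (ho.1 k)]
    simp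
  have e1 : (∑ k : Fin A × Fin (S - 1), if (gad Q A S D E Θ).o (Sum.inl k) <
      (1 / (H : ℝ)) * (gad Q A S D E Θ).Y v - (1 - 1 / (Θ : ℝ)) * (gad Q A S D E Θ).X v
      then (gad Q A S D E Θ).wo (Sum.inl k) else 0)
      = (A - α) * ((S - 1) * Q.wt) + (S - 1 - β) * Q.wt := by
    have h3 : (A - α) * ((S - 1) * Q.wt) + (S - 1 - β) * Q.wt =
        (A - α) * ((S - 1) * Q.wt) + (if α ≤ A then (S - 1 - β) * Q.wt else 0) := by
      rw [if_pos hal2]
    rw [h3, ← OffCnt.range_col A α ((S - 1) * Q.wt) ((S - 1 - β) * Q.wt) hal,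
      ← Fin.sum_univ_eq_sum_range (fun k => if α < k + 1 then (S - 1) * Q.wt
        else if α = k + 1 then (S - 1 - β) * Q.wt else 0) A, Fintype.sum_prod_type]
    refine Finset.sum_congr rfl fun a _ => ?_
    have h4 : ∀ b : Fin (S - 1), (if (gad Q A S D E Θ).o (Sum.inl (a, b)) <
      (1 / (H : ℝ)) * (gad Q A S D E Θ).Y v - (1 - 1 / (Θ : ℝ)) * (gad Q A S D E Θ).X v
      then (gad Q A S D E Θ).wo (Sum.inl (a, b)) else 0) =
      if (α < (a : ℕ) + 1 ∨ (α = (a : ℕ) + 1 ∧ β ≤ (b : ℕ))) then Q.wt else 0 := by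
      intro b
      simp only [ho.2.1 (a, b)]
      rfl
    rw [Finset.sum_congr rfl fun b _ => h4 b]
    by_cases h5 : α < (a : ℕ) + 1
    · rw [if_pos h5]
      rw [Finset.sum_congr rfl fun b _ => if_pos (Or.inl h5)]
      simp
    · rw [if_neg h5]
      by_cases h6 : α = (a : ℕ) + 1
      · rw [if_pos h6, ← OffCnt.fin_ge]
        refine Finset.sum_congr rfl fun b _ => ?_
        by_cases h7 : β ≤ (b : ℕ)
        · rw [if_pos h7, if_pos (Or.inr ⟨h6, h7⟩)]
        · rw [if_neg h7, if_neg]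
          rintro (h8 | ⟨_, h8⟩)
          · exact h5 h8
          · exact h7 h8
      · rw [if_neg h6]
        refine Finset.sum_eq_zero fun b _ => ?_
        rw [if_neg]
        rintro (h8 | ⟨h8, _⟩)
        · exact h5 h8
        · exact h6 h8
  rw [e1, e2]
  push_cast [Nat.cast_sub hS1, Nat.cast_sub hal2, Nat.cast_sub (show β ≤ S - 1 by omega)]
  ring

end Vale.Agent.P065
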