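import Vale.Agent.P065.GadLine
import Vale.Agent.P065.GadCard

/-! Row G3a: the light count in the gadget. -/

namespace Vale.Agent.P065

open Finset Classical

variable {ι : Type} [Fintype ι]
variable {Q : Cfg ι} {lam Δ D E N A S Θ H : ℕ}

theorem gh_fst {G κ : Type} (A : Gad G κ) (v : G × G) : A.gh v v.1 = 0 := by
  simp only [Gad.gh, Gad.Y]; ring

theorem gh_snd {G κ : Type} (A : Gad G κ) (v : G × G) (h : A.x v.1 < A.x v.2) :
    A.gh v v.2 = 0 := by
  have h' : A.x v.2 - A.x v.1 ≠ 0 := (sub_pos.mpr h).ne'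
  simp only [Gad.gh, Gad.Y, Gad.X]
  field_simp
  ring

theorem fh_zero_fst {ι : Type} (U : Cfg ι) (w : ι × ι) : U.fh w w.1 = 0 := by
  simp [Cfg.fh, Cfg.tau]

theorem fh_zero_snd {ι : Type} (U : Cfg ι) (w : ι × ι) (hw : U.t w.1 < U.t w.2) :
    U.fh w w.2 = 0 := by
  have h : (U.t w.1 : ℝ) < U.t w.2 := by exact_mod_cast hw
  have h' : ((U.t w.2 : ℝ) - U.t w.1) ≠ 0 := (sub_pos.mpr h).ne'
  simp [Cfg.fh, Cfg.tau, div_self h']

theorem sum_fin_lt (n M c : ℕ) (h : M ≤ n) :
    (∑ p : Fin n, if (p : ℕ) < M then c else 0) = M * c := by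
  rw [Fin.sum_univ_eq_sum_range (fun i => if i < M then c else 0) n, ← Finset.sum_filter]
  have : (Finset.range n).filter (fun i => i < M) = Finset.range M := by
    ext i
    simp only [Finset.mem_filter, Finset.mem_range]
    omega
  rw [this]
  simp

/-- when is a light point of column `j` below the event line -/
theorem gh_neg_iff (h : GPar Q lam Δ D E N A S Θ H) {v} {α β : ℕ} (hv : IsCopy Q A S D v α β)
    (g : ι × Fin (S + 2 * A * D)) :
    (gad Q A S D E Θ).gh v g < 0 ↔
      (g.2 : ℕ) < ((β : ℤ) - α * Q.t g.1 + A * D).toNat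
        + (if Q.fh (v.1.1, v.2.1) g.1 < 0 then 1 else 0) := by
  have hr := copy_range (Q := Q) (A := A) (S := S) h.gQ.td hv.2.1 hv.2.2.1 g.1
  obtain ⟨ho1, ho2, -⟩ := g_other h hv g
  have hK : (((β : ℤ) - α * Q.t g.1 + A * D).toNat : ℤ) = (β : ℤ) - α * Q.t g.1 + A * D :=
    Int.toNat_of_nonneg hr.1
  have hlt := h.gQ.lt _ hv.2.2.2.2.2
  rcases lt_trichotomy (gc A S D g) (β - α * Q.t g.1) with hc | hc | hc
  · have h1 : (g.2 : ℕ) < ((β : ℤ) - α * Q.t g.1 + A * D).toNat := by
      zify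
      rw [hK]
      simp only [gc] at hc
      linarith
    exact ⟨fun _ => by omega, fun _ => ho1 hc⟩
  · have h1 : (g.2 : ℕ) = ((β : ℤ) - α * Q.t g.1 + A * D).toNat := by
      zify
      rw [hK]
      simp only [gc] at hc
      linarith
    have key : (gad Q A S D E Θ).gh v g < 0 ↔ Q.fh (v.1.1, v.2.1) g.1 < 0 := by
      by_cases e1 : g.1 = v.1.1
      · have : g = v.1 := gc_inj e1 (by rw [hc, hv.2.2.2.1, e1])
        rw [this, gh_fst]
        have := fh_zero_fst Q (v.1.1, v.2.1)
        simp only at this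
        rw [this]
      · by_cases e2 : g.1 = v.2.1
        · have : g = v.2 := gc_inj e2 (by rw [hc, hv.2.2.2.2.1, e2])
          rw [this, gh_snd _ _ (by have := g_sep h hv; linarith)]
          have := fh_zero_snd Q (v.1.1, v.2.1) hlt
          simp only at this
          rw [this]
        · exact (g_same h hv g hc e1 e2).1
    rw [key, ← h1]
    by_cases hf : Q.fh (v.1.1, v.2.1) g.1 < 0
    · simp [hf]
    · simp [hf]
  · have h1 : ((β : ℤ) - α * Q.t g.1 + A * D).toNat < (g.2 : ℕ) := by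
      zify
      rw [hK]
      simp only [gc] at hc
      linarith
    have h2 := ho2 hc
    constructor
    · intro h3; exact absurd h3 (not_lt.mpr h2.le)
    · intro h3
      exfalso
      split_ifs at h3 <;> omega

/-- Row G3a: number of light points below the event line -/
theorem g_light_count (h : GPar Q lam Δ D E N A S Θ H) {v} {α β : ℕ}
    (hv : IsCopy Q A S D v α β) :
    ((∑ g, if (gad Q A S D E Θ).gh v g < 0 then (gad Q A S D E Θ).m g else 0 : ℕ) : ℤ)
      = Q.wt * (β + A * D) - α * tsum Q + lam := by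
  have hr := fun j => copy_range (Q := Q) (A := A) (S := S) h.gQ.td hv.2.1 hv.2.2.1 j
  have hbel := h.gQ.bel _ hv.2.2.2.2.2
  have h1 : (∑ g, if (gad Q A S D E Θ).gh v g < 0 then (gad Q A S D E Θ).m g else 0 : ℕ)
      = ∑ j, (((β : ℤ) - α * Q.t j + A * D).toNat
        + (if Q.fh (v.1.1, v.2.1) j < 0 then 1 else 0)) * Q.m j := by
    rw [Fintype.sum_prod_type]
    refine Finset.sum_congr rfl fun j _ => ?_
    have hle : ((β : ℤ) - α * Q.t j + A * D).toNat
        + (if Q.fh (v.1.1, v.2.1) j < 0 then 1 else 0) ≤ S + 2 * A * D := by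
      have h2 : ((β : ℤ) - α * Q.t j + A * D).toNat < S + 2 * A * D := by
        zify
        rw [Int.toNat_of_nonneg (hr j).1]
        push_cast
        exact (hr j).2
      split_ifs <;> omega
    rw [← sum_fin_lt _ _ _ hle]
    refine Finset.sum_congr rfl fun p _ => ?_
    have := gh_neg_iff h hv (j, p)
    simp only [gad] at this ⊢
    simp only [this]
  rw [h1]
  push_cast
  have h3 : ∀ j, (((((β : ℤ) - α * Q.t j + A * D).toNat : ℤ)
        + (if Q.fh (v.1.1, v.2.1) j < 0 then 1 else 0)) * (Q.m j : ℤ))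
      = (Q.m j : ℤ) * (β + A * D) - α * ((Q.m j : ℤ) * Q.t j)
        + (if Q.fh (v.1.1, v.2.1) j < 0 then (Q.m j : ℤ) else 0) := by
    intro j
    rw [Int.toNat_of_nonneg (hr j).1]
    split_ifs <;> ring
  rw [Finset.sum_congr rfl fun j _ => h3 j, Finset.sum_add_distrib, Finset.sum_sub_distrib,
    ← Finset.sum_mul, ← Finset.mul_sum]
  have h4 : (∑ j, if Q.fh (v.1.1, v.2.1) j < 0 then (Q.m j : ℤ) else 0) = lam := by
    rw [← hbel, Cfg.below]
    push_cast
    rfl
  rw [h4, tsum, Cfg.wt]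
  push_cast
  rfl

end Vale.Agent.P065
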