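import Vale.Agent.P065.Defs

/-! The gadget built from a configuration `Q` (lattice stack). -/

namespace Vale.Agent.P065

open Finset Classical

variable {ι : Type} [Fintype ι]

/-- `Z = 1 / ζ` -/
def zz (D E S : ℕ) : ℕ := 1024 * E * S * D ^ 2

/-- height index of a light point: column `p.1`, integer height `p.2 - A D` -/
def gc (A S D : ℕ) (p : ι × Fin (S + 2 * A * D)) : ℤ := (p.2 : ℤ) - A * D

/-- `∑ m_j t_j` -/
def tsum (Q : Cfg ι) : ℤ := ∑ j, (Q.m j : ℤ) * Q.t j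

/-- `(g1, g2)` is the copy `(α, β)` of the event of `Q` in the columns `g1.1, g2.1` -/
def IsCopy (Q : Cfg ι) (A S D : ℕ) (v : (ι × Fin (S + 2 * A * D)) × (ι × Fin (S + 2 * A * D)))
    (α β : ℕ) : Prop :=
  1 ≤ α ∧ α ≤ A ∧ β < S ∧ gc A S D v.1 = β - α * Q.t v.1.1 ∧ gc A S D v.2 = β - α * Q.t v.2.1 ∧
    (v.1.1, v.2.1) ∈ Q.ev

/-- The gadget of `Q`. -/
noncomputable def gad (Q : Cfg ι) (A S D E Θ : ℕ) :
    Gad (ι × Fin (S + 2 * A * D)) ((Fin A × Fin (S - 1)) ⊕ Fin (A - 1)) where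
  Z := zz D E S
  xz := fun p => (zz D E S : ℤ) * Q.t p.1 - (Q.t p.1) ^ 2
  y := fun p => (1 - (1 / (zz D E S : ℝ)) * Q.t p.1) * (gc A S D p : ℝ)
    + (1 / (64 * E * zz D E S : ℝ)) * Q.e p.1
  m := fun p => Q.m p.1
  ev := Finset.univ.filter (fun v => ∃ α β : ℕ, IsCopy Q A S D v α β)
  o := fun k => match k with
    | Sum.inl (a, b) => -((1 - 1 / (Θ : ℝ)) * (((a : ℕ) : ℝ) + 1
        + (1 / (zz D E S : ℝ)) * (((b : ℕ) : ℝ) + 1 / 2)))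
    | Sum.inr a => (1 / (Θ : ℝ)) * (((a : ℕ) : ℝ) + 1 + 3 / 4)
  wo := fun k => match k with
    | Sum.inl _ => Q.wt
    | Sum.inr _ => ((Q.wt : ℤ) * ((S : ℤ) - 1) + tsum Q).toNat

/-- standing assumptions -/
structure GPar (Q : Cfg ι) (lam Δ D E N A S Θ H : ℕ) : Prop where
  gQ : Q.Good lam Δ D E N
  hA : 1 ≤ A
  hS : 32 * A * D ≤ S
  hΘ : 16 ≤ Θ
  hH : 16 * zz D E S * Θ * (8 * S) ≤ H

/-- the constant of the gadget -/
def gLam (Q : Cfg ι) (lam A S D : ℕ) : ℕ :=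
  (2 * (Q.wt : ℤ) * A * (S - 1) + Q.wt * A * D + lam - tsum Q).toNat

end Vale.Agent.P065
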