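import Vale.Agent.P065.GadDefs

/-! Row G1c: light points on the same copy of the gadget. -/

namespace Vale.Agent.P065

open Finset Classical

theorem same_core {ζ ξ E D t1 t2 tg e1 e2 eg : ℝ} (hζ : 0 ≤ ζ) (hζD : ζ * D ≤ 1 / 1024)
    (hζDE : ζ * D * E ≤ 1 / 1024) (hξ : 0 ≤ ξ) (hξD : ξ * D ^ 2 ≤ 1 / 16) (hD : 1 ≤ D)
    (h12 : t1 < t2) (h1 : |t1| ≤ D) (h2 : |t2| ≤ D) (hg : |tg| ≤ D)
    (he1 : |e1| ≤ E) (he2 : |e2| ≤ E) :
    |((tg - ζ * tg ^ 2) - (t1 - ζ * t1 ^ 2)) / ((t2 - ζ * t2 ^ 2) - (t1 - ζ * t1 ^ 2))|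
      ≤ 2 * |(tg - t1) / (t2 - t1)| ∧
    |((eg - ξ * tg ^ 2) - (e1 - ξ * t1 ^ 2)
      - ((tg - ζ * tg ^ 2) - (t1 - ζ * t1 ^ 2)) / ((t2 - ζ * t2 ^ 2) - (t1 - ζ * t1 ^ 2))
        * ((e2 - ξ * t2 ^ 2) - (e1 - ξ * t1 ^ 2)))
      - (eg - e1 - (tg - t1) / (t2 - t1) * (e2 - e1))| ≤ |(tg - t1) / (t2 - t1)| / 2 := by
  have a1 := abs_le.1 h1
  have a2 := abs_le.1 h2
  have ag := abs_le.1 hg
  have b1 := abs_le.1 he1
  have b2 := abs_le.1 he2
  have hs : 0 < t2 - t1 := by linarith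
  set s := t2 - t1 with hsdef
  set ρ := (tg - t1) / s with hρ
  have hρs : tg - t1 = ρ * s := by
    rw [hρ]; field_simp
  -- denominators
  set u := 1 - ζ * (t2 + t1) with hu
  have hu1 : 1 / 2 ≤ u := by
    have : ζ * (t2 + t1) ≤ ζ * (2 * D) := mul_le_mul_of_nonneg_left (by linarith) hζ
    rw [hu]; linarith
  have hu0 : 0 < u := by linarith
  have hx2 : (t2 - ζ * t2 ^ 2) - (t1 - ζ * t1 ^ 2) = s * u := by
    rw [hu, hsdef]; ring
  have hxg : (tg - ζ * tg ^ 2) - (t1 - ζ * t1 ^ 2) = ρ * s * (1 - ζ * (tg + t1)) := by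
    rw [← hρs]; ring
  set κ := ρ * ζ * (t2 - tg) / u with hκ
  have hρ' : ((tg - ζ * tg ^ 2) - (t1 - ζ * t1 ^ 2)) / ((t2 - ζ * t2 ^ 2) - (t1 - ζ * t1 ^ 2))
      = ρ + κ := by
    rw [hx2, hxg, hκ]
    field_simp
    rw [hu]
    ring
  have hκb : |κ| ≤ 4 * (ζ * D) * |ρ| := by
    rw [hκ, abs_div, abs_of_pos hu0, div_le_iff₀ hu0, abs_mul, abs_mul, abs_of_nonneg hζ]
    have h3 : |t2 - tg| ≤ 2 * D := by rw [abs_le]; constructor <;> linarith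
    have h4 : |ρ| * ζ * |t2 - tg| ≤ |ρ| * ζ * (2 * D) :=
      mul_le_mul_of_nonneg_left h3 (by positivity)
    have h5 : 4 * (ζ * D) * |ρ| * (1 / 2) ≤ 4 * (ζ * D) * |ρ| * u :=
      mul_le_mul_of_nonneg_left hu1 (by positivity)
    linarith
  have hκb2 : |κ| ≤ 1 / 256 * |ρ| := by
    refine hκb.trans (mul_le_mul_of_nonneg_right ?_ (abs_nonneg _))
    linarith
  rw [hρ']
  constructor
  · have := abs_add_le ρ κ
    linarith [abs_nonneg ρ]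
  · have key : (eg - ξ * tg ^ 2 - (e1 - ξ * t1 ^ 2) - (ρ + κ) * (e2 - ξ * t2 ^ 2 - (e1 - ξ * t1 ^ 2)))
        - (eg - e1 - ρ * (e2 - e1))
        = -(κ * (e2 - e1)) + -(ξ * (s * (ρ * (tg - t2) + -(κ * (t2 + t1))))) := by
      have htg : tg = ρ * s + t1 := by linarith
      have ht2 : t2 = s + t1 := by rw [hsdef]; ring
      have : ξ * tg ^ 2 - ξ * t1 ^ 2 = ξ * (ρ * s) * (tg + t1) := by rw [htg]; ring
      have h6 : (eg - ξ * tg ^ 2 - (e1 - ξ * t1 ^ 2)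
          - (ρ + κ) * (e2 - ξ * t2 ^ 2 - (e1 - ξ * t1 ^ 2)))
        - (eg - e1 - ρ * (e2 - e1)) = -(κ * (e2 - e1)) - (ξ * tg ^ 2 - ξ * t1 ^ 2)
          + (ρ + κ) * ξ * ((t2 - t1) * (t2 + t1)) := by ring
      rw [h6, this, ← hsdef]
      ring
    rw [key]
    refine (abs_add_le _ _).trans ?_
    rw [abs_neg, abs_neg, abs_mul, abs_mul, abs_mul, abs_of_nonneg hξ, abs_of_pos hs]
    have c1 : |e2 - e1| ≤ 2 * E := by rw [abs_le]; constructor <;> linarith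
    have c2 : |κ| * |e2 - e1| ≤ 4 * (ζ * D) * |ρ| * (2 * E) :=
      mul_le_mul hκb c1 (abs_nonneg _) (by positivity)
    have c3 : 4 * (ζ * D) * |ρ| * (2 * E) ≤ 1 / 128 * |ρ| := by
      have : 4 * (ζ * D) * |ρ| * (2 * E) = 8 * (ζ * D * E) * |ρ| := by ring
      rw [this]
      exact mul_le_mul_of_nonneg_right (by linarith) (abs_nonneg _)
    have c4 : |ρ * (tg - t2) + -(κ * (t2 + t1))| ≤ 3 * D * |ρ| := by
      refine (abs_add_le _ _).trans ?_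
      rw [abs_neg, abs_mul, abs_mul]
      have d1 : |tg - t2| ≤ 2 * D := by rw [abs_le]; constructor <;> linarith
      have d2 : |t2 + t1| ≤ 2 * D := by rw [abs_le]; constructor <;> linarith
      have d3 : |ρ| * |tg - t2| ≤ |ρ| * (2 * D) := mul_le_mul_of_nonneg_left d1 (abs_nonneg _)
      have d4 : |κ| * |t2 + t1| ≤ 1 / 256 * |ρ| * (2 * D) :=
        mul_le_mul hκb2 d2 (abs_nonneg _) (by positivity)
      have d5 : 0 ≤ |ρ| * D := by positivity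
      linarith
    have c5 : s * |ρ * (tg - t2) + -(κ * (t2 + t1))| ≤ 2 * D * (3 * D * |ρ|) :=
      mul_le_mul (by linarith) c4 (abs_nonneg _) (by positivity)
    have c6 : ξ * (s * |ρ * (tg - t2) + -(κ * (t2 + t1))|) ≤ ξ * (2 * D * (3 * D * |ρ|)) :=
      mul_le_mul_of_nonneg_left c5 hξ
    have c7 : ξ * (2 * D * (3 * D * |ρ|)) ≤ 6 * (1 / 16) * |ρ| := by
      have : ξ * (2 * D * (3 * D * |ρ|)) = 6 * (ξ * D ^ 2) * |ρ| := by ring
      rw [this]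
      exact mul_le_mul_of_nonneg_right (by linarith) (abs_nonneg _)
    linarith [abs_nonneg ρ]

variable {ι : Type} [Fintype ι]
variable {Q : Cfg ι} {lam Δ D E N A S Θ H : ℕ}

theorem gad_x (Q : Cfg ι) (A S D E Θ : ℕ) (hZ : (0 : ℝ) < zz D E S)
    (g : ι × Fin (S + 2 * A * D)) :
    (gad Q A S D E Θ).x g = (Q.t g.1 : ℝ) - (1 / (zz D E S : ℝ)) * (Q.t g.1 : ℝ) ^ 2 := by
  change (((zz D E S : ℤ) * Q.t g.1 - (Q.t g.1) ^ 2 : ℤ) : ℝ) / (zz D E S : ℝ) = _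
  push_cast
  field_simp

/-- numerical facts about the parameters -/
theorem GPar.nums (h : GPar Q lam Δ D E N A S Θ H) :
    (1 : ℝ) ≤ D ∧ (1 : ℝ) ≤ E ∧ (1 : ℝ) ≤ S ∧ (0 : ℝ) < zz D E S ∧
      (zz D E S : ℝ) = 1024 * E * S * D ^ 2 := by
  have hD : (1 : ℝ) ≤ D := by exact_mod_cast h.gQ.posD
  have hE : (1 : ℝ) ≤ E := by exact_mod_cast h.gQ.posE
  have hA : (1 : ℝ) ≤ A := by exact_mod_cast h.hA
  have hS' : (32 : ℝ) * A * D ≤ S := by exact_mod_cast h.hS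
  have hAD : (1 : ℝ) ≤ A * D := by nlinarith
  have hS : (1 : ℝ) ≤ S := by nlinarith
  have hz : (zz D E S : ℝ) = 1024 * E * S * D ^ 2 := by
    unfold zz; push_cast; ring
  refine ⟨hD, hE, hS, ?_, hz⟩
  rw [hz]; positivity

/-- light points of the same copy -/
theorem g_same' (h : GPar Q lam Δ D E N A S Θ H) {v} {α β : ℕ} (hv : IsCopy Q A S D v α β)
    (g : ι × Fin (S + 2 * A * D)) (hg : gc A S D g = β - α * Q.t g.1)
    (h1 : g.1 ≠ v.1.1) (h2 : g.1 ≠ v.2.1) :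
    ((gad Q A S D E Θ).gh v g < 0 ↔ Q.fh (v.1.1, v.2.1) g.1 < 0) ∧
    (1 / (256 * E * zz D E S : ℝ)) * (1 + |(gad Q A S D E Θ).x g - (gad Q A S D E Θ).x v.1|
      / ((gad Q A S D E Θ).x v.2 - (gad Q A S D E Θ).x v.1)) ≤ |(gad Q A S D E Θ).gh v g| := by
  obtain ⟨hD, hE, hS, hZ, hz⟩ := h.nums
  obtain ⟨hα1, hα2, hβ, hc1, hc2, hev⟩ := hv
  have hlt := h.gQ.lt _ hev
  have hltr : (Q.t v.1.1 : ℝ) < Q.t v.2.1 := by exact_mod_cast hlt
  have hβr : (β : ℝ) ≤ S := by exact_mod_cast hβ.le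
  have hβ0 : (0 : ℝ) ≤ β := by positivity
  have htd : ∀ i, |(Q.t i : ℝ)| ≤ D := fun i => by exact_mod_cast h.gQ.td i
  set Z : ℝ := (zz D E S : ℝ) with hZdef
  set ζ : ℝ := 1 / Z with hζdef
  have hζ : 0 ≤ ζ := by positivity
  have hDD : (1 : ℝ) ≤ (D : ℝ) ^ 2 := by nlinarith
  have hζD : ζ * D ≤ 1 / 1024 := by
    rw [hζdef, one_div, inv_mul_le_iff₀ hZ, hz]
    have h3 : (1 : ℝ) ≤ E * S := by nlinarith
    have h4 : (D : ℝ) ≤ D ^ 2 := by nlinarith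
    have h5 : (1 : ℝ) * D ≤ (E * S) * D ^ 2 := mul_le_mul h3 h4 (by linarith) (by positivity)
    linarith
  have hζDE : ζ * D * E ≤ 1 / 1024 := by
    rw [hζdef, one_div, mul_assoc, inv_mul_le_iff₀ hZ, hz]
    have h4 : (D : ℝ) ≤ D ^ 2 := by nlinarith
    have h6 : (D : ℝ) * E ≤ D ^ 2 * E := mul_le_mul_of_nonneg_right h4 (by linarith)
    have h7 : (1 : ℝ) * (D ^ 2 * E) ≤ S * (D ^ 2 * E) :=
      mul_le_mul_of_nonneg_right hS (by positivity)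
    linarith
  set ξ : ℝ := 64 * E * β / Z with hξdef
  have hξ : 0 ≤ ξ := by positivity
  have hξD : ξ * (D : ℝ) ^ 2 ≤ 1 / 16 := by
    rw [hξdef, div_mul_eq_mul_div, div_le_iff₀ hZ, hz]
    have h8 : (64 * E * D ^ 2 : ℝ) * β ≤ (64 * E * D ^ 2) * S :=
      mul_le_mul_of_nonneg_left hβr (by positivity)
    linarith
  obtain ⟨k1, k2⟩ := same_core (eg := Q.e g.1) hζ hζD hζDE hξ hξD hD hltr (htd _) (htd _)
    (htd g.1) (h.gQ.ee v.1.1) (h.gQ.ee v.2.1)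
  -- the real quantities
  have hx1 := gad_x Q A S D E Θ hZ v.1
  have hx2 := gad_x Q A S D E Θ hZ v.2
  have hxg := gad_x Q A S D E Θ hZ g
  rw [← hZdef, ← hζdef] at hx1 hx2 hxg
  have hc1r : (gc A S D v.1 : ℝ) = β - α * Q.t v.1.1 := by exact_mod_cast hc1
  have hc2r : (gc A S D v.2 : ℝ) = β - α * Q.t v.2.1 := by exact_mod_cast hc2
  have hcgr : (gc A S D g : ℝ) = β - α * Q.t g.1 := by exact_mod_cast hg
  have hy : ∀ p : ι × Fin (S + 2 * A * D), (gad Q A S D E Θ).y p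
      = (1 - (1 / Z) * Q.t p.1) * (gc A S D p : ℝ) + (1 / (64 * E * Z : ℝ)) * Q.e p.1 :=
    fun p => rfl
  have hy1 := hy v.1
  have hy2 := hy v.2
  have hyg := hy g
  rw [hc1r] at hy1
  rw [hc2r] at hy2
  rw [hcgr] at hyg
  have hxpos : 0 < (gad Q A S D E Θ).x v.2 - (gad Q A S D E Θ).x v.1 := by
    rw [hx1, hx2]
    have h9 : (Q.t v.2.1 : ℝ) - ζ * (Q.t v.2.1 : ℝ) ^ 2 - (Q.t v.1.1 - ζ * (Q.t v.1.1 : ℝ) ^ 2)
      = (Q.t v.2.1 - Q.t v.1.1) * (1 - ζ * (Q.t v.2.1 + Q.t v.1.1)) := by ring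
    rw [h9]
    apply mul_pos (by linarith)
    have h10 := abs_le.1 (htd v.1.1)
    have h11 := abs_le.1 (htd v.2.1)
    have : ζ * ((Q.t v.2.1 : ℝ) + Q.t v.1.1) ≤ ζ * (2 * D) :=
      mul_le_mul_of_nonneg_left (by linarith) hζ
    linarith
  have hη : (0 : ℝ) < 1 / (64 * E * Z) := by positivity
  -- height formula
  have hgh : (gad Q A S D E Θ).gh v g = (1 / (64 * E * Z)) *
      ((Q.e g.1 - ξ * (Q.t g.1 : ℝ) ^ 2) - (Q.e v.1.1 - ξ * (Q.t v.1.1 : ℝ) ^ 2)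
      - ((gad Q A S D E Θ).x g - (gad Q A S D E Θ).x v.1)
        / ((gad Q A S D E Θ).x v.2 - (gad Q A S D E Θ).x v.1)
        * ((Q.e v.2.1 - ξ * (Q.t v.2.1 : ℝ) ^ 2) - (Q.e v.1.1 - ξ * (Q.t v.1.1 : ℝ) ^ 2))) := by
    have hdev : ∀ (p : ι × Fin (S + 2 * A * D)), (gc A S D p : ℝ) = β - α * Q.t p.1 →
        (gad Q A S D E Θ).y p = β - (α + ζ * β) * (gad Q A S D E Θ).x p
          + (1 / (64 * E * Z)) * (Q.e p.1 - ξ * (Q.t p.1 : ℝ) ^ 2) := by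
      intro p hp
      have hxp := gad_x Q A S D E Θ hZ p
      rw [← hZdef, ← hζdef] at hxp
      rw [hy p, hp, hxp, hξdef, hζdef]
      field_simp
      ring
    have e1 := hdev v.1 hc1r
    have e2 := hdev v.2 hc2r
    have eg := hdev g hcgr
    unfold Gad.gh Gad.Y Gad.X
    rw [e1, e2, eg]
    have hne : (gad Q A S D E Θ).x v.2 - (gad Q A S D E Θ).x v.1 ≠ 0 := hxpos.ne'
    field_simp
    ring
  rw [← hx1, ← hx2, ← hxg] at k1 k2
  have hfh : Q.fh (v.1.1, v.2.1) g.1 = Q.e g.1 - Q.e v.1.1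
      - ((Q.t g.1 : ℝ) - Q.t v.1.1) / ((Q.t v.2.1 : ℝ) - Q.t v.1.1) * (Q.e v.2.1 - Q.e v.1.1) :=
    rfl
  have hc := h.gQ.c1 _ hev g.1 h1 h2
  have htau : Q.tau (v.1.1, v.2.1) g.1
    = ((Q.t g.1 : ℝ) - Q.t v.1.1) / ((Q.t v.2.1 : ℝ) - Q.t v.1.1) := rfl
  rw [htau] at hc
  rw [← hfh] at k2
  set ρ : ℝ := ((Q.t g.1 : ℝ) - Q.t v.1.1) / ((Q.t v.2.1 : ℝ) - Q.t v.1.1) with hρdef
  set ρ' : ℝ := ((gad Q A S D E Θ).x g - (gad Q A S D E Θ).x v.1)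
        / ((gad Q A S D E Θ).x v.2 - (gad Q A S D E Θ).x v.1) with hρ'def
  set W : ℝ := (Q.e g.1 - ξ * (Q.t g.1 : ℝ) ^ 2) - (Q.e v.1.1 - ξ * (Q.t v.1.1 : ℝ) ^ 2)
      - ρ' * ((Q.e v.2.1 - ξ * (Q.t v.2.1 : ℝ) ^ 2) - (Q.e v.1.1 - ξ * (Q.t v.1.1 : ℝ) ^ 2))
    with hWdef
  set F : ℝ := Q.fh (v.1.1, v.2.1) g.1 with hFdef
  have k2' := abs_le.1 k2
  have hρ0 := abs_nonneg ρ
  have hWF : |W| ≥ (1 + |ρ|) / 2 ∧ (W < 0 ↔ F < 0) := by
    rcases le_total 0 F with hF | hF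
    · rw [abs_of_nonneg hF] at hc
      have : (1 + |ρ|) / 2 ≤ W := by linarith
      refine ⟨le_trans this (le_abs_self _), ?_⟩
      constructor
      · intro h3; linarith
      · intro h3; linarith
    · rw [abs_of_nonpos hF] at hc
      have : W ≤ -((1 + |ρ|) / 2) := by linarith
      refine ⟨?_, ?_⟩
      · rw [abs_of_neg (by linarith)]; linarith
      · constructor
        · intro h3; linarith
        · intro h3; linarith
  rw [hgh]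
  constructor
  · rw [← hWF.2]
    constructor
    · intro h3
      by_contra h4
      push Not at h4
      have : 0 ≤ 1 / (64 * E * Z) * W := mul_nonneg hη.le h4
      linarith
    · intro h3
      exact mul_neg_of_pos_of_neg hη h3
  · have h5 : |(gad Q A S D E Θ).x g - (gad Q A S D E Θ).x v.1|
      / ((gad Q A S D E Θ).x v.2 - (gad Q A S D E Θ).x v.1) = |ρ'| := by
      rw [hρ'def, abs_div, abs_of_pos hxpos]
    rw [h5, abs_mul, abs_of_pos hη]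
    have h6 : (1 / (256 * E * Z) : ℝ) = (1 / (64 * E * Z)) * (1 / 4) := by
      field_simp
      norm_num
    rw [h6, mul_assoc]
    apply mul_le_mul_of_nonneg_left _ hη.le
    have h7 := hWF.1
    linarith

/-- margins for all light points, given the margin for the other lattice lines -/
theorem g_marg_of (h : GPar Q lam Δ D E N A S Θ H) {v} {α β : ℕ} (hv : IsCopy Q A S D v α β)
    (g : ι × Fin (S + 2 * A * D)) (h1 : g ≠ v.1) (h2 : g ≠ v.2)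
    (hother : gc A S D g ≠ β - α * Q.t g.1 → 1 / 2 ≤ |(gad Q A S D E Θ).gh v g|) :
    (1 / ((256 * E * zz D E S : ℕ) : ℝ)) *
      (1 + |(gad Q A S D E Θ).x g - (gad Q A S D E Θ).x v.1|
      / ((gad Q A S D E Θ).x v.2 - (gad Q A S D E Θ).x v.1)) ≤ |(gad Q A S D E Θ).gh v g| := by
  obtain ⟨hD, hE, hS, hZ, hz⟩ := h.nums
  by_cases hg : gc A S D g = β - α * Q.t g.1
  · have n1 : g.1 ≠ v.1.1 := by
      intro heq
      apply h1
      have e1 := hv.2.2.2.1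
      rw [← heq, ← hg] at e1
      unfold gc at e1
      have e2 : ((v.1).2 : ℕ) = (g.2 : ℕ) := by
        have : (((v.1).2 : ℕ) : ℤ) = ((g.2 : ℕ) : ℤ) := by linarith
        exact_mod_cast this
      exact Prod.ext heq (Fin.ext e2.symm)
    have n2 : g.1 ≠ v.2.1 := by
      intro heq
      apply h2
      have e1 := hv.2.2.2.2.1
      rw [← heq, ← hg] at e1
      unfold gc at e1
      have e2 : ((v.2).2 : ℕ) = (g.2 : ℕ) := by
        have : (((v.2).2 : ℕ) : ℤ) = ((g.2 : ℕ) : ℤ) := by linarith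
        exact_mod_cast this
      exact Prod.ext heq (Fin.ext e2.symm)
    have := (g_same' (Θ := Θ) h hv g hg n1 n2).2
    push_cast
    exact this
  · refine le_trans ?_ (hother hg)
    obtain ⟨hα1, hα2, hβ, hc1, hc2, hev⟩ := hv
    have hlt := h.gQ.lt _ hev
    have hltr : (Q.t v.1.1 : ℝ) + 1 ≤ Q.t v.2.1 := by exact_mod_cast hlt
    have htd : ∀ i, |(Q.t i : ℝ)| ≤ D := fun i => by exact_mod_cast h.gQ.td i
    have hx1 := gad_x Q A S D E Θ hZ v.1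
    have hx2 := gad_x Q A S D E Θ hZ v.2
    have hxg := gad_x Q A S D E Θ hZ g
    set ζ : ℝ := 1 / (zz D E S : ℝ) with hζdef
    have hζ : 0 ≤ ζ := by positivity
    have hζD : ζ * D ≤ 1 / 1024 := by
      rw [hζdef, one_div, inv_mul_le_iff₀ hZ, hz]
      have h3 : (1 : ℝ) ≤ E * S := by nlinarith
      have h4 : (D : ℝ) ≤ D ^ 2 := by nlinarith
      have h5 : (1 : ℝ) * D ≤ (E * S) * D ^ 2 := mul_le_mul h3 h4 (by linarith) (by positivity)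
      linarith
    have a1 := abs_le.1 (htd v.1.1)
    have a2 := abs_le.1 (htd v.2.1)
    have ag := abs_le.1 (htd g.1)
    have hxs : 1 / 2 ≤ (gad Q A S D E Θ).x v.2 - (gad Q A S D E Θ).x v.1 := by
      rw [hx1, hx2]
      have h9 : (Q.t v.2.1 : ℝ) - ζ * (Q.t v.2.1 : ℝ) ^ 2 - (Q.t v.1.1 - ζ * (Q.t v.1.1 : ℝ) ^ 2)
        = (Q.t v.2.1 - Q.t v.1.1) * (1 - ζ * (Q.t v.2.1 + Q.t v.1.1)) := by ring
      rw [h9]
      have h10 : ζ * ((Q.t v.2.1 : ℝ) + Q.t v.1.1) ≤ ζ * (2 * D) :=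
        mul_le_mul_of_nonneg_left (by linarith) hζ
      have h11 : (1 : ℝ) / 2 ≤ 1 - ζ * ((Q.t v.2.1 : ℝ) + Q.t v.1.1) := by linarith
      calc (1 : ℝ) / 2 = 1 * (1 / 2) := by ring
        _ ≤ _ := mul_le_mul (by linarith) h11 (by norm_num) (by linarith)
    have hxd : |(gad Q A S D E Θ).x g - (gad Q A S D E Θ).x v.1| ≤ 4 * D := by
      rw [hx1, hxg]
      have h9 : (Q.t g.1 : ℝ) - ζ * (Q.t g.1 : ℝ) ^ 2 - (Q.t v.1.1 - ζ * (Q.t v.1.1 : ℝ) ^ 2)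
        = (Q.t g.1 - Q.t v.1.1) * (1 - ζ * (Q.t g.1 + Q.t v.1.1)) := by ring
      rw [h9, abs_mul]
      have h12 : |ζ * ((Q.t g.1 : ℝ) + Q.t v.1.1)| ≤ ζ * (2 * D) := by
        rw [abs_mul, abs_of_nonneg hζ]
        apply mul_le_mul_of_nonneg_left _ hζ
        rw [abs_le]; constructor <;> linarith
      have h13 := abs_le.1 h12
      have h14 : |1 - ζ * ((Q.t g.1 : ℝ) + Q.t v.1.1)| ≤ 2 := by
        rw [abs_le]; constructor <;> linarith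
      have h15 : |(Q.t g.1 : ℝ) - Q.t v.1.1| ≤ 2 * D := by
        rw [abs_le]; constructor <;> linarith
      calc _ ≤ (2 * D : ℝ) * 2 := mul_le_mul h15 h14 (abs_nonneg _) (by positivity)
        _ = 4 * D := by ring
    have hr : |(gad Q A S D E Θ).x g - (gad Q A S D E Θ).x v.1|
      / ((gad Q A S D E Θ).x v.2 - (gad Q A S D E Θ).x v.1) ≤ 8 * D := by
      rw [div_le_iff₀ (by linarith)]
      have : 8 * (D : ℝ) * (1 / 2) ≤ 8 * D * ((gad Q A S D E Θ).x v.2 - (gad Q A S D E Θ).x v.1) :=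
        mul_le_mul_of_nonneg_left hxs (by positivity)
      linarith
    push_cast
    rw [one_div, inv_mul_le_iff₀ (by positivity)]
    have hfin : (1 : ℝ) + 8 * D ≤ 256 * E * zz D E S * (1 / 2) := by
      rw [hz]
      have h3 : (1 : ℝ) ≤ E * S := by nlinarith
      have h4 : (D : ℝ) ≤ D ^ 2 := by nlinarith
      have h5 : (1 : ℝ) * D ≤ (E * S) * D ^ 2 := mul_le_mul h3 h4 (by linarith) (by positivity)
      have h6 : (1 : ℝ) * (E * S * D ^ 2) ≤ E * (E * S * D ^ 2) :=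
        mul_le_mul_of_nonneg_right hE (by positivity)
      have h7 : (256 : ℝ) * E * (1024 * E * S * D ^ 2) * (1 / 2)
        = 131072 * (E * (E * S * D ^ 2)) := by ring
      rw [h7]
      linarith
    linarith

end Vale.Agent.P065
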