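import Vale.Agent.P065.GadLineB
import Vale.Agent.P065.GadLineC

/-! Row G1: lines and heights in the gadget. -/

namespace Vale.Agent.P065

open Finset Classical

variable {ι : Type} [Fintype ι]
variable {Q : Cfg ι} {lam Δ D E N A S Θ H : ℕ}

/-- light points of the same copy -/
theorem g_same (h : GPar Q lam Δ D E N A S Θ H) {v} {α β : ℕ} (hv : IsCopy Q A S D v α β)
    (g : ι × Fin (S + 2 * A * D)) (hg : gc A S D g = β - α * Q.t g.1)
    (h1 : g.1 ≠ v.1.1) (h2 : g.1 ≠ v.2.1) :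
    ((gad Q A S D E Θ).gh v g < 0 ↔ Q.fh (v.1.1, v.2.1) g.1 < 0) ∧
    (1 / (256 * E * zz D E S : ℝ)) * (1 + |(gad Q A S D E Θ).x g - (gad Q A S D E Θ).x v.1|
      / ((gad Q A S D E Θ).x v.2 - (gad Q A S D E Θ).x v.1)) ≤ |(gad Q A S D E Θ).gh v g| :=
  g_same' h hv g hg h1 h2

/-- margins for all light points -/
theorem g_marg (h : GPar Q lam Δ D E N A S Θ H) {v} {α β : ℕ} (hv : IsCopy Q A S D v α β)
    (g : ι × Fin (S + 2 * A * D)) (h1 : g ≠ v.1) (h2 : g ≠ v.2) :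
    (1 / ((256 * E * zz D E S : ℕ) : ℝ)) *
      (1 + |(gad Q A S D E Θ).x g - (gad Q A S D E Θ).x v.1|
      / ((gad Q A S D E Θ).x v.2 - (gad Q A S D E Θ).x v.1)) ≤ |(gad Q A S D E Θ).gh v g| :=
  g_marg_of h hv g h1 h2 (g_other h hv g).2.2

end Vale.Agent.P065
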