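import Vale.Agent.P065.GadDefs

/-! Row G1a: slope and intercept of a gadget event. -/

namespace Vale.Agent.P065

open Finset Classical

variable {ι : Type} [Fintype ι]
variable {Q : Cfg ι} {lam Δ D E N A S Θ H : ℕ}

/-- numerical facts on `ζ = 1/Z` -/
theorem g_num (h : GPar Q lam Δ D E N A S Θ H) :
    1 ≤ S ∧ 0 < (zz D E S : ℝ) ∧ 0 < (1 / (zz D E S : ℝ)) ∧
    (1 / (zz D E S : ℝ)) * D ≤ 1 / 1024 ∧
    (1 / (zz D E S : ℝ)) * (S * (D : ℝ) ^ 2) ≤ 1 / 1024 ∧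
    (1 / (64 * E * zz D E S : ℝ)) * E = (1 / (zz D E S : ℝ)) / 64 ∧
    0 < (1 / (64 * E * zz D E S : ℝ)) ∧ (1 / (zz D E S : ℝ)) ≤ 1 / 1024 := by
  have hE : 1 ≤ E := h.gQ.posE
  have hD : 1 ≤ D := h.gQ.posD
  have hA : 1 ≤ A := h.hA
  have hS : 1 ≤ S := by
    have h1 : 1 * 1 ≤ A * D := Nat.mul_le_mul hA hD
    have h2 := h.hS
    nlinarith
  have hEr : (1 : ℝ) ≤ E := by exact_mod_cast hE
  have hDr : (1 : ℝ) ≤ D := by exact_mod_cast hD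
  have hSr : (1 : ℝ) ≤ S := by exact_mod_cast hS
  have hZ : (zz D E S : ℝ) = 1024 * E * S * (D : ℝ) ^ 2 := by
    simp [zz]
  have hSD : (1 : ℝ) ≤ S * (D : ℝ) ^ 2 := by nlinarith
  have hZ2 : 1024 * (S * (D : ℝ) ^ 2) ≤ (zz D E S : ℝ) := by
    rw [hZ]; nlinarith
  have hDSD : (D : ℝ) ≤ S * (D : ℝ) ^ 2 := by nlinarith
  have hZ3 : 1024 * (D : ℝ) ≤ (zz D E S : ℝ) := by linarith
  have hZ4 : (1024 : ℝ) ≤ (zz D E S : ℝ) := by linarith
  have hZ0 : 0 < (zz D E S : ℝ) := by linarith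
  refine ⟨hS, hZ0, by positivity, ?_, ?_, ?_, by positivity, ?_⟩
  · rw [one_div, inv_mul_le_iff₀ hZ0]; linarith
  · rw [one_div, inv_mul_le_iff₀ hZ0]; linarith
  · field_simp
  · rw [one_div, one_div]
    exact inv_anti₀ (by norm_num) hZ4

/-- abscissa of a light point -/
theorem g_x (h : GPar Q lam Δ D E N A S Θ H) (g : ι × Fin (S + 2 * A * D)) :
    (gad Q A S D E Θ).x g
      = (Q.t g.1 : ℝ) - (1 / (zz D E S : ℝ)) * (Q.t g.1 : ℝ) ^ 2 := by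
  obtain ⟨_, hZ0, _⟩ := g_num h
  have : (gad Q A S D E Θ).x g = (((zz D E S : ℤ) * Q.t g.1 - (Q.t g.1) ^ 2 : ℤ) : ℝ)
      / ((zz D E S : ℕ) : ℝ) := rfl
  rw [this]
  push_cast
  field_simp

theorem g_tb (h : GPar Q lam Δ D E N A S Θ H) (i : ι) : |(Q.t i : ℝ)| ≤ D := by
  have := h.gQ.td i
  exact_mod_cast this

/-- difference of two abscissae -/
theorem g_xsub (h : GPar Q lam Δ D E N A S Θ H) (g g' : ι × Fin (S + 2 * A * D)) :
    (gad Q A S D E Θ).x g' - (gad Q A S D E Θ).x g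
      = ((Q.t g'.1 : ℝ) - Q.t g.1)
        * (1 - (1 / (zz D E S : ℝ)) * ((Q.t g'.1 : ℝ) + Q.t g.1)) := by
  rw [g_x h, g_x h]; ring

/-- the factor in `g_xsub` -/
theorem g_fac (h : GPar Q lam Δ D E N A S Θ H) (i j : ι) :
    |(1 / (zz D E S : ℝ)) * ((Q.t i : ℝ) + Q.t j)| ≤ 1 / 512 := by
  obtain ⟨_, hZ0, hz, hzD, _⟩ := g_num h
  have h1 := abs_le.mp (g_tb h i)
  have h2 := abs_le.mp (g_tb h j)
  rw [abs_mul, abs_of_pos hz]
  have h3 : |(Q.t i : ℝ) + Q.t j| ≤ 2 * D := abs_le.mpr ⟨by linarith, by linarith⟩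
  nlinarith

theorem g_xb (h : GPar Q lam Δ D E N A S Θ H) (g : ι × Fin (S + 2 * A * D)) :
    |(gad Q A S D E Θ).x g| ≤ 2 * D := by
  obtain ⟨_, hZ0, hz, hzD, _⟩ := g_num h
  rw [g_x h]
  have h1 := g_tb h g.1
  have hD : (0 : ℝ) ≤ D := Nat.cast_nonneg D
  have h3 : (Q.t g.1 : ℝ) ^ 2 ≤ (D : ℝ) ^ 2 := by
    rw [← sq_abs]; exact pow_le_pow_left₀ (abs_nonneg _) h1 2
  have h2 : (1 / (zz D E S : ℝ)) * (Q.t g.1 : ℝ) ^ 2 ≤ D := by
    calc (1 / (zz D E S : ℝ)) * (Q.t g.1 : ℝ) ^ 2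
        ≤ (1 / (zz D E S : ℝ)) * (D : ℝ) ^ 2 := by
          exact mul_le_mul_of_nonneg_left h3 hz.le
      _ = ((1 / (zz D E S : ℝ)) * D) * D := by ring
      _ ≤ 1 * D := by
          apply mul_le_mul_of_nonneg_right _ hD
          linarith
      _ = D := one_mul _
  have h4 : 0 ≤ (1 / (zz D E S : ℝ)) * (Q.t g.1 : ℝ) ^ 2 := by positivity
  rw [abs_le] at h1 ⊢
  constructor <;> linarith [h1.1, h1.2]

/-- abscissae of the two endpoints of a gadget event -/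
theorem g_sep (h : GPar Q lam Δ D E N A S Θ H) {v} {α β : ℕ} (hv : IsCopy Q A S D v α β) :
    (1 / 2 : ℝ) ≤ (gad Q A S D E Θ).x v.2 - (gad Q A S D E Θ).x v.1 := by
  obtain ⟨hα, hαA, hβ, hc1, hc2, hev⟩ := hv
  have hlt := h.gQ.lt _ hev
  have hlt1 : (1 : ℝ) ≤ (Q.t v.2.1 : ℝ) - Q.t v.1.1 := by
    have : Q.t v.1.1 + 1 ≤ Q.t v.2.1 := hlt
    have : (Q.t v.1.1 : ℝ) + 1 ≤ Q.t v.2.1 := by exact_mod_cast this
    linarith
  have hf := abs_le.mp (g_fac h v.2.1 v.1.1)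
  rw [g_xsub h]
  nlinarith [hf.1, hf.2]

/-- the deviation from the centre line -/
noncomputable def gdev (Q : Cfg ι) (A S D E : ℕ) (g : ι × Fin (S + 2 * A * D)) (α β : ℕ) : ℝ :=
  (1 - (1 / (zz D E S : ℝ)) * Q.t g.1) * ((gc A S D g : ℝ) - (β - α * Q.t g.1))
    + (1 / (64 * E * zz D E S : ℝ)) * Q.e g.1
    - (1 / (zz D E S : ℝ)) * ((1 / (zz D E S : ℝ)) * (β * (Q.t g.1 : ℝ) ^ 2))

theorem g_y (h : GPar Q lam Δ D E N A S Θ H) (g : ι × Fin (S + 2 * A * D)) (α β : ℕ) :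
    (gad Q A S D E Θ).y g
      = β - (α + (1 / (zz D E S : ℝ)) * β) * (gad Q A S D E Θ).x g + gdev Q A S D E g α β := by
  rw [g_x h]
  have : (gad Q A S D E Θ).y g = (1 - (1 / (zz D E S : ℝ)) * Q.t g.1) * (gc A S D g : ℝ)
    + (1 / (64 * E * zz D E S : ℝ)) * Q.e g.1 := rfl
  rw [this, gdev]
  ring

/-- the small part of the deviation -/
theorem g_small (h : GPar Q lam Δ D E N A S Θ H) (i : ι) {β : ℕ} (hβ : β < S) :
    |(1 / (64 * E * zz D E S : ℝ)) * Q.e i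
      - (1 / (zz D E S : ℝ)) * ((1 / (zz D E S : ℝ)) * (β * (Q.t i : ℝ) ^ 2))|
      ≤ (1 / (zz D E S : ℝ)) / 32 := by
  obtain ⟨_, hZ0, hz, hzD, hzS, hη, hη0, hz1⟩ := g_num h
  have he := h.gQ.ee i
  have h1 : |(1 / (64 * E * zz D E S : ℝ)) * Q.e i| ≤ (1 / (zz D E S : ℝ)) / 64 := by
    rw [abs_mul, abs_of_pos hη0, ← hη]
    exact mul_le_mul_of_nonneg_left he hη0.le
  have ht := g_tb h i
  have h3 : (Q.t i : ℝ) ^ 2 ≤ (D : ℝ) ^ 2 := by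
    rw [← sq_abs]; exact pow_le_pow_left₀ (abs_nonneg _) ht 2
  have hβr : (β : ℝ) ≤ S := by exact_mod_cast hβ.le
  have hβ0 : (0 : ℝ) ≤ β := Nat.cast_nonneg β
  have h4 : (β : ℝ) * (Q.t i : ℝ) ^ 2 ≤ S * (D : ℝ) ^ 2 :=
    mul_le_mul hβr h3 (sq_nonneg _) (by positivity)
  have h5 : (1 / (zz D E S : ℝ)) * (β * (Q.t i : ℝ) ^ 2) ≤ 1 / 1024 :=
    le_trans (mul_le_mul_of_nonneg_left h4 hz.le) hzS
  have h6 : 0 ≤ (1 / (zz D E S : ℝ)) * (β * (Q.t i : ℝ) ^ 2) := by positivity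
  have h7 : |(1 / (zz D E S : ℝ)) * ((1 / (zz D E S : ℝ)) * (β * (Q.t i : ℝ) ^ 2))|
      ≤ (1 / (zz D E S : ℝ)) / 64 := by
    rw [abs_of_nonneg (mul_nonneg hz.le h6)]
    nlinarith
  have h8 := abs_le.mp h1
  have h9 := abs_le.mp h7
  rw [abs_le]
  constructor <;> linarith [h8.1, h8.2, h9.1, h9.2]

theorem g_dev_on (h : GPar Q lam Δ D E N A S Θ H) (g : ι × Fin (S + 2 * A * D)) {α β : ℕ}
    (hβ : β < S) (hg : gc A S D g = β - α * Q.t g.1) :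
    |gdev Q A S D E g α β| ≤ (1 / (zz D E S : ℝ)) / 32 := by
  have h1 : (gc A S D g : ℝ) - (β - α * Q.t g.1) = 0 := by
    rw [hg]; push_cast; ring
  have h2 : gdev Q A S D E g α β = (1 / (64 * E * zz D E S : ℝ)) * Q.e g.1
      - (1 / (zz D E S : ℝ)) * ((1 / (zz D E S : ℝ)) * (β * (Q.t g.1 : ℝ) ^ 2)) := by
    rw [gdev, h1]; ring
  rw [h2]
  exact g_small h g.1 hβ

/-- the slope in terms of deviations -/
theorem g_X_eq (h : GPar Q lam Δ D E N A S Θ H) {v} {α β : ℕ} (hv : IsCopy Q A S D v α β) :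
    ((gad Q A S D E Θ).X v - (α + (1 / (zz D E S : ℝ)) * β))
      * ((gad Q A S D E Θ).x v.2 - (gad Q A S D E Θ).x v.1)
      = gdev Q A S D E v.1 α β - gdev Q A S D E v.2 α β := by
  have hs := g_sep h hv
  have hne : (gad Q A S D E Θ).x v.2 - (gad Q A S D E Θ).x v.1 ≠ 0 := by linarith
  have hX : (gad Q A S D E Θ).X v
      * ((gad Q A S D E Θ).x v.2 - (gad Q A S D E Θ).x v.1)
      = -((gad Q A S D E Θ).y v.2 - (gad Q A S D E Θ).y v.1) := by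
    rw [Gad.X, neg_mul, div_mul_cancel₀ _ hne]
  rw [sub_mul, hX, g_y h v.1 α β, g_y h v.2 α β]
  ring

/-- slope of a gadget event -/
theorem g_X (h : GPar Q lam Δ D E N A S Θ H) {v} {α β : ℕ} (hv : IsCopy Q A S D v α β) :
    |(gad Q A S D E Θ).X v - (α + (1 / (zz D E S : ℝ)) * β)| ≤ (1 / (zz D E S : ℝ)) / 8 := by
  obtain ⟨_, hZ0, hz, hzD, hzS, hη, hη0, hz1⟩ := g_num h
  have hs := g_sep h hv
  have he := g_X_eq h hv
  obtain ⟨hα, hαA, hβ, hc1, hc2, hev⟩ := hv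
  have h1 := abs_le.mp (g_dev_on h v.1 hβ hc1)
  have h2 := abs_le.mp (g_dev_on h v.2 hβ hc2)
  have h3 : |(gad Q A S D E Θ).X v - (α + (1 / (zz D E S : ℝ)) * β)| *
      ((gad Q A S D E Θ).x v.2 - (gad Q A S D E Θ).x v.1) ≤ (1 / (zz D E S : ℝ)) / 16 := by
    have h4 : |(gad Q A S D E Θ).X v - (α + (1 / (zz D E S : ℝ)) * β)| *
      ((gad Q A S D E Θ).x v.2 - (gad Q A S D E Θ).x v.1)
      = |gdev Q A S D E v.1 α β - gdev Q A S D E v.2 α β| := by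
      rw [← he, abs_mul, abs_of_pos (show (0 : ℝ) <
        (gad Q A S D E Θ).x v.2 - (gad Q A S D E Θ).x v.1 by linarith)]
    rw [h4, abs_le]
    constructor <;> linarith [h1.1, h1.2, h2.1, h2.2]
  nlinarith [abs_nonneg ((gad Q A S D E Θ).X v - (α + (1 / (zz D E S : ℝ)) * β))]

/-- intercept in terms of deviations -/
theorem g_Y_eq (h : GPar Q lam Δ D E N A S Θ H) {v} {α β : ℕ} :
    (gad Q A S D E Θ).Y v - β = gdev Q A S D E v.1 α β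
      + ((gad Q A S D E Θ).X v - (α + (1 / (zz D E S : ℝ)) * β)) * (gad Q A S D E Θ).x v.1 := by
  rw [Gad.Y, g_y h v.1 α β]; ring

/-- intercept of a gadget event -/
theorem g_Y (h : GPar Q lam Δ D E N A S Θ H) {v} {α β : ℕ} (hv : IsCopy Q A S D v α β) :
    |(gad Q A S D E Θ).Y v - β| ≤ 1 / 8 := by
  obtain ⟨_, hZ0, hz, hzD, hzS, hη, hη0, hz1⟩ := g_num h
  have hX := g_X h hv
  rw [g_Y_eq h (α := α)]
  obtain ⟨hα, hαA, hβ, hc1, hc2, hev⟩ := hv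
  have h1 := g_dev_on h v.1 hβ hc1
  have hx := g_xb h v.1
  have h2 : |((gad Q A S D E Θ).X v - (α + (1 / (zz D E S : ℝ)) * β))
      * (gad Q A S D E Θ).x v.1| ≤ 1 / 1024 := by
    rw [abs_mul]
    calc _ ≤ ((1 / (zz D E S : ℝ)) / 8) * (2 * D) :=
          mul_le_mul hX hx (abs_nonneg _) (by positivity)
      _ = ((1 / (zz D E S : ℝ)) * D) / 4 := by ring
      _ ≤ 1 / 1024 := by linarith
  calc _ ≤ _ := abs_add_le _ _
    _ ≤ (1 / (zz D E S : ℝ)) / 32 + 1 / 1024 := add_le_add h1 h2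
    _ ≤ 1 / 8 := by linarith

/-- height of a light point over the line of an event, in terms of deviations -/
theorem g_gh_eq (h : GPar Q lam Δ D E N A S Θ H) {v} {α β : ℕ}
    (g : ι × Fin (S + 2 * A * D)) :
    (gad Q A S D E Θ).gh v g = gdev Q A S D E g α β - gdev Q A S D E v.1 α β
      + ((gad Q A S D E Θ).X v - (α + (1 / (zz D E S : ℝ)) * β))
        * ((gad Q A S D E Θ).x g - (gad Q A S D E Θ).x v.1) := by
  rw [Gad.gh, Gad.Y, g_y h v.1 α β, g_y h g α β]; ring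

end Vale.Agent.P065
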