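import Vale.Agent.P065.GadLineA

/-! Row G1b: light points of other lattice lines. -/

namespace Vale.Agent.P065

open Finset Classical

variable {ι : Type} [Fintype ι]
variable {Q : Cfg ι} {lam Δ D E N A S Θ H : ℕ}

/-- the non-main part of the height -/
theorem g_gh_main (h : GPar Q lam Δ D E N A S Θ H) {v} {α β : ℕ} (hv : IsCopy Q A S D v α β)
    (g : ι × Fin (S + 2 * A * D)) :
    |(gad Q A S D E Θ).gh v g - (1 - (1 / (zz D E S : ℝ)) * Q.t g.1)
      * ((gc A S D g : ℝ) - (β - α * Q.t g.1))| ≤ 1 / 256 := by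
  obtain ⟨_, hZ0, hz, hzD, hzS, hη, hη0, hz1⟩ := g_num h
  have hX := g_X h hv
  obtain ⟨hα, hαA, hβ, hc1, hc2, hev⟩ := hv
  have h1 := g_dev_on h v.1 hβ hc1
  have h2 := g_small h g.1 hβ
  have hx := abs_le.mp (g_xb h v.1)
  have hx' := abs_le.mp (g_xb h g)
  have h3 : |(gad Q A S D E Θ).x g - (gad Q A S D E Θ).x v.1| ≤ 4 * D := by
    rw [abs_le]; constructor <;> linarith [hx.1, hx.2, hx'.1, hx'.2]
  have h4 : |((gad Q A S D E Θ).X v - (α + (1 / (zz D E S : ℝ)) * β))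
        * ((gad Q A S D E Θ).x g - (gad Q A S D E Θ).x v.1)| ≤ 1 / 2048 := by
    rw [abs_mul]
    calc _ ≤ ((1 / (zz D E S : ℝ)) / 8) * (4 * D) :=
          mul_le_mul hX h3 (abs_nonneg _) (by positivity)
      _ = ((1 / (zz D E S : ℝ)) * D) / 2 := by ring
      _ ≤ 1 / 2048 := by linarith
  rw [g_gh_eq h (α := α) (β := β) g]
  have h5 : gdev Q A S D E g α β - gdev Q A S D E v.1 α β
      + ((gad Q A S D E Θ).X v - (α + (1 / (zz D E S : ℝ)) * β))
        * ((gad Q A S D E Θ).x g - (gad Q A S D E Θ).x v.1)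
      - (1 - (1 / (zz D E S : ℝ)) * Q.t g.1)
      * ((gc A S D g : ℝ) - (β - α * Q.t g.1))
      = ((1 / (64 * E * zz D E S : ℝ)) * Q.e g.1
      - (1 / (zz D E S : ℝ)) * ((1 / (zz D E S : ℝ)) * (β * (Q.t g.1 : ℝ) ^ 2)))
      - gdev Q A S D E v.1 α β
      + ((gad Q A S D E Θ).X v - (α + (1 / (zz D E S : ℝ)) * β))
        * ((gad Q A S D E Θ).x g - (gad Q A S D E Θ).x v.1) := by
    rw [gdev]; ring
  rw [h5]
  rw [abs_le] at h1 h2 h4 ⊢
  constructor <;> linarith [h1.1, h1.2, h2.1, h2.2, h4.1, h4.2]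

/-- light points of other lattice lines -/
theorem g_other (h : GPar Q lam Δ D E N A S Θ H) {v} {α β : ℕ} (hv : IsCopy Q A S D v α β)
    (g : ι × Fin (S + 2 * A * D)) :
    (gc A S D g < β - α * Q.t g.1 → (gad Q A S D E Θ).gh v g < 0) ∧
    (β - α * Q.t g.1 < gc A S D g → 0 < (gad Q A S D E Θ).gh v g) ∧
    (gc A S D g ≠ β - α * Q.t g.1 → 1 / 2 ≤ |(gad Q A S D E Θ).gh v g|) := by
  obtain ⟨_, hZ0, hz, hzD, hzS, hη, hη0, hz1⟩ := g_num h
  have hm := abs_le.mp (g_gh_main h hv g)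
  have ht := g_tb h g.1
  have hzt : |(1 / (zz D E S : ℝ)) * Q.t g.1| ≤ 1 / 1024 := by
    rw [abs_mul, abs_of_pos hz]
    exact le_trans (mul_le_mul_of_nonneg_left ht hz.le) hzD
  have hzt' := abs_le.mp hzt
  have hneg : gc A S D g < β - α * Q.t g.1 → (gad Q A S D E Θ).gh v g ≤ -(1 / 2) := by
    intro hlt
    have h1 : (gc A S D g : ℝ) - (β - α * Q.t g.1) ≤ -1 := by
      have : gc A S D g + 1 ≤ β - α * Q.t g.1 := hlt
      have : (gc A S D g : ℝ) + 1 ≤ β - α * Q.t g.1 := by exact_mod_cast this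
      linarith
    nlinarith [hm.1, hm.2, hzt'.1, hzt'.2]
  have hpos : β - α * Q.t g.1 < gc A S D g → 1 / 2 ≤ (gad Q A S D E Θ).gh v g := by
    intro hlt
    have h1 : 1 ≤ (gc A S D g : ℝ) - (β - α * Q.t g.1) := by
      have : (β - α * Q.t g.1) + 1 ≤ gc A S D g := hlt
      have : ((β - α * Q.t g.1 : ℝ)) + 1 ≤ gc A S D g := by exact_mod_cast this
      linarith
    nlinarith [hm.1, hm.2, hzt'.1, hzt'.2]
  refine ⟨fun hlt => ?_, fun hlt => ?_, fun hne => ?_⟩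
  · linarith [hneg hlt]
  · linarith [hpos hlt]
  · rcases lt_or_gt_of_ne hne with hlt | hlt
    · have := hneg hlt
      rw [abs_of_nonpos (by linarith)]; linarith
    · have := hpos hlt
      rw [abs_of_nonneg (by linarith)]; linarith

end Vale.Agent.P065
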