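import Vale.Agent.P065.GadLine

/-! Row G2: offsets: margins and bounds. -/

namespace Vale.Agent.P065

open Finset Classical

variable {ι : Type} [Fintype ι]
variable {Q : Cfg ι} {lam Δ D E N A S Θ H : ℕ}

/-- the real parameters of the gadget -/
theorem GPar.reals (h : GPar Q lam Δ D E N A S Θ H) :
    (1 : ℝ) ≤ A ∧ (1 : ℝ) ≤ D ∧ (1 : ℝ) ≤ E ∧ 32 * (A : ℝ) * D ≤ S ∧ (32 : ℝ) ≤ S ∧
    (16 : ℝ) ≤ Θ ∧ (zz D E S : ℝ) = 1024 * E * S * D ^ 2 ∧ (32768 : ℝ) ≤ zz D E S ∧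
    16 * (zz D E S : ℝ) * Θ * (8 * S) ≤ H ∧ 0 < (H : ℝ) := by
  have hA : (1 : ℝ) ≤ A := by exact_mod_cast h.hA
  have hD : (1 : ℝ) ≤ D := by exact_mod_cast h.gQ.posD
  have hE : (1 : ℝ) ≤ E := by exact_mod_cast h.gQ.posE
  have hS : 32 * (A : ℝ) * D ≤ S := by exact_mod_cast h.hS
  have hΘ : (16 : ℝ) ≤ Θ := by exact_mod_cast h.hΘ
  have hAD : 1 ≤ (A : ℝ) * D := one_le_mul_of_one_le_of_one_le hA hD
  have hS2 : (32 : ℝ) ≤ S := by linarith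
  have hz : (zz D E S : ℝ) = 1024 * E * S * D ^ 2 := by unfold zz; push_cast; ring
  have hD2 : (1 : ℝ) ≤ (D : ℝ) ^ 2 := one_le_pow₀ hD
  have hES : (32 : ℝ) ≤ E * S := by
    have := mul_le_mul hE hS2 (by norm_num) (by linarith)
    linarith
  have hzz : (32768 : ℝ) ≤ zz D E S := by
    rw [hz]
    have := mul_le_mul hES hD2 (by norm_num) (by linarith)
    linarith
  have hH : 16 * (zz D E S : ℝ) * Θ * (8 * S) ≤ H := by exact_mod_cast h.hH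
  refine ⟨hA, hD, hE, hS, hS2, hΘ, hz, hzz, hH, lt_of_lt_of_le ?_ hH⟩
  have : (0 : ℝ) < zz D E S := by linarith
  positivity

/-- the small parameters -/
theorem GPar.smalls (h : GPar Q lam Δ D E N A S Θ H) :
    0 < 1 / (zz D E S : ℝ) ∧ 1 / (zz D E S : ℝ) * (E * S * D ^ 2) = 1 / 1024 ∧
    1 / (zz D E S : ℝ) * S ≤ 1 / 1024 ∧ 1 / (zz D E S : ℝ) * D ^ 2 ≤ 1 / 1024 ∧
    1 / (zz D E S : ℝ) ≤ 1 / 32768 ∧
    0 < 1 / (Θ : ℝ) ∧ 1 / (Θ : ℝ) ≤ 1 / 16 ∧ 0 < 1 / (H : ℝ) ∧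
    1 / (H : ℝ) * (8 * S) ≤ 1 / (zz D E S : ℝ) * (1 / (Θ : ℝ)) / 16 ∧
    0 < 1 / ((256 * E * zz D E S : ℕ) : ℝ) ∧
    1 / ((256 * E * zz D E S : ℕ) : ℝ) ≤ 1 / (zz D E S : ℝ) / 256 := by
  obtain ⟨hA, hD, hE, hS, hS2, hΘ, hz, hzz, hH, hH0⟩ := h.reals
  have z0 : (0 : ℝ) < zz D E S := by linarith
  have e1 : 1 / (zz D E S : ℝ) * (E * S * D ^ 2) = 1 / 1024 := by
    rw [hz]
    have : (E : ℝ) * S * D ^ 2 ≠ 0 := by positivity
    field_simp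
  have ζ0 : 0 < 1 / (zz D E S : ℝ) := by positivity
  have hD2 : (1 : ℝ) ≤ (D : ℝ) ^ 2 := one_le_pow₀ hD
  refine ⟨ζ0, e1, ?_, ?_, one_div_le_one_div_of_le (by norm_num) hzz, by positivity,
    one_div_le_one_div_of_le (by norm_num) hΘ, by positivity, ?_, ?_, ?_⟩
  · rw [← e1]
    apply mul_le_mul_of_nonneg_left _ ζ0.le
    have h1 : (S : ℝ) ≤ E * S := le_mul_of_one_le_left (by linarith) hE
    have h2 : (E : ℝ) * S ≤ E * S * D ^ 2 := by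
      apply le_mul_of_one_le_right (by positivity) hD2
    linarith
  · rw [← e1]
    apply mul_le_mul_of_nonneg_left _ ζ0.le
    apply le_mul_of_one_le_left (by positivity)
    exact one_le_mul_of_one_le_of_one_le hE (by linarith)
  · rw [one_div_mul_eq_div, one_div_mul_one_div, div_div, div_le_div_iff₀ hH0 (by positivity)]
    linarith
  · have : (0 : ℝ) < ((256 * E * zz D E S : ℕ) : ℝ) := by push_cast; positivity
    positivity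
  · rw [div_div]
    apply one_div_le_one_div_of_le (by positivity)
    push_cast
    have : (zz D E S : ℝ) ≤ E * zz D E S := le_mul_of_one_le_left z0.le hE
    linarith

/-- values for a copy -/
theorem IsCopy.vals (h : GPar Q lam Δ D E N A S Θ H) {v} {α β : ℕ} (hv : IsCopy Q A S D v α β) :
    (1 : ℝ) ≤ α ∧ (α : ℝ) ≤ A ∧ (0 : ℝ) ≤ β ∧ (β : ℝ) + 1 ≤ S ∧
    0 ≤ 1 / (zz D E S : ℝ) * β ∧ 1 / (zz D E S : ℝ) * β ≤ 1 / 1024 ∧
    |(1 / (H : ℝ)) * (gad Q A S D E Θ).Y v| ≤ 1 / (zz D E S : ℝ) * (1 / (Θ : ℝ)) / 16 := by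
  obtain ⟨hA, hD, hE, hS, hS2, hΘ, hz, hzz, hH, hH0⟩ := h.reals
  obtain ⟨s1, s2, s3, s4, s5, s6, s7, s8, s9, s10, s11⟩ := h.smalls
  have a1 : (1 : ℝ) ≤ α := by exact_mod_cast hv.1
  have a2 : (α : ℝ) ≤ A := by exact_mod_cast hv.2.1
  have a3 : (0 : ℝ) ≤ β := by positivity
  have a4 : (β : ℝ) + 1 ≤ S := by exact_mod_cast hv.2.2.1
  refine ⟨a1, a2, a3, a4, by positivity, ?_, ?_⟩
  · refine le_trans (mul_le_mul_of_nonneg_left ?_ s1.le) s3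
    linarith
  · rw [abs_mul, abs_of_pos s8]
    refine le_trans (mul_le_mul_of_nonneg_left ?_ s8.le) s9
    have := abs_le.1 (g_Y h hv)
    rw [abs_le]
    constructor <;> linarith [this.1, this.2]

theorem g_bX (h : GPar Q lam Δ D E N A S Θ H) (v) (α β : ℕ) (hv : IsCopy Q A S D v α β) :
    (1 / 2 : ℝ) ≤ (gad Q A S D E Θ).X v ∧ (gad Q A S D E Θ).X v ≤ ((A + 2 : ℕ) : ℝ) ∧
      |(gad Q A S D E Θ).Y v| ≤ ((8 * S : ℕ) : ℝ) := by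
  obtain ⟨hA, hD, hE, hS, hS2, hΘ, hz, hzz, hH, hH0⟩ := h.reals
  obtain ⟨s1, s2, s3, s4, s5, s6, s7, s8, s9, s10, s11⟩ := h.smalls
  obtain ⟨a1, a2, a3, a4, a5, a6, a7⟩ := hv.vals h
  have hX := abs_le.1 (g_X h hv)
  have hY := abs_le.1 (g_Y h hv)
  push_cast
  refine ⟨by linarith [hX.1], by linarith [hX.2], ?_⟩
  rw [abs_le]
  constructor <;> linarith [hY.1, hY.2]

theorem g_bx (h : GPar Q lam Δ D E N A S Θ H) (g) :
    |(gad Q A S D E Θ).x g| ≤ ((8 * S : ℕ) : ℝ) := by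
  obtain ⟨hA, hD, hE, hS, hS2, hΘ, hz, hzz, hH, hH0⟩ := h.reals
  obtain ⟨s1, s2, s3, s4, s5, s6, s7, s8, s9, s10, s11⟩ := h.smalls
  have hDS : (D : ℝ) ≤ S := by
    have : (D : ℝ) ≤ A * D := le_mul_of_one_le_left (by linarith) hA
    have h0 : (0 : ℝ) ≤ A * D := by positivity
    linarith
  have z0 : (zz D E S : ℝ) ≠ 0 := by linarith
  have ht : |(Q.t g.1 : ℝ)| ≤ D := by exact_mod_cast h.gQ.td g.1
  have e : (gad Q A S D E Θ).x g = Q.t g.1 - 1 / (zz D E S : ℝ) * (Q.t g.1 : ℝ) ^ 2 := by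
    simp only [Gad.x, gad]
    push_cast
    field_simp
  have h2 : (Q.t g.1 : ℝ) ^ 2 ≤ D ^ 2 := by
    rw [← sq_abs]; exact pow_le_pow_left₀ (abs_nonneg _) ht 2
  have h3 : 1 / (zz D E S : ℝ) * (Q.t g.1 : ℝ) ^ 2 ≤ 1 / 1024 :=
    le_trans (mul_le_mul_of_nonneg_left h2 s1.le) s4
  have h4 : 0 ≤ 1 / (zz D E S : ℝ) * (Q.t g.1 : ℝ) ^ 2 := by positivity
  have ht' := abs_le.1 ht
  rw [e, abs_le]
  push_cast
  constructor <;> linarith [ht'.1, ht'.2]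

theorem g_by (h : GPar Q lam Δ D E N A S Θ H) (g) :
    |(gad Q A S D E Θ).y g| ≤ ((8 * S : ℕ) : ℝ) := by
  obtain ⟨hA, hD, hE, hS, hS2, hΘ, hz, hzz, hH, hH0⟩ := h.reals
  obtain ⟨s1, s2, s3, s4, s5, s6, s7, s8, s9, s10, s11⟩ := h.smalls
  have hAD0 : (0 : ℝ) ≤ A * D := by positivity
  have hDS : (D : ℝ) ≤ S := by
    have : (D : ℝ) ≤ A * D := le_mul_of_one_le_left (by linarith) hA
    linarith
  have z0 : (0 : ℝ) < zz D E S := by linarith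
  have ht : |(Q.t g.1 : ℝ)| ≤ D := by exact_mod_cast h.gQ.td g.1
  have he : |Q.e g.1| ≤ E := h.gQ.ee g.1
  have e : (gad Q A S D E Θ).y g = (1 - (1 / (zz D E S : ℝ)) * Q.t g.1) * (gc A S D g : ℝ)
    + (1 / (64 * E * zz D E S : ℝ)) * Q.e g.1 := rfl
  have hg1 : |(gc A S D g : ℝ)| ≤ S + A * D := by
    have hlt : ((g.2 : ℕ) : ℝ) + 1 ≤ S + 2 * A * D := by exact_mod_cast g.2.2
    have h0 : (0 : ℝ) ≤ ((g.2 : ℕ) : ℝ) := by positivity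
    unfold gc
    push_cast
    rw [abs_le]
    constructor <;> linarith
  have hAD : (A : ℝ) * D ≤ S := by linarith
  have hb1 : |1 - (1 / (zz D E S : ℝ)) * Q.t g.1| ≤ 2 := by
    have h1 : |(1 / (zz D E S : ℝ)) * Q.t g.1| ≤ 1 / 1024 := by
      rw [abs_mul, abs_of_pos s1]
      refine le_trans (mul_le_mul_of_nonneg_left ?_ s1.le) s3
      linarith
    have := abs_le.1 h1
    rw [abs_le]
    constructor <;> linarith [this.1, this.2]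
  have hb2 : |(1 / (64 * E * zz D E S : ℝ)) * Q.e g.1| ≤ 1 := by
    have p : 0 < 1 / (64 * E * zz D E S : ℝ) := by positivity
    rw [abs_mul, abs_of_pos p, div_mul_eq_mul_div, one_mul, div_le_one (by positivity)]
    have : (E : ℝ) * 1 ≤ E * (64 * zz D E S) := mul_le_mul_of_nonneg_left (by linarith) (by linarith)
    linarith
  rw [e]
  refine le_trans (abs_add_le _ _) ?_
  rw [abs_mul]
  push_cast
  have : |1 - (1 / (zz D E S : ℝ)) * Q.t g.1| * |(gc A S D g : ℝ)| ≤ 2 * (S + A * D) :=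
    mul_le_mul hb1 hg1 (abs_nonneg _) (by norm_num)
  linarith

theorem g_inl_eq (Q : Cfg ι) (A S D E Θ : ℕ) (k : Fin A × Fin (S - 1)) :
    (gad Q A S D E Θ).o (Sum.inl k) = -((1 - 1 / (Θ : ℝ)) * (((k.1 : ℕ) : ℝ) + 1
        + (1 / (zz D E S : ℝ)) * (((k.2 : ℕ) : ℝ) + 1 / 2))) := rfl

theorem g_inr_eq (Q : Cfg ι) (A S D E Θ : ℕ) (k : Fin (A - 1)) :
    (gad Q A S D E Θ).o (Sum.inr k) = (1 / (Θ : ℝ)) * (((k : ℕ) : ℝ) + 1 + 3 / 4) := rfl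

/-- bounds for the second index of a left offset -/
theorem g_bS (h : GPar Q lam Δ D E N A S Θ H) (b : Fin (S - 1)) :
    0 ≤ 1 / (zz D E S : ℝ) * (((b : ℕ) : ℝ) + 1 / 2) ∧
    1 / (zz D E S : ℝ) * (((b : ℕ) : ℝ) + 1 / 2) ≤ 1 / 1024 := by
  obtain ⟨s1, s2, s3, s4, s5, s6, s7, s8, s9, s10, s11⟩ := h.smalls
  have hb : ((b : ℕ) : ℝ) + 1 ≤ S := by
    have := b.2
    have h2 : (b : ℕ) + 1 ≤ S := by omega
    exact_mod_cast h2
  refine ⟨by positivity, le_trans (mul_le_mul_of_nonneg_left ?_ s1.le) s3⟩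
  linarith

theorem g_bo (h : GPar Q lam Δ D E N A S Θ H) (o) :
    |(gad Q A S D E Θ).o o| ≤ ((A + 2 : ℕ) : ℝ) := by
  obtain ⟨hA, hD, hE, hS, hS2, hΘ, hz, hzz, hH, hH0⟩ := h.reals
  obtain ⟨s1, s2, s3, s4, s5, s6, s7, s8, s9, s10, s11⟩ := h.smalls
  rcases o with ⟨a, b⟩ | a
  · have ha : ((a : ℕ) : ℝ) + 1 ≤ A := by exact_mod_cast a.2
    obtain ⟨hb4, hb3⟩ := g_bS h b
    have h0 : 0 ≤ ((a : ℕ) : ℝ) := by positivity
    rw [g_inl_eq, abs_neg, abs_mul]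
    have q1 : |1 - 1 / (Θ : ℝ)| ≤ 1 := by
      rw [abs_le]; constructor <;> linarith
    have q2 : |((a : ℕ) : ℝ) + 1 + (1 / (zz D E S : ℝ)) * (((b : ℕ) : ℝ) + 1 / 2)| ≤ A + 2 := by
      rw [abs_le]; constructor <;> linarith
    push_cast
    calc _ ≤ 1 * ((A : ℝ) + 2) := mul_le_mul q1 q2 (abs_nonneg _) (by norm_num)
      _ = _ := one_mul _
  · have ha : ((a : ℕ) : ℝ) + 1 ≤ A := by
      have := a.2
      have h2 : (a : ℕ) + 1 ≤ A := by omega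
      exact_mod_cast h2
    have h0 : 0 ≤ ((a : ℕ) : ℝ) := by positivity
    rw [g_inr_eq, abs_mul, abs_of_pos s6]
    have q2 : |((a : ℕ) : ℝ) + 1 + 3 / 4| ≤ A + 2 := by
      rw [abs_le]; constructor <;> linarith
    push_cast
    calc _ ≤ 1 * ((A : ℝ) + 2) := mul_le_mul (by linarith) q2 (abs_nonneg _) (by norm_num)
      _ = _ := one_mul _

/-- bounds -/
theorem g_bounds (h : GPar Q lam Δ D E N A S Θ H) :
    (∀ v α β, IsCopy Q A S D v α β → (1 / 2 : ℝ) ≤ (gad Q A S D E Θ).X v ∧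
      (gad Q A S D E Θ).X v ≤ ((A + 2 : ℕ) : ℝ) ∧
      |(gad Q A S D E Θ).Y v| ≤ ((8 * S : ℕ) : ℝ)) ∧
    (∀ g, |(gad Q A S D E Θ).x g| ≤ ((8 * S : ℕ) : ℝ)) ∧
    (∀ g, |(gad Q A S D E Θ).y g| ≤ ((8 * S : ℕ) : ℝ)) ∧
    (∀ o, |(gad Q A S D E Θ).o o| ≤ ((A + 2 : ℕ) : ℝ)) :=
  ⟨fun v α β hv => g_bX h v α β hv, g_bx h, g_by h, g_bo h⟩

/-- the threshold at the left endpoint -/
theorem g_Ta (h : GPar Q lam Δ D E N A S Θ H) {v} {α β : ℕ} (hv : IsCopy Q A S D v α β) :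
    (1 / (Θ : ℝ)) * ((α : ℝ) - 1 / 256) ≤
      (1 / (H : ℝ)) * (gad Q A S D E Θ).Y v + (1 / (Θ : ℝ)) * (gad Q A S D E Θ).X v ∧
    (1 / (H : ℝ)) * (gad Q A S D E Θ).Y v + (1 / (Θ : ℝ)) * (gad Q A S D E Θ).X v ≤
      (1 / (Θ : ℝ)) * ((α : ℝ) + 1 / 256) := by
  obtain ⟨s1, s2, s3, s4, s5, s6, s7, s8, s9, s10, s11⟩ := h.smalls
  obtain ⟨a1, a2, a3, a4, a5, a6, a7⟩ := hv.vals h
  have hX := abs_le.1 (g_X h hv)
  obtain ⟨b1, b2⟩ := abs_le.1 a7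
  have X1 : (α : ℝ) - 1 / 512 ≤ (gad Q A S D E Θ).X v := by linarith [hX.1]
  have X2 : (gad Q A S D E Θ).X v ≤ (α : ℝ) + 1 / 512 := by linarith [hX.2]
  have hζθ := mul_le_mul_of_nonneg_right s5 s6.le
  have t1 := mul_le_mul_of_nonneg_left X1 s6.le
  have t2 := mul_le_mul_of_nonneg_left X2 s6.le
  constructor <;> linarith

theorem g_inl_neg (h : GPar Q lam Δ D E N A S Θ H) (k : Fin A × Fin (S - 1)) :
    (gad Q A S D E Θ).o (Sum.inl k) ≤ -(15 / 16) := by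
  obtain ⟨s1, s2, s3, s4, s5, s6, s7, s8, s9, s10, s11⟩ := h.smalls
  obtain ⟨hb4, hb3⟩ := g_bS h k.2
  have h0 : 0 ≤ ((k.1 : ℕ) : ℝ) := by positivity
  rw [g_inl_eq]
  have : (15 / 16 : ℝ) * 1 ≤ (1 - 1 / (Θ : ℝ)) * (((k.1 : ℕ) : ℝ) + 1
      + (1 / (zz D E S : ℝ)) * (((k.2 : ℕ) : ℝ) + 1 / 2)) :=
    mul_le_mul (by linarith) (by linarith) (by norm_num) (by linarith)
  linarith

theorem g_oa_lt (h : GPar Q lam Δ D E N A S Θ H) {v} {α β : ℕ} (hv : IsCopy Q A S D v α β)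
    (k : Fin (A - 1)) (hk : (k : ℕ) + 1 < α) :
    (gad Q A S D E Θ).o (Sum.inr k) + (1 / (Θ : ℝ)) / 8 ≤
      (1 / (H : ℝ)) * (gad Q A S D E Θ).Y v + (1 / (Θ : ℝ)) * (gad Q A S D E Θ).X v := by
  obtain ⟨s1, s2, s3, s4, s5, s6, s7, s8, s9, s10, s11⟩ := h.smalls
  obtain ⟨t1, t2⟩ := g_Ta h hv
  have hk' : ((k : ℕ) : ℝ) + 2 ≤ α := by
    have : (k : ℕ) + 2 ≤ α := by omega
    exact_mod_cast this
  rw [g_inr_eq]
  have := mul_le_mul_of_nonneg_left hk' s6.le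
  linarith

theorem g_oa_ge (h : GPar Q lam Δ D E N A S Θ H) {v} {α β : ℕ} (hv : IsCopy Q A S D v α β)
    (k : Fin (A - 1)) (hk : ¬ (k : ℕ) + 1 < α) :
    (1 / (H : ℝ)) * (gad Q A S D E Θ).Y v + (1 / (Θ : ℝ)) * (gad Q A S D E Θ).X v
      + (1 / (Θ : ℝ)) / 8 ≤ (gad Q A S D E Θ).o (Sum.inr k) := by
  obtain ⟨s1, s2, s3, s4, s5, s6, s7, s8, s9, s10, s11⟩ := h.smalls
  obtain ⟨t1, t2⟩ := g_Ta h hv
  have hk' : (α : ℝ) ≤ ((k : ℕ) : ℝ) + 1 := by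
    have : α ≤ (k : ℕ) + 1 := by omega
    exact_mod_cast this
  rw [g_inr_eq]
  have := mul_le_mul_of_nonneg_left hk' s6.le
  linarith

/-- offsets at the left endpoint: sign and margin (`inl` offsets are always below) -/
theorem g_oa (h : GPar Q lam Δ D E N A S Θ H) {v} {α β : ℕ} (hv : IsCopy Q A S D v α β) :
    (∀ k : Fin A × Fin (S - 1), (gad Q A S D E Θ).o (Sum.inl k) <
      (1 / (H : ℝ)) * (gad Q A S D E Θ).Y v + (1 / (Θ : ℝ)) * (gad Q A S D E Θ).X v) ∧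
    (∀ k : Fin (A - 1), (gad Q A S D E Θ).o (Sum.inr k) <
      (1 / (H : ℝ)) * (gad Q A S D E Θ).Y v + (1 / (Θ : ℝ)) * (gad Q A S D E Θ).X v ↔
        (k : ℕ) + 1 < α) ∧
    (∀ k, 5 * (1 / (Θ : ℝ)) * (1 / ((256 * E * zz D E S : ℕ) : ℝ)) ≤
      |(gad Q A S D E Θ).o k - ((1 / (H : ℝ)) * (gad Q A S D E Θ).Y v
        + (1 / (Θ : ℝ)) * (gad Q A S D E Θ).X v)|) := by
  obtain ⟨s1, s2, s3, s4, s5, s6, s7, s8, s9, s10, s11⟩ := h.smalls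
  have a1 : (1 : ℝ) ≤ α := by exact_mod_cast hv.1
  have t1 := (g_Ta h hv).1
  have T0 : 0 < (1 / (H : ℝ)) * (gad Q A S D E Θ).Y v + (1 / (Θ : ℝ)) * (gad Q A S D E Θ).X v :=
    lt_of_lt_of_le (mul_pos s6 (by linarith)) t1
  have m1 : 1 / (Θ : ℝ) * (1 / ((256 * E * zz D E S : ℕ) : ℝ)) ≤ 1 / (Θ : ℝ) * (1 / 40) :=
    mul_le_mul_of_nonneg_left (by linarith) s6.le
  refine ⟨fun k => by linarith [g_inl_neg h k], ?_, ?_⟩
  · intro k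
    constructor
    · intro hh
      by_contra hcon
      have := g_oa_ge h hv k hcon
      linarith
    · intro hh
      have := g_oa_lt h hv k hh
      linarith
  · rintro (k | k)
    · have := g_inl_neg h k
      rw [abs_sub_comm]
      refine le_trans ?_ (le_abs_self _)
      linarith
    · by_cases hk : (k : ℕ) + 1 < α
      · have := g_oa_lt h hv k hk
        rw [abs_sub_comm]
        refine le_trans ?_ (le_abs_self _)
        linarith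
      · have := g_oa_ge h hv k hk
        refine le_trans ?_ (le_abs_self _)
        linarith

theorem g_Tc (h : GPar Q lam Δ D E N A S Θ H) {v} {α β : ℕ} (hv : IsCopy Q A S D v α β) :
    -(1 / (zz D E S : ℝ) / 128) ≤ (1 / (H : ℝ)) * (gad Q A S D E Θ).Y v ∧
    (1 / (H : ℝ)) * (gad Q A S D E Θ).Y v ≤ 1 / (zz D E S : ℝ) / 128 ∧
    (1 / (H : ℝ)) * (gad Q A S D E Θ).Y v - (1 - 1 / (Θ : ℝ)) * (gad Q A S D E Θ).X v
      ≤ -(1 / 2) := by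
  obtain ⟨s1, s2, s3, s4, s5, s6, s7, s8, s9, s10, s11⟩ := h.smalls
  obtain ⟨a1, a2, a3, a4, a5, a6, a7⟩ := hv.vals h
  have hX := abs_le.1 (g_X h hv)
  obtain ⟨b1, b2⟩ := abs_le.1 a7
  have m1 := mul_le_mul_of_nonneg_left s7 s1.le
  have X1 : (511 / 512 : ℝ) ≤ (gad Q A S D E Θ).X v := by linarith [hX.1]
  have : (15 / 16 : ℝ) * (511 / 512) ≤ (1 - 1 / (Θ : ℝ)) * (gad Q A S D E Θ).X v :=
    mul_le_mul (by linarith) X1 (by norm_num) (by linarith)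
  refine ⟨by linarith, by linarith, by linarith⟩

theorem g_oc_lt (h : GPar Q lam Δ D E N A S Θ H) {v} {α β : ℕ} (hv : IsCopy Q A S D v α β)
    (k : Fin A × Fin (S - 1)) (hk : α < (k.1 : ℕ) + 1 ∨ (α = (k.1 : ℕ) + 1 ∧ β ≤ (k.2 : ℕ))) :
    (gad Q A S D E Θ).o (Sum.inl k) + 1 / (zz D E S : ℝ) / 8 ≤
      (1 / (H : ℝ)) * (gad Q A S D E Θ).Y v - (1 - 1 / (Θ : ℝ)) * (gad Q A S D E Θ).X v := by
  obtain ⟨s1, s2, s3, s4, s5, s6, s7, s8, s9, s10, s11⟩ := h.smalls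
  obtain ⟨a1, a2, a3, a4, a5, a6, a7⟩ := hv.vals h
  obtain ⟨X1, X2⟩ := abs_le.1 (g_X h hv)
  obtain ⟨c1, c2, c3⟩ := g_Tc h hv
  obtain ⟨hb4, hb3⟩ := g_bS h k.2
  rw [g_inl_eq]
  have key : 1 / (zz D E S : ℝ) / 4 ≤ ((k.1 : ℕ) : ℝ) + 1
      + 1 / (zz D E S : ℝ) * (((k.2 : ℕ) : ℝ) + 1 / 2) - (gad Q A S D E Θ).X v := by
    rcases hk with hk | ⟨hk1, hk2⟩
    · have hk' : (α : ℝ) + 1 ≤ ((k.1 : ℕ) : ℝ) + 1 := by
        have : α + 1 ≤ (k.1 : ℕ) + 1 := by omega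
        exact_mod_cast this
      linarith
    · have hk' : (α : ℝ) = ((k.1 : ℕ) : ℝ) + 1 := by exact_mod_cast hk1
      have hk3 : (β : ℝ) ≤ ((k.2 : ℕ) : ℝ) := by exact_mod_cast hk2
      have := mul_le_mul_of_nonneg_left hk3 s1.le
      linarith
  have : (15 / 16) * (1 / (zz D E S : ℝ) / 4) ≤ (1 - 1 / (Θ : ℝ)) * (((k.1 : ℕ) : ℝ) + 1
      + 1 / (zz D E S : ℝ) * (((k.2 : ℕ) : ℝ) + 1 / 2) - (gad Q A S D E Θ).X v) :=
    mul_le_mul (by linarith) key (by positivity) (by linarith)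
  linarith

theorem g_oc_ge (h : GPar Q lam Δ D E N A S Θ H) {v} {α β : ℕ} (hv : IsCopy Q A S D v α β)
    (k : Fin A × Fin (S - 1))
    (hk : ¬ (α < (k.1 : ℕ) + 1 ∨ (α = (k.1 : ℕ) + 1 ∧ β ≤ (k.2 : ℕ)))) :
    (1 / (H : ℝ)) * (gad Q A S D E Θ).Y v - (1 - 1 / (Θ : ℝ)) * (gad Q A S D E Θ).X v
      + 1 / (zz D E S : ℝ) / 8 ≤ (gad Q A S D E Θ).o (Sum.inl k) := by
  obtain ⟨s1, s2, s3, s4, s5, s6, s7, s8, s9, s10, s11⟩ := h.smalls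
  obtain ⟨a1, a2, a3, a4, a5, a6, a7⟩ := hv.vals h
  obtain ⟨X1, X2⟩ := abs_le.1 (g_X h hv)
  obtain ⟨c1, c2, c3⟩ := g_Tc h hv
  obtain ⟨hb4, hb3⟩ := g_bS h k.2
  push Not at hk
  obtain ⟨hk1, hk2⟩ := hk
  rw [g_inl_eq]
  have key : 1 / (zz D E S : ℝ) / 4 ≤ (gad Q A S D E Θ).X v - (((k.1 : ℕ) : ℝ) + 1
      + 1 / (zz D E S : ℝ) * (((k.2 : ℕ) : ℝ) + 1 / 2)) := by
    rcases Nat.lt_or_ge ((k.1 : ℕ) + 1) α with hc | hc
    · have hk' : ((k.1 : ℕ) : ℝ) + 2 ≤ (α : ℝ) := by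
        have : (k.1 : ℕ) + 2 ≤ α := by omega
        exact_mod_cast this
      linarith
    · have hk4 : α = (k.1 : ℕ) + 1 := by omega
      have hk' : (α : ℝ) = ((k.1 : ℕ) : ℝ) + 1 := by exact_mod_cast hk4
      have hk5 := hk2 hk4
      have hk3 : ((k.2 : ℕ) : ℝ) + 1 ≤ (β : ℝ) := by exact_mod_cast hk5
      have := mul_le_mul_of_nonneg_left hk3 s1.le
      linarith
  have : (15 / 16) * (1 / (zz D E S : ℝ) / 4) ≤ (1 - 1 / (Θ : ℝ)) * ((gad Q A S D E Θ).X v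
      - (((k.1 : ℕ) : ℝ) + 1 + 1 / (zz D E S : ℝ) * (((k.2 : ℕ) : ℝ) + 1 / 2))) :=
    mul_le_mul (by linarith) key (by positivity) (by linarith)
  linarith

/-- offsets at the right endpoint: sign and margin (`inr` offsets are always above) -/
theorem g_oc (h : GPar Q lam Δ D E N A S Θ H) {v} {α β : ℕ} (hv : IsCopy Q A S D v α β) :
    (∀ k : Fin (A - 1), ¬ (gad Q A S D E Θ).o (Sum.inr k) <
      (1 / (H : ℝ)) * (gad Q A S D E Θ).Y v - (1 - 1 / (Θ : ℝ)) * (gad Q A S D E Θ).X v) ∧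
    (∀ k : Fin A × Fin (S - 1), (gad Q A S D E Θ).o (Sum.inl k) <
      (1 / (H : ℝ)) * (gad Q A S D E Θ).Y v - (1 - 1 / (Θ : ℝ)) * (gad Q A S D E Θ).X v ↔
        (α < (k.1 : ℕ) + 1 ∨ (α = (k.1 : ℕ) + 1 ∧ β ≤ (k.2 : ℕ)))) ∧
    (∀ k, 7 * (1 / ((256 * E * zz D E S : ℕ) : ℝ)) ≤
      |(gad Q A S D E Θ).o k - ((1 / (H : ℝ)) * (gad Q A S D E Θ).Y v
        - (1 - 1 / (Θ : ℝ)) * (gad Q A S D E Θ).X v)|) := by
  obtain ⟨s1, s2, s3, s4, s5, s6, s7, s8, s9, s10, s11⟩ := h.smalls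
  obtain ⟨c1, c2, c3⟩ := g_Tc h hv
  have hinr : ∀ k : Fin (A - 1), 0 ≤ (gad Q A S D E Θ).o (Sum.inr k) := by
    intro k
    rw [g_inr_eq]
    positivity
  refine ⟨fun k => by linarith [hinr k], ?_, ?_⟩
  · intro k
    constructor
    · intro hh
      by_contra hcon
      have := g_oc_ge h hv k hcon
      linarith
    · intro hh
      have := g_oc_lt h hv k hh
      linarith
  · rintro (k | k)
    · by_cases hk : (α < (k.1 : ℕ) + 1 ∨ (α = (k.1 : ℕ) + 1 ∧ β ≤ (k.2 : ℕ)))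
      · have := g_oc_lt h hv k hk
        rw [abs_sub_comm]
        refine le_trans ?_ (le_abs_self _)
        linarith
      · have := g_oc_ge h hv k hk
        refine le_trans ?_ (le_abs_self _)
        linarith
    · have := hinr k
      refine le_trans ?_ (le_abs_self _)
      linarith

end Vale.Agent.P065
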