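import Vale.Agent.P065.EndCfg
import Vale.Agent.P065.Asymp

/-!
# P065, Q2 : `k`-sets
-/

namespace Vale.Agent.P065

open Finset Topology

/-- `S` is a `k`-set of `P`: `S ⊆ P`, `|S| = k`, and some line `{x : u x₁ + v x₂ = c}` has `S` in one open
halfplane and `P \ S` in the other -/
def IsKSet (P S : Finset (ℝ × ℝ)) (k : ℕ) : Prop :=
  S ⊆ P ∧ S.card = k ∧ ∃ u v c : ℝ, (u ≠ 0 ∨ v ≠ 0) ∧ (∀ x ∈ S, u * x.1 + v * x.2 < c) ∧
    ∀ x ∈ P, x ∉ S → c < u * x.1 + v * x.2

/-- copies flattened onto the tangents of a parabola -/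
theorem Lev.copiesT {ι : Type} [Fintype ι] {lam M : ℕ} (h : Lev ι lam M) (m : ℕ) :
    Lev (Fin m × ι) lam (m * M) := by
  classical
  obtain ⟨p, ev, hM, h⟩ := h
  let P : ℝ → Fin m × ι → ℝ × ℝ := fun ε k =>
    ((k.1 : ℕ) + ε * (p k.2).1,
      ((k.1 : ℕ) : ℝ) ^ 2 + ε * (2 * ((k.1 : ℕ) : ℝ)) * (p k.2).1 + ε ^ 2 * (p k.2).2)
  obtain ⟨ε, hε, hP⟩ : ∃ ε : ℝ, 0 < ε ∧ ∀ w ∈ ev, ∀ i j : Fin m, ∀ k : ι, j ≠ i →
      0 < orient (P ε (i, w.1)) (P ε (i, w.2)) (P ε (j, k)) := by
    have key : ∀ w ∈ ev, ∀ i j : Fin m, ∀ k : ι, ∀ᶠ ε : ℝ in 𝓝[>] 0, (j ≠ i →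
        0 < orient (P ε (i, w.1)) (P ε (i, w.2)) (P ε (j, k))) := by
      intro w hw i j k
      by_cases hij : j = i
      · exact Filter.Eventually.of_forall fun ε hne => absurd hij hne
      have hne : ((j : ℕ) : ℝ) - (i : ℕ) ≠ 0 := by
        intro hh
        apply hij
        apply Fin.ext
        have : ((j : ℕ) : ℝ) = (i : ℕ) := by linarith
        exact_mod_cast this
      have ht : 0 < (p w.2).1 - (p w.1).1 := sub_pos.2 (h w hw).1
      let G : ℝ → ℝ := fun ε =>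
        ((p w.2).1 - (p w.1).1) * ((((j : ℕ) : ℝ) ^ 2 + ε * (2 * ((j : ℕ) : ℝ)) * (p k).1
          + ε ^ 2 * (p k).2 - ((((i : ℕ) : ℝ)) ^ 2 + ε * (2 * ((i : ℕ) : ℝ)) * (p w.1).1
          + ε ^ 2 * (p w.1).2)) - (2 * ((i : ℕ) : ℝ)) *
            (((j : ℕ) : ℝ) + ε * (p k).1 - (((i : ℕ) : ℝ) + ε * (p w.1).1))) -
          ε * (((j : ℕ) : ℝ) + ε * (p k).1 - (((i : ℕ) : ℝ) + ε * (p w.1).1)) *
            ((p w.2).2 - (p w.1).2)
      have hG : ∀ ε, orient (P ε (i, w.1)) (P ε (i, w.2)) (P ε (j, k)) = ε * G ε := by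
        intro ε
        simp only [orient, P, G]
        ring
      have hcont : Continuous G := by
        simp only [G]
        fun_prop
      have hG0 : G 0 = ((p w.2).1 - (p w.1).1) * (((j : ℕ) : ℝ) - (i : ℕ)) ^ 2 := by
        simp only [G]
        ring
      have hpos : ∀ᶠ ε : ℝ in 𝓝[>] 0, 0 < ε := eventually_mem_nhdsWithin
      have h0 : 0 < G 0 := by rw [hG0]; positivity
      have h1 : ∀ᶠ ε : ℝ in 𝓝[>] 0, 0 < G ε :=
        (hcont.continuousAt.eventually (eventually_gt_nhds h0)).filter_mono nhdsWithin_le_nhds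
      filter_upwards [h1, hpos] with ε h1 hpos _
      rw [hG]
      exact mul_pos hpos h1
    have key2 : ∀ᶠ ε : ℝ in 𝓝[>] 0, ∀ w ∈ ev, ∀ i j : Fin m, ∀ k : ι, (j ≠ i →
        0 < orient (P ε (i, w.1)) (P ε (i, w.2)) (P ε (j, k))) := by
      rw [Filter.eventually_all_finset]
      intro w hw
      rw [Filter.eventually_all]
      intro i
      rw [Filter.eventually_all]
      intro j
      rw [Filter.eventually_all]
      intro k
      exact key w hw i j k
    have hpos : ∀ᶠ ε : ℝ in 𝓝[>] 0, 0 < ε := eventually_mem_nhdsWithin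
    obtain ⟨ε, h1, h2⟩ := (hpos.and key2).exists
    exact ⟨ε, h1, h2⟩
  let f : (Fin m × (ι × ι)) ↪ (Fin m × ι) × (Fin m × ι) :=
    ⟨fun x => ((x.1, x.2.1), (x.1, x.2.2)), by
      rintro ⟨i, a, b⟩ ⟨i', a', b'⟩ hh
      simp only [Prod.mk.injEq] at hh
      obtain ⟨⟨h1, h2⟩, h3, h4⟩ := hh
      rw [h1, h2, h4]⟩
  refine ⟨P ε, ((univ : Finset (Fin m)) ×ˢ ev).map f, ?_, ?_⟩
  · rw [card_map, card_product, card_univ, Fintype.card_fin]
    exact Nat.mul_le_mul_left _ hM
  intro w' hw'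
  rw [Finset.mem_map] at hw'
  obtain ⟨⟨i, w⟩, hw, rfl⟩ := hw'
  rw [mem_product] at hw
  replace hw := hw.2
  simp only at hw
  obtain ⟨h1, h2, h3⟩ := h w hw
  have hsame : ∀ k, orient (P ε (i, w.1)) (P ε (i, w.2)) (P ε (i, k)) =
      ε ^ 3 * orient (p w.1) (p w.2) (p k) := by
    intro k
    simp only [orient, P]
    ring
  refine ⟨?_, ?_, ?_⟩
  · show ((i : ℕ) : ℝ) + ε * (p w.1).1 < ((i : ℕ) : ℝ) + ε * (p w.2).1
    have := mul_lt_mul_of_pos_left h1 hε
    linarith
  · rintro ⟨j, k⟩ hk1 hk2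
    by_cases hij : j = i
    · subst hij
      show orient (P ε (j, w.1)) (P ε (j, w.2)) (P ε (j, k)) ≠ 0
      rw [hsame]
      refine mul_ne_zero (by positivity) (h2 k ?_ ?_)
      · rintro rfl; exact hk1 rfl
      · rintro rfl; exact hk2 rfl
    · exact (hP w hw i j k hij).ne'
  · rw [Finset.card_filter, Fintype.sum_prod_type]
    show ∑ j, ∑ k, (if orient (P ε (i, w.1)) (P ε (i, w.2)) (P ε (j, k)) < 0 then 1 else 0) = _
    have hrow : ∀ j, (∑ k, (if orient (P ε (i, w.1)) (P ε (i, w.2)) (P ε (j, k)) < 0 then 1 else 0)) =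
        (if j = i then lam else 0) := by
      intro j
      by_cases hij : j = i
      · subst hij
        rw [if_pos rfl, ← h3, Finset.card_filter]
        refine sum_congr rfl fun k _ => ?_
        rw [hsame]
        have : ε ^ 3 * orient (p w.1) (p w.2) (p k) < 0 ↔ orient (p w.1) (p w.2) (p k) < 0 := by
          constructor
          · intro hh
            by_contra hc
            push Not at hc
            have : 0 ≤ ε ^ 3 * orient (p w.1) (p w.2) (p k) := by positivity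
            linarith
          · intro hh
            exact mul_neg_of_pos_of_neg (by positivity) hh
        simp only [this]
      · rw [if_neg hij]
        refine sum_eq_zero fun k _ => if_neg (not_lt.2 (hP w hw i j k hij).le)
    simp only [hrow]
    rw [Finset.sum_ite_eq' univ i, if_pos (mem_univ _)]

/-- events with `lam` points below give `(lam + 1)`-sets -/
theorem Lev.ksets {n lam M : ℕ} (h : Lev (Fin n) lam M) (hn : 3 ≤ n) :
    ∃ P : Finset (ℝ × ℝ), P.card = n ∧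
    (∀ a ∈ P, ∀ b ∈ P, ∀ c ∈ P, a ≠ b → b ≠ c → a ≠ c → ¬ Collinear ℝ {a, b, c}) ∧
    M ≤ {S : Finset (ℝ × ℝ) | IsKSet P S (lam + 1)}.ncard := by
  classical
  obtain ⟨p, hgp, ev, hM, h⟩ := h.genPos
  have hinj : Function.Injective p := by
    intro a b hab
    by_contra hne
    obtain ⟨c, hca, hcb⟩ : ∃ c : Fin n, c ≠ a ∧ c ≠ b := by
      by_contra hcon
      push Not at hcon
      have : (univ : Finset (Fin n)) ⊆ {a, b} := by
        intro c _
        by_cases hc : c = a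
        · simp [hc]
        · simp [hcon c hc]
      have h2 := card_le_card this
      rw [card_univ, Fintype.card_fin] at h2
      have h3 := card_le_two (a := a) (b := b)
      omega
    refine hgp a b c hne (Ne.symm hcb) (Ne.symm hca) ?_
    rw [hab]
    simp only [orient]
    ring
  let P : Finset (ℝ × ℝ) := univ.map ⟨p, hinj⟩
  have hcard : P.card = n := by simp [P]
  have hmem : ∀ x, x ∈ P ↔ ∃ i, p i = x := by intro x; simp [P]
  have z1 : ∀ a b : ℝ × ℝ, orient a b a = 0 := by intro a b; simp only [orient]; ring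
  have z2 : ∀ a b : ℝ × ℝ, orient a b b = 0 := by intro a b; simp only [orient]; ring
  let T : Fin n × Fin n → Finset (Fin n) := fun w =>
    insert w.1 (univ.filter fun k => orient (p w.1) (p w.2) (p k) < 0)
  have hT : ∀ w k, k ∈ T w ↔ k = w.1 ∨ orient (p w.1) (p w.2) (p k) < 0 := by
    intro w k; simp [T]
  refine ⟨P, hcard, ?_, ?_⟩
  · intro a ha b hb c hc hab hbc hac hcol
    obtain ⟨i, rfl⟩ := (hmem a).1 ha
    obtain ⟨j, rfl⟩ := (hmem b).1 hb
    obtain ⟨k, rfl⟩ := (hmem c).1 hc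
    exact hgp i j k (fun hh => hab (by rw [hh])) (fun hh => hbc (by rw [hh]))
      (fun hh => hac (by rw [hh])) (orient_eq_zero_of_collinear hcol)
  · have hfin : {S : Finset (ℝ × ℝ) | IsKSet P S (lam + 1)}.Finite := by
      refine (P.powerset : Finset (Finset (ℝ × ℝ))).finite_toSet.subset ?_
      rintro S ⟨hS, -⟩
      rw [mem_coe, mem_powerset]
      exact hS
    have hmap : (↑(ev.image fun w => (T w).map ⟨p, hinj⟩) : Set (Finset (ℝ × ℝ))) ⊆
        {S | IsKSet P S (lam + 1)} := by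
      intro S hS
      rw [mem_coe, mem_image] at hS
      obtain ⟨w, hw, rfl⟩ := hS
      obtain ⟨h1, h2⟩ := h w hw
      have hne : w.1 ≠ w.2 := by
        intro hh; rw [hh] at h1; exact lt_irrefl _ h1
      refine ⟨map_subset_map.2 (subset_univ _), ?_, ?_⟩
      · rw [card_map, card_insert_of_notMem, h2]
        simp [z1]
      · -- the tilted line
        have hpos : ∀ᶠ ε : ℝ in 𝓝[>] 0, 0 < ε := eventually_mem_nhdsWithin
        let L : ℝ → ℝ × ℝ → ℝ := fun ε x => orient (p w.1) (p w.2) x +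
          ε * (x.1 - ((p w.1).1 + (p w.2).1) / 2)
        have hL : ∀ k, ∀ᶠ ε : ℝ in 𝓝[>] 0, (k ∈ T w → L ε (p k) < 0) ∧ (k ∉ T w → 0 < L ε (p k)) := by
          intro k
          by_cases hk1 : k = w.1
          · filter_upwards [hpos] with ε hε
            refine ⟨fun _ => ?_, fun hh => absurd ((hT w k).2 (Or.inl hk1)) hh⟩
            simp only [L]
            rw [hk1, z1]
            nlinarith
          by_cases hk2 : k = w.2
          · filter_upwards [hpos] with ε hε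
            have hnk : k ∉ T w := by
              rw [hT, hk2, z2]
              push Not
              exact ⟨hne.symm, le_refl _⟩
            refine ⟨fun hh => absurd hh hnk, fun _ => ?_⟩
            simp only [L]
            rw [hk2, z2]
            nlinarith
          have hc : Continuous fun ε => L ε (p k) := by
            simp only [L]; fun_prop
          have h0 : L 0 (p k) = orient (p w.1) (p w.2) (p k) := by simp [L]
          have hne2 := hgp w.1 w.2 k hne (Ne.symm hk2) (Ne.symm hk1)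
          rcases lt_or_gt_of_ne hne2 with hlt | hgt
          · have h0' : L 0 (p k) < 0 := by rw [h0]; exact hlt
            have := (hc.continuousAt.eventually (eventually_lt_nhds h0')).filter_mono
              (nhdsWithin_le_nhds (s := Set.Ioi 0))
            filter_upwards [this] with ε hε
            exact ⟨fun _ => hε, fun hh => absurd ((hT w k).2 (Or.inr hlt)) hh⟩
          · have h0' : 0 < L 0 (p k) := by rw [h0]; exact hgt
            have := (hc.continuousAt.eventually (eventually_gt_nhds h0')).filter_mono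
              (nhdsWithin_le_nhds (s := Set.Ioi 0))
            filter_upwards [this] with ε hε
            refine ⟨fun hh => ?_, fun _ => hε⟩
            rcases (hT w k).1 hh with hh | hh
            · exact absurd hh hk1
            · exact absurd hh (not_lt.2 hgt.le)
        have hL2 : ∀ᶠ ε : ℝ in 𝓝[>] 0, ∀ k, (k ∈ T w → L ε (p k) < 0) ∧
            (k ∉ T w → 0 < L ε (p k)) := by
          rw [Filter.eventually_all]; exact hL
        obtain ⟨ε, hε⟩ := hL2.exists
        refine ⟨ε - ((p w.2).2 - (p w.1).2), (p w.2).1 - (p w.1).1,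
          ((p w.2).1 - (p w.1).1) * (p w.1).2 - (p w.1).1 * ((p w.2).2 - (p w.1).2) +
            ε * (((p w.1).1 + (p w.2).1) / 2), Or.inr (sub_pos.2 h1).ne', ?_, ?_⟩
        · intro x hx
          rw [Finset.mem_map] at hx
          obtain ⟨k, hk, rfl⟩ := hx
          have := (hε k).1 hk
          simp only [L, orient] at this
          show _ * (p k).1 + _ * (p k).2 < _
          nlinarith
        · intro x hx hx'
          obtain ⟨k, rfl⟩ := (hmem x).1 hx
          have hk : k ∉ T w := by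
            intro hk
            apply hx'
            rw [Finset.mem_map]
            exact ⟨k, hk, rfl⟩
          have := (hε k).2 hk
          simp only [L, orient] at this
          nlinarith
    have hinj2 : Set.InjOn (fun w : Fin n × Fin n => (T w).map ⟨p, hinj⟩) ev := by
      intro w hw w' hw' hh
      replace hh : T w = T w' := map_injective _ hh
      have l1 := (h _ hw).1
      have l2 := (h _ hw').1
      have hne : w.1 ≠ w.2 := by
        intro hh; rw [hh] at l1; exact lt_irrefl _ l1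
      have hne' : w'.1 ≠ w'.2 := by
        intro hh; rw [hh] at l2; exact lt_irrefl _ l2
      -- membership facts
      have m1 : w.1 ∈ T w := (hT _ _).2 (Or.inl rfl)
      have m2 : w.2 ∉ T w := by
        rw [hT, z2]
        push Not
        exact ⟨hne.symm, le_refl _⟩
      have m1' : w'.1 ∈ T w' := (hT _ _).2 (Or.inl rfl)
      have m2' : w'.2 ∉ T w' := by
        rw [hT, z2]
        push Not
        exact ⟨hne'.symm, le_refl _⟩
      have a1 : orient (p w.1) (p w.2) (p w'.1) ≤ 0 := by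
        rw [← hh] at m1'
        rcases (hT _ _).1 m1' with e | e
        · rw [e, z1]
        · exact e.le
      have a2 : 0 ≤ orient (p w.1) (p w.2) (p w'.2) := by
        rw [← hh] at m2'
        by_contra hc
        push Not at hc
        exact m2' ((hT _ _).2 (Or.inr hc))
      have a3 : orient (p w'.1) (p w'.2) (p w.1) ≤ 0 := by
        rw [hh] at m1
        rcases (hT _ _).1 m1 with e | e
        · rw [e, z1]
        · exact e.le
      have a4 : 0 ≤ orient (p w'.1) (p w'.2) (p w.2) := by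
        rw [hh] at m2
        by_contra hc
        push Not at hc
        exact m2 ((hT _ _).2 (Or.inr hc))
      have e1 : orient (p w.1) (p w.2) (p w'.2) - orient (p w.1) (p w.2) (p w'.1) =
          -(orient (p w'.1) (p w'.2) (p w.2) - orient (p w'.1) (p w'.2) (p w.1)) := by
        simp only [orient]; ring
      have b1 : orient (p w'.1) (p w'.2) (p w.1) = 0 := by linarith
      have b2 : orient (p w'.1) (p w'.2) (p w.2) = 0 := by linarith
      have c1 : w.1 = w'.1 := by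
        by_contra hc
        by_cases hc2 : w.1 = w'.2
        · rw [hh, hc2] at m1
          exact m2' m1
        · exact hgp w'.1 w'.2 w.1 hne' (Ne.symm hc2) (Ne.symm hc) b1
      have c2 : w.2 = w'.2 := by
        by_contra hc
        by_cases hc2 : w.2 = w'.1
        · rw [hc2, hh] at m2
          exact m2 m1'
        · exact hgp w'.1 w'.2 w.2 hne' (Ne.symm hc) (Ne.symm hc2) b2
      exact Prod.ext c1 c2
    calc M ≤ ev.card := hM
      _ = (ev.image fun w => (T w).map ⟨p, hinj⟩).card := (card_image_of_injOn hinj2).symm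
      _ = (↑(ev.image fun w => (T w).map ⟨p, hinj⟩) : Set (Finset (ℝ × ℝ))).ncard :=
          (Set.ncard_coe_finset _).symm
      _ ≤ _ := Set.ncard_le_ncard hmap hfin

/-- the maximal number of `k`-sets of `n` points in general position -/
noncomputable def ekmax (n k : ℕ) : ℕ := sSup {N | ∃ P : Finset (ℝ × ℝ), P.card = n ∧
  (∀ a ∈ P, ∀ b ∈ P, ∀ c ∈ P, a ≠ b → b ≠ c → a ≠ c → ¬ Collinear ℝ {a, b, c}) ∧
  N = {S : Finset (ℝ × ℝ) | IsKSet P S k}.ncard}

theorem ekmax_bdd (n k : ℕ) : BddAbove {N | ∃ P : Finset (ℝ × ℝ), P.card = n ∧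
    (∀ a ∈ P, ∀ b ∈ P, ∀ c ∈ P, a ≠ b → b ≠ c → a ≠ c → ¬ Collinear ℝ {a, b, c}) ∧
    N = {S : Finset (ℝ × ℝ) | IsKSet P S k}.ncard} := by
  refine ⟨2 ^ n, ?_⟩
  rintro N ⟨P, hP, -, rfl⟩
  rw [← hP, ← card_powerset, ← Set.ncard_coe_finset]
  refine Set.ncard_le_ncard ?_ (Finset.finite_toSet _)
  rintro S ⟨hS, -⟩
  rw [mem_coe, mem_powerset]
  exact hS

theorem ekmax_attained (n k : ℕ) (hn : 3 ≤ n) : ∃ P : Finset (ℝ × ℝ), P.card = n ∧
    (∀ a ∈ P, ∀ b ∈ P, ∀ c ∈ P, a ≠ b → b ≠ c → a ≠ c → ¬ Collinear ℝ {a, b, c}) ∧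
    ekmax n k = {S : Finset (ℝ × ℝ) | IsKSet P S k}.ncard := by
  have h0 : Weak n 0 := ⟨fun _ => 0, ∅, le_refl _, by simp⟩
  obtain ⟨P, h1, h2, -⟩ := h0.finset hn
  have hne : {N | ∃ P : Finset (ℝ × ℝ), P.card = n ∧
    (∀ a ∈ P, ∀ b ∈ P, ∀ c ∈ P, a ≠ b → b ≠ c → a ≠ c → ¬ Collinear ℝ {a, b, c}) ∧
    N = {S : Finset (ℝ × ℝ) | IsKSet P S k}.ncard}.Nonempty := ⟨_, P, h1, h2, rfl⟩
  exact Nat.sSup_mem hne (ekmax_bdd n k)

/-- `e_k(n) / n ≥ (1/4) M1 / n1` for `n1 ≤ 2 k ≤ n` -/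
theorem Weak.le_ekmax {n1 M1 : ℕ} (h : Weak n1 M1) (hn1 : 3 ≤ n1) (k n : ℕ) (hk : n1 ≤ 2 * k)
    (hn : 2 * k ≤ n) : (n : ℝ) * M1 ≤ 4 * n1 * ekmax n k := by
  classical
  rcases Nat.eq_zero_or_pos M1 with rfl | hM
  · have : (0 : ℝ) ≤ 4 * n1 * ekmax n k := by positivity
    simpa using this
  obtain ⟨lam, hl, hlev⟩ := lev_of_weak h hM
  obtain ⟨m, hm⟩ : ∃ m, m = (n - (k - 1 - lam)) / n1 := ⟨_, rfl⟩
  have hk1 : lam + 1 ≤ k := by omega
  have hmn : m * n1 ≤ n - (k - 1 - lam) := by rw [hm]; exact Nat.div_mul_le_self _ _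
  have h1 : n - (k - 1 - lam) < (m + 1) * n1 := by
    have e1 := Nat.div_add_mod (n - (k - 1 - lam)) n1
    have e2 := Nat.mod_lt (n - (k - 1 - lam)) (by omega : 0 < n1)
    rw [← hm] at e1
    nlinarith
  have hm1 : 1 ≤ m := by
    rw [hm]
    exact (Nat.one_le_div_iff (by omega)).2 (by omega)
  have h2 : n ≤ 4 * (m * n1) := by
    have e1 : (m + 1) * n1 = m * n1 + n1 := by ring
    have e2 : n1 ≤ m * n1 := Nat.le_mul_of_pos_left _ hm1
    omega
  have h3 := (hlev.copiesT m).addFar (Fin (n - (k - 1 - lam) - m * n1)) (Fin (k - 1 - lam))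
  have hc : Fintype.card ((Fin m × Fin n1) ⊕ Fin (n - (k - 1 - lam) - m * n1) ⊕ Fin (k - 1 - lam)) =
      n := by
    simp only [Fintype.card_sum, Fintype.card_prod, Fintype.card_fin]
    omega
  have h4 := h3.equiv (Fintype.equivFinOfCardEq hc)
  have h5 : lam + Fintype.card (Fin (k - 1 - lam)) = k - 1 := by
    rw [Fintype.card_fin]; omega
  rw [h5] at h4
  obtain ⟨P, hP1, hP2, hP3⟩ := h4.ksets (by omega)
  rw [Nat.sub_add_cancel (by omega : 1 ≤ k)] at hP3
  have h6 : m * M1 ≤ ekmax n k := hP3.trans (le_csSup (ekmax_bdd n k) ⟨P, hP1, hP2, rfl⟩)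
  have h7 : n * M1 ≤ 4 * n1 * ekmax n k := by
    calc n * M1 ≤ 4 * (m * n1) * M1 := Nat.mul_le_mul_right _ h2
      _ = 4 * n1 * (m * M1) := by ring
      _ ≤ _ := Nat.mul_le_mul_left _ h6
  exact_mod_cast h7

/-- the final asymptotic lemma for `k`-sets -/
theorem asympK (C : ℝ) (hC : 1 ≤ C) (J0 : ℕ)
    (H : ∀ J : ℕ, J0 ≤ J → ∃ B c : ℝ, 0 < B ∧ 0 < c ∧ ∀ j : ℕ, ∃ n1 M1 : ℕ, 0 < n1 ∧
      Real.log n1 ≤ B * (C * J) ^ j ∧ (n1 : ℝ) * Real.exp (c * (J : ℝ) ^ j) ≤ M1 ∧
      ∀ k n : ℕ, n1 ≤ 2 * k → 2 * k ≤ n → (n : ℝ) * M1 ≤ 4 * n1 * ekmax n k) :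
    ∀ ε : ℝ, 0 < ε → ∃ k0 : ℕ, ∀ k : ℕ, k0 ≤ k → ∀ n : ℕ, 2 * k ≤ n →
      (n : ℝ) * Real.exp ((Real.log k) ^ (1 - ε)) ≤ ekmax n k := by
  intro ε0 hε0
  obtain ⟨ε, hεd⟩ : ∃ ε, ε = min ε0 1 := ⟨_, rfl⟩
  have hε : 0 < ε := by rw [hεd]; exact lt_min hε0 one_pos
  have hε1 : ε ≤ 1 := by rw [hεd]; exact min_le_right _ _
  have hε2 : ε ≤ ε0 := by rw [hεd]; exact min_le_left _ _
  let G : ℕ → ℝ := fun k => ⨅ n : {n : ℕ // 2 * k ≤ n}, (ekmax n k : ℝ) / (n : ℕ)
  have hbd : ∀ k, BddBelow (Set.range fun n : {n : ℕ // 2 * k ≤ n} =>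
      (ekmax n k : ℝ) / ((n : ℕ) : ℝ)) := by
    intro k
    refine ⟨0, ?_⟩
    rintro x ⟨n, rfl⟩
    positivity
  have hne : ∀ k : ℕ, Nonempty {n : ℕ // 2 * k ≤ n} := fun k => ⟨⟨2 * k, le_refl _⟩⟩
  have hG0 : ∀ k, 0 ≤ G k := by
    intro k
    have := hne k
    refine le_ciInf fun n => ?_
    positivity
  let h : ℕ → ℕ := fun m => ⌈4 * (m : ℝ) * G (m / 2)⌉₊
  have key := asymp h C hC J0 (by
    intro J hJ
    obtain ⟨B, c, hB, hc, hH⟩ := H J hJ
    refine ⟨B, c, hB, hc, fun j => ?_⟩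
    obtain ⟨n1, M1, h1, h2, h3, h4⟩ := hH j
    refine ⟨n1, M1, h1, h2, h3, fun n hn hle => ?_⟩
    have hn1 : (0 : ℝ) < n1 := by exact_mod_cast h1
    have hdiv : 2 * (n / 2) = n := by
      obtain ⟨c, hc⟩ := hn
      omega
    have hGk : (M1 : ℝ) / (4 * n1) ≤ G (n / 2) := by
      have := hne (n / 2)
      refine le_ciInf fun n' => ?_
      have hn' : (0 : ℝ) < (n' : ℕ) := by
        have := n'.2
        have h5 : 0 < (n' : ℕ) := by omega
        exact_mod_cast h5
      rw [div_le_div_iff₀ (by positivity) hn']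
      have := h4 (n / 2) n' (by omega) n'.2
      linarith
    have h5 : 4 * (n : ℝ) * G (n / 2) ≤ h n := Nat.le_ceil _
    have h6 : 4 * (n : ℝ) * (M1 / (4 * n1)) ≤ h n :=
      (mul_le_mul_of_nonneg_left hGk (by positivity)).trans h5
    have h7 : 4 * (n : ℝ) * (M1 / (4 * n1)) = n * M1 / n1 := by
      field_simp
    rw [h7, div_le_iff₀ hn1] at h6
    have h8 : (0 : ℝ) ≤ h n := Nat.cast_nonneg _
    nlinarith [mul_nonneg h8 hn1.le]) (ε / 2) (by linarith)
  obtain ⟨n0, hn0⟩ := key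
  have hgrow := grow ε hε hε1 1 (1 - ε / 2) (Real.log 8) one_pos (Real.log_nonneg (by norm_num))
    (le_refl _)
  have hlog : Filter.Tendsto (fun k : ℕ => Real.log (k : ℝ)) Filter.atTop Filter.atTop :=
    Real.tendsto_log_atTop.comp tendsto_natCast_atTop_atTop
  have hev := (hlog.eventually hgrow).and ((hlog.eventually_ge_atTop 1).and
    (Filter.eventually_ge_atTop (n0 + 1)))
  rw [Filter.eventually_atTop] at hev
  obtain ⟨k0, hk0⟩ := hev
  refine ⟨k0, fun k hk n hn => ?_⟩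
  obtain ⟨g1, g2, g3⟩ := hk0 k hk
  have hkpos : 0 < k := by omega
  have hkR : (1 : ℝ) ≤ k := by exact_mod_cast hkpos
  have hnpos : (0 : ℝ) < n := by
    have : 0 < n := by omega
    exact_mod_cast this
  have h1 := hn0 (2 * k) (by omega) ⟨k, by ring⟩
  have h2 : (h (2 * k) : ℝ) ≤ 8 * (k : ℝ) * G k + 1 := by
    have e1 : (2 * k) / 2 = k := by omega
    have e2 := (Nat.ceil_lt_add_one (a := 4 * ((2 * k : ℕ) : ℝ) * G (2 * k / 2))
      (mul_nonneg (by positivity) (hG0 _))).le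
    rw [e1] at e2
    have e3 : (h (2 * k) : ℝ) = (⌈4 * ((2 * k : ℕ) : ℝ) * G k⌉₊ : ℝ) := by
      simp only [h, e1]
    rw [e3]
    refine e2.trans ?_
    push_cast
    linarith
  have h3 : Real.exp ((Real.log k) ^ (1 - ε)) * 8 ≤ Real.exp ((Real.log ((2 * k : ℕ) : ℝ)) ^ (1 - ε / 2)) := by
    have e0 : Real.log k ≤ Real.log ((2 * k : ℕ) : ℝ) := by
      refine Real.log_le_log (by linarith) ?_
      push_cast
      linarith
    have e1 : (Real.log k) ^ (1 - ε / 2) ≤ (Real.log ((2 * k : ℕ) : ℝ)) ^ (1 - ε / 2) :=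
      Real.rpow_le_rpow (by linarith) e0 (by linarith)
    calc Real.exp ((Real.log k) ^ (1 - ε)) * 8
        = Real.exp ((Real.log k) ^ (1 - ε) + Real.log 8) := by
          rw [Real.exp_add, Real.exp_log (by norm_num)]
      _ ≤ _ := Real.exp_le_exp.2 (by rw [one_mul] at g1; linarith)
  have h4 : Real.exp ((Real.log k) ^ (1 - ε)) ≤ G k := by
    have e1 : (1 : ℝ) ≤ Real.exp ((Real.log k) ^ (1 - ε)) := by
      refine Real.one_le_exp (Real.rpow_nonneg (by linarith) _)
    push_cast at h1 h3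
    have e2 : 2 * (k : ℝ) * (Real.exp ((Real.log k) ^ (1 - ε)) * 8) ≤ 8 * (k : ℝ) * G k + 1 :=
      (mul_le_mul_of_nonneg_left h3 (by positivity)).trans (h1.trans h2)
    have e3 : (8 * (k : ℝ)) * Real.exp ((Real.log k) ^ (1 - ε)) ≤ (8 * (k : ℝ)) * G k := by
      nlinarith
    exact le_of_mul_le_mul_left e3 (by positivity)
  have h5 : G k ≤ (ekmax n k : ℝ) / n := ciInf_le (hbd k) ⟨n, hn⟩
  have h6 : Real.exp ((Real.log k) ^ (1 - ε0)) ≤ Real.exp ((Real.log k) ^ (1 - ε)) :=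
    Real.exp_le_exp.2 (Real.rpow_le_rpow_of_exponent_le g2 (by linarith))
  have h7 := h6.trans (h4.trans h5)
  rw [le_div_iff₀ hnpos] at h7
  linarith

end Vale.Agent.P065
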