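import Vale.Agent.P065.KSets
import Vale.Agent.P065.Asymp2

/-!
# P065, Q2 : the strong form of the lower bound for `k`-sets, and the strong final reduction
-/

namespace Vale.Agent.P065

open Finset

/-- `e_k(n) / n ≥ (1/3) M1 / n1` for `n1 ≤ 2 k ≤ n` -/
theorem Weak.le_ekmax3 {n1 M1 : ℕ} (h : Weak n1 M1) (hn1 : 3 ≤ n1) (k n : ℕ) (hk : n1 ≤ 2 * k)
    (hn : 2 * k ≤ n) : (n : ℝ) * M1 ≤ 3 * n1 * ekmax n k := by
  classical
  rcases Nat.eq_zero_or_pos M1 with rfl | hM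
  · have : (0 : ℝ) ≤ 3 * n1 * ekmax n k := by positivity
    simpa using this
  obtain ⟨lam, hl, hlev⟩ := lev_of_weak h hM
  obtain ⟨m, hm⟩ : ∃ m, m = (n - (k - 1 - lam)) / n1 := ⟨_, rfl⟩
  have hk1 : lam + 1 ≤ k := by omega
  have hmn : m * n1 ≤ n - (k - 1 - lam) := by rw [hm]; exact Nat.div_mul_le_self _ _
  have h1 : n - (k - 1 - lam) < (m + 1) * n1 := by
    have e1 := Nat.div_add_mod (n - (k - 1 - lam)) n1
    have e2 := Nat.mod_lt (n - (k - 1 - lam)) (by omega : 0 < n1)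
    rw [← hm] at e1
    nlinarith
  have hm1 : 1 ≤ m := by
    rw [hm]
    exact (Nat.one_le_div_iff (by omega)).2 (by omega)
  have h2 : n ≤ 3 * (m * n1) := by
    have e1 : (m + 1) * n1 = m * n1 + n1 := by ring
    have e2 : n1 ≤ m * n1 := Nat.le_mul_of_pos_left _ hm1
    omega
  have h3 := (hlev.copiesT m).addFar (Fin (n - (k - 1 - lam) - m * n1)) (Fin (k - 1 - lam))
  have hc : Fintype.card ((Fin m × Fin n1) ⊕ Fin (n - (k - 1 - lam) - m * n1) ⊕ Fin (k - 1 - lam)) =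
      n := by
    simp only [Fintype.card_sum, Fintype.card_prod, Fintype.card_fin]
    omega
  have h4 := h3.equiv (Fintype.equivFinOfCardEq hc)
  have h5 : lam + Fintype.card (Fin (k - 1 - lam)) = k - 1 := by
    rw [Fintype.card_fin]; omega
  rw [h5] at h4
  obtain ⟨P, hP1, hP2, hP3⟩ := h4.ksets (by omega)
  rw [Nat.sub_add_cancel (by omega : 1 ≤ k)] at hP3
  have h6 : m * M1 ≤ ekmax n k := hP3.trans (le_csSup (ekmax_bdd n k) ⟨P, hP1, hP2, rfl⟩)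
  have h7 : n * M1 ≤ 3 * n1 * ekmax n k := by
    calc n * M1 ≤ 3 * (m * n1) * M1 := Nat.mul_le_mul_right _ h2
      _ = 3 * n1 * (m * M1) := by ring
      _ ≤ _ := Nat.mul_le_mul_left _ h6
  exact_mod_cast h7

/-- strong asymptotic form for `k`-sets -/
theorem asympK2 (C B0 c0 : ℝ) (hC : 1 ≤ C) (hB : 0 < B0) (hc : 0 < c0) (J0 : ℕ)
    (H : ∀ J : ℕ, J0 ≤ J → ∀ j : ℕ, ∃ n1 M1 : ℕ, 0 < n1 ∧
      Real.log n1 ≤ (B0 * J) * (C * J) ^ j ∧ (n1 : ℝ) * Real.exp (c0 * (J : ℝ) ^ j) ≤ M1 ∧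
      ∀ k n : ℕ, n1 ≤ 2 * k → 2 * k ≤ n → (n : ℝ) * M1 ≤ 3 * n1 * ekmax n k) :
    ∃ C' : ℝ, 0 < C' ∧ ∃ k0 : ℕ, ∀ k : ℕ, k0 ≤ k → ∀ n : ℕ, 2 * k ≤ n →
      (n : ℝ) * Real.exp (Real.log k * Real.exp (-C' * Real.sqrt (Real.log (Real.log k)))) ≤
        ekmax n k := by
  have ha : 0 ≤ Real.log (2 * C) := Real.log_nonneg (by linarith)
  refine ⟨Real.log (2 * C) + 4, by linarith, ?_⟩
  have hlog : Filter.Tendsto (fun n : ℕ => Real.log (n : ℝ)) Filter.atTop Filter.atTop :=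
    Real.tendsto_log_atTop.comp tendsto_natCast_atTop_atTop
  have hlog2 : Filter.Tendsto (fun n : ℕ => Real.log (Real.log (n : ℝ))) Filter.atTop Filter.atTop :=
    Real.tendsto_log_atTop.comp hlog
  have hlog3 : Filter.Tendsto (fun n : ℕ => Real.sqrt (Real.log (Real.log (n : ℝ))))
      Filter.atTop Filter.atTop :=
    Real.tendsto_sqrt_atTop.comp hlog2
  have h2 := (hlog3.eventually (asymp2_choice C B0 c0 hC hB hc J0)).and
    ((hlog.eventually_ge_atTop 1).and ((hlog2.eventually_ge_atTop 0).and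
      (Filter.eventually_ge_atTop 1)))
  rw [Filter.eventually_atTop] at h2
  obtain ⟨n0, hn0⟩ := h2
  refine ⟨n0, fun k hk n hn => ?_⟩
  obtain ⟨⟨J, j, hJ, hj1, hj2⟩, hl1, hl2, hn1⟩ := hn0 k hk
  have hkR : (1 : ℝ) ≤ k := by exact_mod_cast hn1
  have hnR : (1 : ℝ) ≤ n := by
    have : 1 ≤ n := by omega
    exact_mod_cast this
  have hss : Real.exp (Real.sqrt (Real.log (Real.log k)) ^ 2) = Real.log k := by
    rw [Real.sq_sqrt hl2, Real.exp_log (by linarith)]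
  rw [hss] at hj1 hj2
  obtain ⟨n1, M1, hn1p, hlog1, hM1, hW⟩ := H J hJ j
  have hn1R : (0 : ℝ) < n1 := by exact_mod_cast hn1p
  have hle : n1 ≤ k := by
    have e2 := (Real.log_le_log_iff hn1R (by linarith)).1 (hlog1.trans hj1)
    exact_mod_cast e2
  have hW' := hW k n (by omega) hn
  have e3 : Real.exp (Real.log k * Real.exp (-(Real.log (2 * C) + 4) *
      Real.sqrt (Real.log (Real.log k)))) * 3 ≤ Real.exp (c0 * (J : ℝ) ^ j) := by
    calc _ = Real.exp (Real.log k * Real.exp (-(Real.log (2 * C) + 4) *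
          Real.sqrt (Real.log (Real.log k))) + Real.log 3) := by
          rw [Real.exp_add, Real.exp_log (by norm_num : (0 : ℝ) < 3)]
      _ ≤ _ := Real.exp_le_exp.2 hj2
  have e4 : (n : ℝ) * (n1 * Real.exp (c0 * (J : ℝ) ^ j)) ≤ 3 * n1 * ekmax n k :=
    (mul_le_mul_of_nonneg_left hM1 (by linarith)).trans hW'
  have e5 : (n : ℝ) * (n1 * (Real.exp (Real.log k * Real.exp (-(Real.log (2 * C) + 4) *
      Real.sqrt (Real.log (Real.log k)))) * 3)) ≤ n * (n1 * Real.exp (c0 * (J : ℝ) ^ j)) :=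
    mul_le_mul_of_nonneg_left (mul_le_mul_of_nonneg_left e3 hn1R.le) (by linarith)
  have e6 : (3 * (n1 : ℝ)) * (n * Real.exp (Real.log k * Real.exp (-(Real.log (2 * C) + 4) *
      Real.sqrt (Real.log (Real.log k))))) ≤ (3 * n1) * ekmax n k := by
    linarith
  exact le_of_mul_le_mul_left e6 (by positivity)

/-- the strong final reduction: a uniform family of good configurations gives both lower bounds -/
theorem final2_of_good (C B0 c0 : ℝ) (hC : 1 ≤ C) (hB : 0 < B0) (hc : 0 < c0) (J0 : ℕ)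
    (H : ∀ J : ℕ, J0 ≤ J → ∀ j : ℕ,
      ∃ (ι : Type) (_ : Fintype ι) (U : Cfg ι) (lam Δ D E N : ℕ), U.Good lam Δ D E N ∧ 3 ≤ U.wt ∧
      Real.log (2 * (U.wt : ℝ)) ≤ (B0 * J) * (C * J) ^ j ∧
      2 * (U.wt : ℝ) * Real.exp (c0 * (J : ℝ) ^ j) ≤ U.ev.card) :
    (∃ C' : ℝ, 0 < C' ∧ ∃ n0 : ℕ, ∀ n : ℕ, n0 ≤ n → Even n → ∃ P : Finset (ℝ × ℝ), P.card = n ∧
      (∀ a ∈ P, ∀ b ∈ P, ∀ c ∈ P, a ≠ b → b ≠ c → a ≠ c → ¬ Collinear ℝ {a, b, c}) ∧
      (n : ℝ) * Real.exp (Real.log n * Real.exp (-C' * Real.sqrt (Real.log (Real.log n)))) ≤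
        {s : Finset (ℝ × ℝ) | IsHalvingPair P s}.ncard) ∧
    (∃ C' : ℝ, 0 < C' ∧ ∃ k0 : ℕ, ∀ k : ℕ, k0 ≤ k → ∀ n : ℕ, 2 * k ≤ n →
      ∃ P : Finset (ℝ × ℝ), P.card = n ∧
      (∀ a ∈ P, ∀ b ∈ P, ∀ c ∈ P, a ≠ b → b ≠ c → a ≠ c → ¬ Collinear ℝ {a, b, c}) ∧
      (n : ℝ) * Real.exp (Real.log k * Real.exp (-C' * Real.sqrt (Real.log (Real.log k)))) ≤
        {S : Finset (ℝ × ℝ) | IsKSet P S k}.ncard) := by
  have H1 : ∀ J : ℕ, J0 ≤ J → ∀ j : ℕ, ∃ n1 M1 : ℕ, 0 < n1 ∧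
      Real.log n1 ≤ (B0 * J) * (C * J) ^ j ∧ (n1 : ℝ) * Real.exp (c0 * (J : ℝ) ^ j) ≤ M1 ∧ 3 ≤ n1 ∧
      Weak n1 M1 := by
    intro J hJ j
    obtain ⟨ι, _, U, lam, Δ, D, E, N, hU, h3, h4, h5⟩ := H J hJ j
    have hne : U.ev.Nonempty := by
      rw [← card_pos]
      have h6 : (0 : ℝ) < 2 * (U.wt : ℝ) * Real.exp (c0 * (J : ℝ) ^ j) := by
        have : (0 : ℝ) < U.wt := by
          have : 0 < U.wt := by omega
          exact_mod_cast this
        positivity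
      have h7 : (0 : ℝ) < U.ev.card := h6.trans_le h5
      exact_mod_cast h7
    obtain ⟨n1, e1, -, e3, e4⟩ := hU.weak hne
    have hn1 : (0 : ℝ) < n1 := by
      have : 0 < n1 := by omega
      exact_mod_cast this
    have hle : (n1 : ℝ) ≤ 2 * (U.wt : ℝ) := by exact_mod_cast e1
    refine ⟨n1, U.ev.card, by omega, ?_, ?_, by omega, e4⟩
    · exact (Real.log_le_log hn1 hle).trans h4
    · exact (mul_le_mul_of_nonneg_right hle (Real.exp_pos _).le).trans h5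
  constructor
  · obtain ⟨C', hC', n0, hn0⟩ := asymp2 hmax C B0 c0 hC hB hc J0 (by
      intro J hJ j
      obtain ⟨n1, M1, h1, h2, h3, h4, h5⟩ := H1 J hJ j
      exact ⟨n1, M1, h1, h2, h3, fun n hn hle => h5.le_hmax h4 n hn hle⟩)
    refine ⟨C', hC', max n0 3, fun n hn heven => ?_⟩
    obtain ⟨P, h1, h2, h3⟩ := hmax_attained n (le_trans (le_max_right _ _) hn)
    refine ⟨P, h1, h2, ?_⟩
    rw [← h3]
    exact hn0 n (le_trans (le_max_left _ _) hn) heven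
  · obtain ⟨C', hC', k0, hk0⟩ := asympK2 C B0 c0 hC hB hc J0 (by
      intro J hJ j
      obtain ⟨n1, M1, h1, h2, h3, h4, h5⟩ := H1 J hJ j
      exact ⟨n1, M1, h1, h2, h3, fun k n hk hn => h5.le_ekmax3 h4 k n hk hn⟩)
    refine ⟨C', hC', max k0 2, fun k hk n hn => ?_⟩
    have h2k : 2 ≤ k := le_trans (le_max_right _ _) hk
    obtain ⟨P, h1, h2, h3⟩ := ekmax_attained n k (by omega)
    refine ⟨P, h1, h2, ?_⟩
    rw [← h3]
    exact hk0 k (le_trans (le_max_left _ _) hk) n hn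

end Vale.Agent.P065
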