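import Vale.Agent.P065.Compose

/-! Row S2: composition in logarithms. -/

namespace Vale.Agent.P065

theorem natlog_le {X Y : ℕ} (h : X ≤ Y) (hY : 1 ≤ Y) : Real.log X ≤ Real.log Y := by
  rcases Nat.eq_zero_or_pos X with h0 | h0
  · subst h0
    have : (1 : ℝ) ≤ (Y : ℝ) := by exact_mod_cast hY
    simpa using Real.log_nonneg this
  · have h1 : (0 : ℝ) < (X : ℝ) := by exact_mod_cast h0
    exact Real.log_le_log h1 (by exact_mod_cast h)

/-- Row S2 -/
theorem sys_comp : ∃ C : ℝ, 1 ≤ C ∧ ∀ F L K T P F' L' K' T' P' : ℝ,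
    Sys F L K T P → Sys F' L' K' T' P' →
    Sys (F + F' + 2 * K + T' + C) (L + L' - Real.log (21 / 10)) (K + K' + C)
      (T + C * (P + T' + K + 1)) (C * (T' + K + 1)) := by
  refine ⟨100, by norm_num, ?_⟩
  intro F L K T P F' L' K' T' P' h h'
  obtain ⟨n, M, Δ, D, E, N, hc, hn, hF, hL, hK, hD, hE, hN⟩ := h
  obtain ⟨n', M', Δ', D', E', N', hc', hn', hF', hL', hK', hD', hE', hN'⟩ := h'
  -- positivity of the parameters
  have hpos : 1 ≤ Δ ∧ 1 ≤ D ∧ 1 ≤ E ∧ 1 ≤ N := by
    obtain ⟨_, _, U, lam, hg, _, _⟩ := hc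
    exact ⟨hg.posΔ, hg.posD, hg.posE, hg.posN⟩
  have hpos' : 1 ≤ Δ' ∧ 1 ≤ D' ∧ 1 ≤ E' ∧ 1 ≤ N' := by
    obtain ⟨_, _, U, lam, hg, _, _⟩ := hc'
    exact ⟨hg.posΔ, hg.posD, hg.posE, hg.posN⟩
  obtain ⟨pΔ, pD, pE, pN⟩ := hpos
  obtain ⟨pΔ', pD', pE', pN'⟩ := hpos'
  obtain ⟨n'', h1, h2, hcc⟩ := hasCfg_comp hc hc' hn' (32 * (32 * Δ) * D') le_rfl
  have rn : (0 : ℝ) < n := by exact_mod_cast hn
  have rn' : (0 : ℝ) < n' := by exact_mod_cast hn'
  have rΔ : (0 : ℝ) < Δ := by exact_mod_cast pΔ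
  have rD : (0 : ℝ) < D := by exact_mod_cast pD
  have rE : (0 : ℝ) < E := by exact_mod_cast pE
  have rN : (0 : ℝ) < N := by exact_mod_cast pN
  have rΔ' : (0 : ℝ) < Δ' := by exact_mod_cast pΔ'
  have rD' : (0 : ℝ) < D' := by exact_mod_cast pD'
  have rE' : (0 : ℝ) < E' := by exact_mod_cast pE'
  have hn'' : 1 ≤ n'' := le_trans (Nat.one_le_iff_ne_zero.2 (by positivity)) h2
  have rn'' : (0 : ℝ) < n'' := by exact_mod_cast hn''
  have lK : 0 ≤ Real.log Δ := Real.log_nonneg (by exact_mod_cast pΔ)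
  have lD : 0 ≤ Real.log D := Real.log_nonneg (by exact_mod_cast pD)
  have lE : 0 ≤ Real.log E := Real.log_nonneg (by exact_mod_cast pE)
  have lN : 0 ≤ Real.log N := Real.log_nonneg (by exact_mod_cast pN)
  have lD' : 0 ≤ Real.log D' := Real.log_nonneg (by exact_mod_cast pD')
  have lE' : 0 ≤ Real.log E' := Real.log_nonneg (by exact_mod_cast pE')
  have l2 : Real.log 2 < 0.6931471808 := Real.log_two_lt_d9
  have l2p : 0 < Real.log 2 := Real.log_pos (by norm_num)
  refine ⟨n'', M * (32 * Δ * (32 * (32 * Δ) * D') * M'), 32 * Δ * Δ', _, _, _, hcc, hn'',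
    ?_, ?_, ?_, ?_, ?_, ?_⟩
  · -- size
    have e1 : (n'' : ℝ) ≤ 2 ^ 17 * n * n' * Δ ^ 2 * D' := by
      have : 10 * n'' ≤ 10 * (2 ^ 17 * n * n' * Δ ^ 2 * D') := by
        refine le_trans h1 ?_
        have : 21 * n * n' * (32 * Δ) * (32 * (32 * Δ) * D') =
            688128 * (n * n' * Δ ^ 2 * D') := by ring
        rw [this]
        have h3 : 10 * (2 ^ 17 * n * n' * Δ ^ 2 * D') = 1310720 * (n * n' * Δ ^ 2 * D') := by ring
        rw [h3]
        exact Nat.mul_le_mul_right _ (by norm_num)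
      have h4 : n'' ≤ 2 ^ 17 * n * n' * Δ ^ 2 * D' := by omega
      exact_mod_cast h4
    have e2 := Real.log_le_log rn'' e1
    rw [Real.log_mul (by positivity) (by positivity), Real.log_mul (by positivity) (by positivity),
      Real.log_mul (by positivity) (by positivity), Real.log_mul (by positivity) (by positivity),
      Real.log_pow, Real.log_pow] at e2
    push_cast at e2
    linarith
  · -- ratio
    have e1 : (n'' : ℝ) ≤ 21 / 10 * (n * n' * (32 * Δ) * (32 * (32 * Δ) * D')) := by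
      have : (10 * n'' : ℝ) ≤ 21 * n * n' * (32 * Δ) * (32 * (32 * Δ) * D') := by
        exact_mod_cast h1
      linarith
    have e2 : Real.exp (L + L' - Real.log (21 / 10)) = Real.exp L * Real.exp L' / (21 / 10) := by
      rw [Real.exp_sub, Real.exp_add, Real.exp_log (by norm_num)]
    have pL := Real.exp_pos L
    have pL' := Real.exp_pos L'
    rw [e2]
    push_cast
    calc (n'' : ℝ) * (Real.exp L * Real.exp L' / (21 / 10))
        ≤ 21 / 10 * (n * n' * (32 * Δ) * (32 * (32 * Δ) * D'))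
            * (Real.exp L * Real.exp L' / (21 / 10)) := by
          apply mul_le_mul_of_nonneg_right e1
          positivity
      _ = (32 * Δ * (32 * (32 * Δ) * D')) * ((n * Real.exp L) * (n' * Real.exp L')) := by
          field_simp
      _ ≤ (32 * Δ * (32 * (32 * Δ) * D')) * (M * M') := by
          apply mul_le_mul_of_nonneg_left _ (by positivity)
          apply mul_le_mul hL hL' (by positivity)
          exact le_trans (by positivity) hL
      _ = M * (32 * Δ * (32 * (32 * Δ) * D') * M') := by ring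
  · -- degree
    push_cast
    rw [Real.log_mul (by positivity) (by positivity), Real.log_mul (by norm_num) (by positivity)]
    have : Real.log 32 = 5 * Real.log 2 := by
      rw [show (32 : ℝ) = 2 ^ 5 by norm_num, Real.log_pow]; norm_num
    rw [this]
    linarith
  · -- D
    have e1 : 2 * ((16 * (N + 1)) * (16 * zz D' E' (32 * (32 * Δ) * D') * (16 * (N + 1)) *
        (8 * (32 * (32 * Δ) * D'))) * zz D' E' (32 * (32 * Δ) * D')) * D
        ≤ 2 ^ 68 * N ^ 2 * E' ^ 2 * D' ^ 7 * Δ ^ 3 * D := by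
      have hN1 : N + 1 ≤ 2 * N := by omega
      calc 2 * ((16 * (N + 1)) * (16 * zz D' E' (32 * (32 * Δ) * D') * (16 * (N + 1)) *
        (8 * (32 * (32 * Δ) * D'))) * zz D' E' (32 * (32 * Δ) * D')) * D
          ≤ 2 * ((16 * (2 * N)) * (16 * zz D' E' (32 * (32 * Δ) * D') * (16 * (2 * N)) *
        (8 * (32 * (32 * Δ) * D'))) * zz D' E' (32 * (32 * Δ) * D')) * D := by gcongr
        _ = 2 ^ 68 * N ^ 2 * E' ^ 2 * D' ^ 7 * Δ ^ 3 * D := by unfold zz; ring
    have e2 := natlog_le e1 (Nat.one_le_iff_ne_zero.2 (by positivity))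
    refine le_trans e2 ?_
    simp only [Nat.cast_mul, Nat.cast_pow, Nat.cast_ofNat]
    rw [Real.log_mul (by positivity) (by positivity), Real.log_mul (by positivity) (by positivity),
      Real.log_mul (by positivity) (by positivity), Real.log_mul (by positivity) (by positivity),
      Real.log_mul (by positivity) (by positivity),
      Real.log_pow, Real.log_pow, Real.log_pow, Real.log_pow, Real.log_pow]
    push_cast
    linarith
  · -- E
    have e1 : 3 * ((64 * (16 * (N + 1)) * (32 * Δ + 2)) * (16 * zz D' E' (32 * (32 * Δ) * D')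
        * (16 * (N + 1)) * (8 * (32 * (32 * Δ) * D')))
          * (256 * E' * zz D' E' (32 * (32 * Δ) * D'))) * E
        ≤ 2 ^ 88 * N ^ 2 * E' ^ 3 * D' ^ 7 * Δ ^ 4 * E := by
      have hN1 : N + 1 ≤ 2 * N := by omega
      have hD1 : 32 * Δ + 2 ≤ 34 * Δ := by omega
      calc 3 * ((64 * (16 * (N + 1)) * (32 * Δ + 2)) * (16 * zz D' E' (32 * (32 * Δ) * D')
        * (16 * (N + 1)) * (8 * (32 * (32 * Δ) * D')))
          * (256 * E' * zz D' E' (32 * (32 * Δ) * D'))) * E
          ≤ 3 * ((64 * (16 * (2 * N)) * (34 * Δ)) * (16 * zz D' E' (32 * (32 * Δ) * D')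
        * (16 * (2 * N)) * (8 * (32 * (32 * Δ) * D')))
          * (256 * E' * zz D' E' (32 * (32 * Δ) * D'))) * E := by gcongr
        _ = 208896 * 2 ^ 70 * (N ^ 2 * E' ^ 3 * D' ^ 7 * Δ ^ 4 * E) := by unfold zz; ring
        _ ≤ 2 ^ 88 * (N ^ 2 * E' ^ 3 * D' ^ 7 * Δ ^ 4 * E) :=
            Nat.mul_le_mul_right _ (by norm_num)
        _ = 2 ^ 88 * N ^ 2 * E' ^ 3 * D' ^ 7 * Δ ^ 4 * E := by ring
    have e2 := natlog_le e1 (Nat.one_le_iff_ne_zero.2 (by positivity))
    refine le_trans e2 ?_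
    simp only [Nat.cast_mul, Nat.cast_pow, Nat.cast_ofNat]
    rw [Real.log_mul (by positivity) (by positivity), Real.log_mul (by positivity) (by positivity),
      Real.log_mul (by positivity) (by positivity), Real.log_mul (by positivity) (by positivity),
      Real.log_mul (by positivity) (by positivity),
      Real.log_pow, Real.log_pow, Real.log_pow, Real.log_pow, Real.log_pow]
    push_cast
    linarith
  · -- N
    have e1 : (2 + (32 * Δ + 2)) * (8 * (32 * (32 * Δ) * D'))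
          * (256 * E' * zz D' E' (32 * (32 * Δ) * D'))
        ≤ 2 ^ 47 * E' ^ 2 * D' ^ 4 * Δ ^ 3 := by
      have hD1 : 2 + (32 * Δ + 2) ≤ 36 * Δ := by omega
      calc (2 + (32 * Δ + 2)) * (8 * (32 * (32 * Δ) * D'))
          * (256 * E' * zz D' E' (32 * (32 * Δ) * D'))
          ≤ (36 * Δ) * (8 * (32 * (32 * Δ) * D'))
          * (256 * E' * zz D' E' (32 * (32 * Δ) * D')) := by gcongr
        _ = 73728 * 2 ^ 30 * (E' ^ 2 * D' ^ 4 * Δ ^ 3) := by unfold zz; ring
        _ ≤ 2 ^ 47 * (E' ^ 2 * D' ^ 4 * Δ ^ 3) := Nat.mul_le_mul_right _ (by norm_num)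
        _ = 2 ^ 47 * E' ^ 2 * D' ^ 4 * Δ ^ 3 := by ring
    have e2 := natlog_le e1 (Nat.one_le_iff_ne_zero.2 (by positivity))
    refine le_trans e2 ?_
    simp only [Nat.cast_mul, Nat.cast_pow, Nat.cast_ofNat]
    rw [Real.log_mul (by positivity) (by positivity), Real.log_mul (by positivity) (by positivity),
      Real.log_mul (by positivity) (by positivity),
      Real.log_pow, Real.log_pow, Real.log_pow, Real.log_pow]
    push_cast
    linarith

end Vale.Agent.P065
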